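import Vale.Agent.P078.Simple

namespace Vale.Agent.P078

open scoped InnerProductSpace

variable {H : Type*} [NormedAddCommGroup H] [InnerProductSpace ℂ H] [CompleteSpace H]
variable {A : VonNeumannAlgebra H}

lemma cyc_mono_of_mem {w w' : H} (h : w ∈ orbit A w') : cyc A w ≤ cyc A w' := by
  refine Submodule.topologicalClosure_mono ?_
  obtain ⟨c, hc, rfl⟩ := h
  rintro _ ⟨a, ha, rfl⟩
  exact ⟨a * c, mul_mem ha hc, rfl⟩

lemma cyc_common (hA : Ctx A) (F : Finset H) : ∃ w : H, ∀ ξ ∈ F, ξ ∈ cyc A w := by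
  classical
  induction F using Finset.induction_on with
  | empty => exact ⟨0, by simp⟩
  | insert ξ F _ ih =>
    obtain ⟨w, hw⟩ := ih
    set c := cycProj A w with hc
    have hcmem : c ∈ A := cycProj_mem hA w
    have hcp : IsStarProjection c := cycProj_proj w
    have hcw : c w = w := cycProj_self w
    set w' : H := w + (1 - c) ξ with hw'
    have h1 : c w' = w := by
      rw [hw', map_add, hcw]
      have : c ((1 - c) ξ) = 0 := by
        have := congrArg (fun T : H →L[ℂ] H => T ξ) hcp.mul_one_sub_self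
        simpa using this
      rw [this, add_zero]
    have h2 : (1 - c) w' = (1 - c) ξ := by
      rw [sub_apply, one_apply_eq_self, h1, hw']
      abel
    have hmono : cyc A w ≤ cyc A w' := cyc_mono_of_mem ⟨c, hcmem, h1⟩
    refine ⟨w', fun ζ hζ => ?_⟩
    rcases Finset.mem_insert.mp hζ with rfl | hζ'
    · have e1 : c ζ ∈ cyc A w' := hmono (cycProj_apply_mem w ζ)
      have e2 : (1 - c) ζ ∈ cyc A w' := by
        rw [← h2]
        exact orbit_le_cyc w' ⟨1 - c, sub_mem (one_mem A) hcmem, rfl⟩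
      have : ζ = c ζ + (1 - c) ζ := by
        rw [sub_apply, one_apply_eq_self]; abel
      rw [this]
      exact add_mem e1 e2
    · exact hmono (hw ζ hζ')

lemma exists_adapted_aux (hA : Ctx A) (w : H) {δ : ℝ} (hδ : 0 < δ) (F : Finset H)
    (hF : ∀ ξ ∈ F, ξ ∈ cyc A w) :
    ∃ (ι : Type) (_ : Fintype ι) (e : ι → H →L[ℂ] H), Part A e 1 ∧
      ∀ ξ ∈ F, ∃ v ∈ Submodule.span ℂ (Set.range fun l => e l w), ‖ξ - v‖ < δ := by
  classical
  induction F using Finset.induction_on with
  | empty =>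
    exact ⟨Unit, inferInstance, fun _ => 1, Part.single (one_mem A) (IsStarProjection.one _),
      by simp⟩
  | insert ξ F _ ih =>
    obtain ⟨ι, _, e, he, happ⟩ := ih (fun ζ hζ => hF ζ (Finset.mem_insert_of_mem hζ))
    have hξ : ξ ∈ closure (orbit A w : Set H) := hF ξ (Finset.mem_insert_self ξ F)
    obtain ⟨_, ⟨a, ha, rfl⟩, hdist⟩ := Metric.mem_closure_iff.mp hξ (δ / 2) (half_pos hδ)
    obtain ⟨s, hs, hle⟩ := approx hA ha (δ := δ / (2 * (‖w‖ + 1))) (by positivity)
    obtain ⟨ι', _, e', γ, he', rfl⟩ := hs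
    have hprod : Part A (fun lm : ι × ι' => e lm.1 * e' lm.2) 1 := by
      have := he.prod hA.comm he'
      rwa [one_mul] at this
    set S : Submodule ℂ H := Submodule.span ℂ (Set.range fun lm : ι × ι' => (e lm.1 * e' lm.2) w)
      with hS
    have hmem : ∀ l m, (e l * e' m) w ∈ S := fun l m => Submodule.subset_span ⟨(l, m), rfl⟩
    have h1 : ∀ l, e l w ∈ S := by
      intro l
      have : e l w = ∑ m, (e l * e' m) w := by
        rw [← _root_.sum_apply, ← Finset.mul_sum, he'.sum_eq, mul_one]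
      rw [this]
      exact sum_mem fun m _ => hmem l m
    have h2 : ∀ m, e' m w ∈ S := by
      intro m
      have : e' m w = ∑ l, (e l * e' m) w := by
        rw [← _root_.sum_apply, ← Finset.sum_mul, he.sum_eq, one_mul]
      rw [this]
      exact sum_mem fun l _ => hmem l m
    refine ⟨ι × ι', inferInstance, fun lm => e lm.1 * e' lm.2, hprod, fun ζ hζ => ?_⟩
    rcases Finset.mem_insert.mp hζ with rfl | hζ'
    · refine ⟨(∑ m, γ m • e' m) w, ?_, ?_⟩
      · rw [_root_.sum_apply]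
        exact sum_mem fun m _ => S.smul_mem _ (h2 m)
      · have e1 : ‖ζ - a w‖ < δ / 2 := by rwa [dist_eq_norm] at hdist
        have e2 : ‖a w - (∑ m, γ m • e' m) w‖ ≤ δ / 2 := by
          rw [← sub_apply]
          calc ‖(a - ∑ m, γ m • e' m) w‖ ≤ ‖a - ∑ m, γ m • e' m‖ * ‖w‖ :=
                ContinuousLinearMap.le_opNorm _ _
            _ ≤ δ / (2 * (‖w‖ + 1)) * (‖w‖ + 1) := by
                gcongr
                linarith
            _ = δ / 2 := by field_simp
        calc ‖ζ - (∑ m, γ m • e' m) w‖ = ‖(ζ - a w) + (a w - (∑ m, γ m • e' m) w)‖ := by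
              congr 1; abel
          _ ≤ ‖ζ - a w‖ + ‖a w - (∑ m, γ m • e' m) w‖ := norm_add_le _ _
          _ < δ := by linarith
    · obtain ⟨v, hv, hlt⟩ := happ ζ hζ'
      refine ⟨v, ?_, hlt⟩
      refine (Submodule.span_le.mpr ?_) hv
      rintro _ ⟨l, rfl⟩
      exact h1 l

theorem exists_adapted (hA : Ctx A) (F : Finset H) {δ : ℝ} (hδ : 0 < δ) :
    ∃ (w : H) (ι : Type) (_ : Fintype ι) (e : ι → H →L[ℂ] H), Part A e 1 ∧
      ∀ ξ ∈ F, ∃ v ∈ Submodule.span ℂ (Set.range fun l => e l w), ‖ξ - v‖ < δ := by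
  obtain ⟨w, hw⟩ := cyc_common hA F
  exact ⟨w, exists_adapted_aux hA w hδ F hw⟩

end Vale.Agent.P078
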