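import Vale.Agent.P078.Proj

namespace Vale.Agent.P078

open scoped InnerProductSpace

variable {H : Type*} [NormedAddCommGroup H] [InnerProductSpace ℂ H] [CompleteSpace H]

/-- double commutant membership -/
lemma mem_of_commute_commutant (M : VonNeumannAlgebra H) {T : H →L[ℂ] H}
    (h : ∀ y ∈ M.commutant, y * T = T * y) : T ∈ M := by
  rw [← M.commutant_commutant, VonNeumannAlgebra.mem_commutant_iff]
  exact h

lemma commute_of_mem_commutant {M : VonNeumannAlgebra H} {T y : H →L[ℂ] H} (hT : T ∈ M)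
    (hy : y ∈ M.commutant) : y * T = T * y :=
  ((VonNeumannAlgebra.mem_commutant_iff.mp hy) T hT).symm

omit [CompleteSpace H] in
/-- order inequality in vector form -/
lemma le_inner {S T : H →L[ℂ] H} (h : S ≤ T) (ξ : H) :
    (⟪ξ, S ξ⟫_ℂ).re ≤ (⟪ξ, T ξ⟫_ℂ).re := by
  have h1 : (T - S).IsPositive := (ContinuousLinearMap.le_def S T).mp h
  have h2 := h1.re_inner_nonneg_right ξ
  simp only [sub_apply, inner_sub_right] at h2
  have h3 : 0 ≤ (⟪ξ, T ξ⟫_ℂ - ⟪ξ, S ξ⟫_ℂ).re := h2
  rw [Complex.sub_re] at h3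
  linarith

/-- a projection commutes with `z` as soon as its range is invariant under `z` and `star z` -/
lemma commute_starProjection (K : Submodule ℂ H) [K.HasOrthogonalProjection] {z : H →L[ℂ] H}
    (h1 : ∀ ξ ∈ K, z ξ ∈ K) (h2 : ∀ ξ ∈ K, (star z) ξ ∈ K) :
    z * K.starProjection = K.starProjection * z := by
  set f : H →L[ℂ] H := K.starProjection with hf
  have hfp : IsStarProjection f := isStarProjection_starProjection
  have e1 : f * z * f = z * f := by
    ext ξ
    have : z (f ξ) ∈ K := h1 _ (Submodule.starProjection_apply_mem _ _)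
    exact Submodule.starProjection_eq_self_iff.mpr this
  have e2 : f * star z * f = star z * f := by
    ext ξ
    have : (star z) (f ξ) ∈ K := h2 _ (Submodule.starProjection_apply_mem _ _)
    exact Submodule.starProjection_eq_self_iff.mpr this
  have e3 : f * z * f = f * z := by
    have := congrArg star e2
    simpa [star_mul, hfp.isSelfAdjoint.star_eq, mul_assoc] using this
  rw [← e1, e3]

/-- the sign projection of a self-adjoint operator; it commutes with everything that commutes
with the operator -/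
lemma sign_proj {d : H →L[ℂ] H} (hsa : IsSelfAdjoint d) :
    ∃ f : H →L[ℂ] H, IsStarProjection f ∧ f * d * f = d⁺ ∧ (1 - f) * d * (1 - f) = -d⁻ ∧
      ∀ z : H →L[ℂ] H, z * d = d * z → z * f = f * z := by
  set N : Submodule ℂ H := (d⁻ : H →L[ℂ] H).ker with hN
  have : CompleteSpace N := (d⁻ : H →L[ℂ] H).isClosed_ker.completeSpace_coe
  set f : H →L[ℂ] H := N.starProjection with hf
  have hfp : IsStarProjection f := isStarProjection_starProjection
  have hcomm : ∀ z : H →L[ℂ] H, z * d = d * z → z * f = f * z := by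
    intro z hz
    have hinv : ∀ w : H →L[ℂ] H, w * d = d * w → ∀ ξ ∈ N, w ξ ∈ N := by
      intro w hw ξ hξ
      have h1 : Commute d w := hw.symm
      have h2 : Commute (d⁻) w := by
        rw [CFC.negPart_def]
        exact h1.cfcₙ_real _
      have h0 : (d⁻ : H →L[ℂ] H) ξ = 0 := hξ
      show (d⁻ : H →L[ℂ] H) (w ξ) = 0
      have h3 := congrArg (fun T : H →L[ℂ] H => T ξ) h2.eq
      simp only [mul_apply_eq_comp] at h3
      rw [h3, h0, map_zero]
    refine commute_starProjection N (hinv z hz) (hinv (star z) ?_)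
    have := congrArg star hz
    simpa [star_mul, hsa.star_eq] using this.symm
  have h1 : d⁻ * f = 0 := by
    ext ξ
    have : f ξ ∈ N := Submodule.starProjection_apply_mem _ _
    exact this
  have h2 : f * d⁺ = d⁺ := by
    ext ξ
    have : (d⁺ : H →L[ℂ] H) ξ ∈ N := by
      show (d⁻ : H →L[ℂ] H) ((d⁺ : H →L[ℂ] H) ξ) = 0
      have h3 : ((d⁻ : H →L[ℂ] H) * (d⁺ : H →L[ℂ] H)) ξ = (0 : H →L[ℂ] H) ξ := by
        rw [CFC.negPart_mul_posPart d]
      exact h3
    exact Submodule.starProjection_eq_self_iff.mpr this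
  have hpsa : IsSelfAdjoint (d⁺) := (CFC.posPart_nonneg d).isSelfAdjoint
  have hnsa : IsSelfAdjoint (d⁻) := (CFC.negPart_nonneg d).isSelfAdjoint
  have h1' : f * d⁻ = 0 := by
    have := congrArg star h1
    simpa [star_mul, hfp.isSelfAdjoint.star_eq, hnsa.star_eq] using this
  have h2' : d⁺ * f = d⁺ := by
    have := congrArg star h2
    simpa [star_mul, hfp.isSelfAdjoint.star_eq, hpsa.star_eq] using this
  have hdec : d = d⁺ - d⁻ := (CFC.posPart_sub_negPart d hsa).symm
  refine ⟨f, hfp, ?_, ?_, hcomm⟩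
  · calc f * d * f = f * (d⁺ - d⁻) * f := by rw [← hdec]
      _ = (f * d⁺) * f - (f * d⁻) * f := by rw [mul_sub, sub_mul]
      _ = d⁺ := by rw [h2, h2', h1']; simp
  · calc (1 - f) * d * (1 - f) = (1 - f) * (d⁺ - d⁻) * (1 - f) := by rw [← hdec]
      _ = ((d⁺ - f * d⁺) - (d⁻ - f * d⁻)) * (1 - f) := by
          congr 1
          rw [sub_mul, one_mul, mul_sub]
          abel
      _ = -(d⁻ - d⁻ * f) := by
          rw [h2, h1', sub_self, sub_zero, zero_sub, neg_mul, mul_sub, mul_one]
      _ = -d⁻ := by rw [h1]; simp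

/-- spectral cut of a positive operator at level `η` -/
lemma cut {b : H →L[ℂ] H} (hb : 0 ≤ b) (η : ℝ) :
    ∃ f : H →L[ℂ] H, IsStarProjection f ∧ f * b * f ≤ (η : ℂ) • f ∧ (η : ℂ) • (1 - f) ≤ b ∧
      f * b * f ≤ b ∧ ∀ z : H →L[ℂ] H, z * b = b * z → z * f = f * z := by
  have hbsa : IsSelfAdjoint b := hb.isSelfAdjoint
  set d : H →L[ℂ] H := (η : ℂ) • 1 - b with hd
  have hηsa : IsSelfAdjoint ((η : ℂ) • (1 : H →L[ℂ] H)) := by
    show star _ = _
    rw [star_smul, star_one]
    simp
  have hdsa : IsSelfAdjoint d := hηsa.sub hbsa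
  obtain ⟨f, hfp, hpos, hneg, hcomm⟩ := sign_proj hdsa
  have hcomm' : ∀ z : H →L[ℂ] H, z * b = b * z → z * f = f * z := by
    intro z hz
    refine hcomm z ?_
    rw [hd, mul_sub, sub_mul, hz]
    simp
  have hbf : b * f = f * b := hcomm' b rfl
  have hff : f * f = f := hfp.isIdempotentElem.eq
  have hgg : (1 - f) * (1 - f) = 1 - f := hfp.one_sub.isIdempotentElem.eq
  have key : ∀ g : H →L[ℂ] H, g * g = g → g * d * g = (η : ℂ) • g - g * b * g := by
    intro g hg
    rw [hd, mul_sub, sub_mul]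
    congr 1
    rw [mul_smul_comm, mul_one, smul_mul_assoc, hg]
  have e1 : f * d * f = (η : ℂ) • f - f * b * f := key f hff
  have e2 : (1 - f) * d * (1 - f) = (η : ℂ) • (1 - f) - (1 - f) * b * (1 - f) := key _ hgg
  have i1 : f * b * f ≤ (η : ℂ) • f := by
    rw [← sub_nonneg, ← e1, hpos]
    exact CFC.posPart_nonneg d
  have i2 : (η : ℂ) • (1 - f) ≤ (1 - f) * b * (1 - f) := by
    rw [← sub_nonneg]
    have : (1 - f) * b * (1 - f) - (η : ℂ) • (1 - f) = d⁻ := by
      rw [← neg_sub, ← e2, hneg, neg_neg]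
    rw [this]
    exact CFC.negPart_nonneg d
  have hdecomp : b = f * b * f + (1 - f) * b * (1 - f) := by
    have h1 : f * b * f = b * f := by rw [← hbf, mul_assoc, hff]
    have h2 : (1 - f) * b * (1 - f) = b * (1 - f) := by
      have : (1 - f) * b = b * (1 - f) := by
        rw [sub_mul, mul_sub, one_mul, mul_one, hbf]
      rw [this, mul_assoc, hgg]
    rw [h1, h2, ← mul_add]
    simp
  have p1 : 0 ≤ f * b * f := by
    have := IsSelfAdjoint.conjugate_nonneg hb hfp.isSelfAdjoint
    exact this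
  have p2 : 0 ≤ (1 - f) * b * (1 - f) := by
    have := IsSelfAdjoint.conjugate_nonneg hb hfp.one_sub.isSelfAdjoint
    exact this
  refine ⟨f, hfp, i1, ?_, ?_, hcomm'⟩
  · refine i2.trans ?_
    nth_rewrite 2 [hdecomp]
    exact le_add_of_nonneg_left p1
  · nth_rewrite 2 [hdecomp]
    exact le_add_of_nonneg_right p2

end Vale.Agent.P078
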