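import Vale.Agent.P078.Simple
import Vale.Agent.P078.VN

namespace Vale.Agent.P078

open scoped InnerProductSpace

variable {H : Type*} [NormedAddCommGroup H] [InnerProductSpace ℂ H] [CompleteSpace H]
variable {A : VonNeumannAlgebra H}

/-- commutativity of a von Neumann algebra -/
def Comm (A : VonNeumannAlgebra H) : Prop := ∀ a ∈ A, ∀ b ∈ A, a * b = b * a

namespace Gen

lemma exists_sign_proj {d : H →L[ℂ] H} (hd : d ∈ A) (hsa : IsSelfAdjoint d) :
    ∃ f ∈ A, IsStarProjection f ∧ f * d * f = d⁺ ∧ (1 - f) * d * (1 - f) = -d⁻ := by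
  obtain ⟨f, hfp, h1, h2, hc⟩ := sign_proj hsa
  exact ⟨f, mem_of_commute_commutant A fun y hy => hc y (commute_of_mem_commutant hd hy),
    hfp, h1, h2⟩

lemma split_half (hA : Comm A) {b z : H →L[ℂ] H} (hb : b ∈ A) (hz : z ∈ A) (hzsa : IsSelfAdjoint z)
    (h0 : 0 ≤ b) (h1 : b ≤ z + z) :
    ∃ f ∈ A, IsStarProjection f ∧ 0 ≤ b - z * f ∧ b - z * f ≤ z := by
  have hbsa : IsSelfAdjoint b := h0.isSelfAdjoint
  obtain ⟨f, hf, hfp, hpos, hneg⟩ := exists_sign_proj (sub_mem hb hz) (hbsa.sub hzsa)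
  set d := b - z with hd
  have hdec : d = d⁺ - d⁻ := (CFC.posPart_sub_negPart d (hbsa.sub hzsa)).symm
  have hzf : f * z * f = z * f := by
    rw [hA f hf z hz, mul_assoc, hfp.isIdempotentElem.eq]
  have hzf' : (1 - f) * z * (1 - f) = z * (1 - f) := by
    rw [hA (1 - f) (sub_mem (one_mem A) hf) z hz, mul_assoc, hfp.one_sub.isIdempotentElem.eq]
  refine ⟨f, hf, hfp, ?_, ?_⟩
  · have hle : d⁻ ≤ z * (1 - f) := by
      have h2 : -d ≤ z := by
        rw [hd]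
        have : -(b - z) = z - b := by abel
        rw [this]
        exact sub_le_self z h0
      have h3 := IsSelfAdjoint.conjugate_le_conjugate h2 hfp.one_sub.isSelfAdjoint
      rw [hzf'] at h3
      have h4 : (1 - f) * -d * (1 - f) = d⁻ := by
        rw [mul_neg, neg_mul, hneg, neg_neg]
      rwa [h4] at h3
    have heq : b - z * f = d⁺ + (z * (1 - f) - d⁻) := by
      have : b = d + z := by rw [hd]; abel
      rw [this]
      nth_rewrite 1 [hdec]
      rw [mul_sub, mul_one]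
      abel
    rw [heq]
    exact add_nonneg (CFC.posPart_nonneg d) (sub_nonneg.mpr hle)
  · have hle : d⁺ ≤ z * f := by
      have h2 : d ≤ z := by
        rw [hd]
        exact sub_le_iff_le_add.mpr h1
      have h3 := IsSelfAdjoint.conjugate_le_conjugate h2 hfp.isSelfAdjoint
      rwa [hzf, hpos] at h3
    have heq : z - (b - z * f) = (z * f - d⁺) + d⁻ := by
      have : b = d + z := by rw [hd]; abel
      rw [this]
      nth_rewrite 1 [hdec]
      abel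
    rw [← sub_nonneg, heq]
    exact add_nonneg (sub_nonneg.mpr hle) (CFC.negPart_nonneg d)

lemma simple_add {s s' : H →L[ℂ] H} (hA : Comm A) (h : Simple A s) (h' : Simple A s') : Simple A (s + s') := by
  obtain ⟨ι, _, e, γ, he, rfl⟩ := h
  obtain ⟨ι', _, e', γ', he', rfl⟩ := h'
  refine ⟨ι × ι', inferInstance, fun lm => e lm.1 * e' lm.2, fun lm => γ lm.1 + γ' lm.2, ?_, ?_⟩
  · have := he.prod hA he'
    rwa [one_mul] at this
  · rw [Fintype.sum_prod_type]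
    simp only [add_smul, Finset.sum_add_distrib]
    congr 1
    · refine Finset.sum_congr rfl fun l _ => ?_
      rw [← Finset.smul_sum, ← Finset.mul_sum, he'.sum_eq, mul_one]
    · rw [Finset.sum_comm]
      refine Finset.sum_congr rfl fun m _ => ?_
      rw [← Finset.smul_sum, ← Finset.sum_mul, he.sum_eq, one_mul]

lemma approx_pos (hA : Comm A) {b : H →L[ℂ] H} (hb : b ∈ A) (h0 : 0 ≤ b) (c : ℝ)
    (h1 : b ≤ algebraMap ℝ (H →L[ℂ] H) c) (n : ℕ) :
    ∃ s, Simple A s ∧ 0 ≤ b - s ∧ b - s ≤ algebraMap ℝ (H →L[ℂ] H) (c / 2 ^ n) := by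
  induction n with
  | zero => exact ⟨0, Simple.zero, by simpa using h0, by simpa using h1⟩
  | succ n ih =>
    obtain ⟨s, hs, hs0, hs1⟩ := ih
    have hz : algebraMap ℝ (H →L[ℂ] H) (c / 2 ^ n)
        = algebraMap ℝ (H →L[ℂ] H) (c / 2 ^ (n + 1)) + algebraMap ℝ (H →L[ℂ] H) (c / 2 ^ (n + 1)) := by
      rw [← map_add]
      congr 1
      rw [pow_succ]
      field_simp
      ring
    rw [hz] at hs1
    obtain ⟨f, hf, hfp, hf0, hf1⟩ := split_half hA (sub_mem hb hs.mem)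
      (algebraMap_real_mem (c / 2 ^ (n + 1))) (IsSelfAdjoint.algebraMap _ (IsSelfAdjoint.all _))
      hs0 hs1
    refine ⟨s + algebraMap ℝ (H →L[ℂ] H) (c / 2 ^ (n + 1)) * f, ?_, ?_, ?_⟩
    · rw [algebraMap_real_mul]
      exact simple_add hA hs (Simple.smul_proj _ hf hfp)
    · rwa [← sub_sub]
    · rwa [← sub_sub]

lemma approx_pos_norm (hA : Comm A) {b : H →L[ℂ] H} (hb : b ∈ A) (h0 : 0 ≤ b) {δ : ℝ}
    (hδ : 0 < δ) : ∃ s, Simple A s ∧ ‖b - s‖ ≤ δ := by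
  have h1 : b ≤ algebraMap ℝ (H →L[ℂ] H) ‖b‖ := IsSelfAdjoint.le_algebraMap_norm_self h0.isSelfAdjoint
  obtain ⟨n, hn⟩ : ∃ n : ℕ, ‖b‖ / 2 ^ n ≤ δ := by
    obtain ⟨n, hn⟩ := exists_nat_gt (‖b‖ / δ)
    refine ⟨n, ?_⟩
    have h2 : (n : ℝ) < 2 ^ n := by exact_mod_cast Nat.lt_two_pow_self
    rw [div_le_iff₀ (by positivity)]
    rw [div_lt_iff₀ hδ] at hn
    nlinarith
  obtain ⟨s, hs, hs0, hs1⟩ := approx_pos hA hb h0 ‖b‖ h1 n
  refine ⟨s, hs, ?_⟩
  calc ‖b - s‖ ≤ ‖algebraMap ℝ (H →L[ℂ] H) (‖b‖ / 2 ^ n)‖ :=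
        CStarAlgebra.norm_le_norm_of_nonneg_of_le hs0 hs1
    _ ≤ ‖(‖b‖ / 2 ^ n : ℝ)‖ * ‖(1 : H →L[ℂ] H)‖ := by
        rw [Algebra.algebraMap_eq_smul_one]
        exact norm_smul_le _ _
    _ ≤ ‖b‖ / 2 ^ n * 1 := by
        have h3 : ‖(1 : H →L[ℂ] H)‖ ≤ 1 := ContinuousLinearMap.norm_id_le
        have h4 : ‖(‖b‖ / 2 ^ n : ℝ)‖ = ‖b‖ / 2 ^ n := by
          rw [Real.norm_eq_abs, abs_of_nonneg (by positivity)]
        rw [h4]
        gcongr
    _ ≤ δ := by rw [mul_one]; exact hn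

lemma approx_sa (hA : Comm A) {a : H →L[ℂ] H} (ha : a ∈ A) (hsa : IsSelfAdjoint a) {δ : ℝ}
    (hδ : 0 < δ) : ∃ s, Simple A s ∧ ‖a - s‖ ≤ δ := by
  have h0 : 0 ≤ a + algebraMap ℝ (H →L[ℂ] H) ‖a‖ := by
    have := IsSelfAdjoint.neg_algebraMap_norm_le_self hsa
    rw [neg_le_iff_add_nonneg] at this
    exact this
  obtain ⟨s, hs, hle⟩ := approx_pos_norm hA (add_mem ha (algebraMap_real_mem ‖a‖)) h0 hδ
  refine ⟨s + ((-‖a‖ : ℝ) : ℂ) • (1 : H →L[ℂ] H),
    simple_add hA hs (Simple.smul_proj _ (one_mem A) (IsStarProjection.one _)), ?_⟩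
  have : a - (s + ((-‖a‖ : ℝ) : ℂ) • (1 : H →L[ℂ] H)) = a + algebraMap ℝ (H →L[ℂ] H) ‖a‖ - s := by
    have h2 : algebraMap ℝ (H →L[ℂ] H) ‖a‖ = ((‖a‖ : ℝ) : ℂ) • (1 : H →L[ℂ] H) := by
      rw [← algebraMap_real_mul, mul_one]
    rw [h2]
    push_cast
    rw [neg_smul]
    abel
  rw [this]
  exact hle

theorem approx (hA : Comm A) {a : H →L[ℂ] H} (ha : a ∈ A) {δ : ℝ} (hδ : 0 < δ) :
    ∃ s, Simple A s ∧ ‖a - s‖ ≤ δ := by
  have hstar : star a ∈ A := star_mem ha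
  set a1 : H →L[ℂ] H := (1 / 2 : ℂ) • (a + star a) with ha1
  set a2 : H →L[ℂ] H := (-Complex.I / 2 : ℂ) • (a - star a) with ha2
  have h1sa : IsSelfAdjoint a1 := by
    show star a1 = a1
    rw [ha1, star_smul, star_add, star_star, add_comm]
    congr 1
    simp
  have h2sa : IsSelfAdjoint a2 := by
    show star a2 = a2
    rw [ha2, star_smul, star_sub, star_star]
    have : star (-Complex.I / 2 : ℂ) = Complex.I / 2 := by
      simp [Complex.ext_iff]
    rw [this, ← neg_sub a (star a), smul_neg, ← neg_smul]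
    congr 1
    ring
  have hdec : a = a1 + Complex.I • a2 := by
    rw [ha1, ha2, smul_smul]
    have : Complex.I * (-Complex.I / 2) = 1 / 2 := by
      have := Complex.I_mul_I
      linear_combination (-1 / 2 : ℂ) * this
    rw [this, ← smul_add]
    have h3 : a + star a + (a - star a) = (2 : ℂ) • a := by
      rw [two_smul]; abel
    rw [h3, smul_smul]
    norm_num
  obtain ⟨s1, hs1, hle1⟩ := approx_sa hA (smul_mem' _ (add_mem ha hstar)) h1sa (half_pos hδ)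
  obtain ⟨s2, hs2, hle2⟩ := approx_sa hA (smul_mem' _ (sub_mem ha hstar)) h2sa (half_pos hδ)
  refine ⟨s1 + Complex.I • s2, simple_add hA hs1 (hs2.smul _), ?_⟩
  have : a - (s1 + Complex.I • s2) = (a1 - s1) + Complex.I • (a2 - s2) := by
    nth_rewrite 1 [hdec]
    rw [smul_sub]
    abel
  rw [this]
  calc ‖(a1 - s1) + Complex.I • (a2 - s2)‖ ≤ ‖a1 - s1‖ + ‖Complex.I • (a2 - s2)‖ := norm_add_le _ _
    _ = ‖a1 - s1‖ + ‖a2 - s2‖ := by rw [norm_smul, Complex.norm_I, one_mul]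
    _ ≤ δ / 2 + δ / 2 := add_le_add hle1 hle2
    _ = δ := by ring


end Gen

end Vale.Agent.P078
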