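import Mathlib

namespace Vale.Agent.P078

open scoped InnerProductSpace

section chaos

variable {E : Type*} [NormedAddCommGroup E] [InnerProductSpace ℂ E]

/-- second moment of a sum with orthogonal real coefficients -/
lemma sum_norm_sq_orth {Ω I : Type*} [Fintype Ω] [DecidableEq I] (S : Finset I) (f : I → Ω → ℝ)
    (v : I → E) (N : ℝ)
    (horth : ∀ i ∈ S, ∀ j ∈ S, i ≠ j → ∑ ω, f i ω * f j ω = 0)
    (hN : ∀ i ∈ S, ∑ ω, f i ω * f i ω ≤ N) :
    ∑ ω, ‖∑ i ∈ S, ((f i ω : ℝ) : ℂ) • v i‖ ^ 2 ≤ N * ∑ i ∈ S, ‖v i‖ ^ 2 := by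
  have h1 : ∀ ω, ‖∑ i ∈ S, ((f i ω : ℝ) : ℂ) • v i‖ ^ 2
      = ∑ i ∈ S, ∑ j ∈ S, f i ω * f j ω * (⟪v i, v j⟫_ℂ).re := by
    intro ω
    rw [← inner_self_eq_norm_sq (𝕜 := ℂ), sum_inner]
    simp only [inner_sum, inner_smul_left, inner_smul_right, Complex.conj_ofReal, map_sum]
    refine Finset.sum_congr rfl fun i _ => Finset.sum_congr rfl fun j _ => ?_
    simp only [RCLike.re_to_complex, Complex.re_ofReal_mul]
    ring
  calc ∑ ω, ‖∑ i ∈ S, ((f i ω : ℝ) : ℂ) • v i‖ ^ 2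
      = ∑ ω, ∑ i ∈ S, ∑ j ∈ S, f i ω * f j ω * (⟪v i, v j⟫_ℂ).re :=
        Finset.sum_congr rfl fun ω _ => h1 ω
    _ = ∑ i ∈ S, ∑ j ∈ S, (∑ ω, f i ω * f j ω) * (⟪v i, v j⟫_ℂ).re := by
        rw [Finset.sum_comm]
        refine Finset.sum_congr rfl fun i _ => ?_
        rw [Finset.sum_comm]
        refine Finset.sum_congr rfl fun j _ => ?_
        rw [Finset.sum_mul]
    _ = ∑ i ∈ S, (∑ ω, f i ω * f i ω) * ‖v i‖ ^ 2 := by
        refine Finset.sum_congr rfl fun i hi => ?_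
        rw [Finset.sum_eq_single i]
        · rw [← inner_self_eq_norm_sq (𝕜 := ℂ)]
          rfl
        · intro j hj hji
          rw [horth i hi j hj (Ne.symm hji), zero_mul]
        · intro h; exact absurd hi h
    _ ≤ ∑ i ∈ S, N * ‖v i‖ ^ 2 := by
        refine Finset.sum_le_sum fun i hi => ?_
        gcongr
        exact hN i hi
    _ = N * ∑ i ∈ S, ‖v i‖ ^ 2 := by rw [Finset.mul_sum]

end chaos

section colour

variable {T : Type*} [Fintype T] [DecidableEq T] {r : ℕ}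

/-- the centred indicator of the event that `t` and `s` get the same colour -/
noncomputable def eps (c : T → Fin r) (t s : T) : ℝ := (if c t = c s then 1 else 0) - 1 / (r : ℝ)

omit [Fintype T] [DecidableEq T] in
lemma eps_symm (c : T → Fin r) (t s : T) : eps c t s = eps c s t := by
  unfold eps
  simp only [eq_comm]

omit [Fintype T] [DecidableEq T] in
lemma eps_self (c : T → Fin r) (t : T) : eps c t t = 1 - 1 / (r : ℝ) := by
  unfold eps
  simp

omit [Fintype T] [DecidableEq T] in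
lemma eps_sq_le (hr : 0 < r) (c : T → Fin r) (t s : T) : eps c t s * eps c t s ≤ 1 := by
  have h1 : (0 : ℝ) < r := by exact_mod_cast hr
  have h2 : 1 / (r : ℝ) ≤ 1 := by
    rw [div_le_one h1]
    exact_mod_cast hr
  have h3 : 0 < 1 / (r : ℝ) := by positivity
  unfold eps
  split_ifs <;> nlinarith

lemma sum_eps_mul_eps (hr : 0 < r) {t s t' s' : T} (h1 : t ≠ s) (h2 : t ≠ t') (h3 : t ≠ s') :
    ∑ c : T → Fin r, eps c t s * eps c t' s' = 0 := by
  have hr' : (r : ℝ) ≠ 0 := by positivity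
  rw [← (Equiv.funSplitAt t (Fin r)).symm.sum_comp, Fintype.sum_prod_type, Finset.sum_comm]
  refine Finset.sum_eq_zero fun c' _ => ?_
  have e1 : ∀ k : Fin r, eps ((Equiv.funSplitAt t (Fin r)).symm (k, c')) t s
      = (if k = c' ⟨s, h1.symm⟩ then 1 else 0) - 1 / (r : ℝ) := by
    intro k
    unfold eps
    simp [Equiv.funSplitAt, Equiv.piSplitAt, h1.symm]
  have e2 : ∀ k : Fin r, eps ((Equiv.funSplitAt t (Fin r)).symm (k, c')) t' s'
      = (if c' ⟨t', h2.symm⟩ = c' ⟨s', h3.symm⟩ then 1 else 0) - 1 / (r : ℝ) := by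
    intro k
    unfold eps
    simp [Equiv.funSplitAt, Equiv.piSplitAt, h2.symm, h3.symm]
  simp only [e1, e2]
  rw [← Finset.sum_mul, Finset.sum_sub_distrib]
  simp
  left
  field_simp
  simp

lemma orth_pairs (hr : 0 < r) {t s t' s' : T} (h1 : t ≠ s) (h3 : ¬ (t = t' ∧ s = s'))
    (h4 : ¬ (t = s' ∧ s = t')) :
    ∑ c : T → Fin r, eps c t s * eps c t' s' = 0 := by
  by_cases a1 : t = t' ∨ t = s'
  · by_cases a2 : s = t' ∨ s = s'
    · exfalso
      rcases a1 with a1 | a1 <;> rcases a2 with a2 | a2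
      · exact h1 (a1.trans a2.symm)
      · exact h3 ⟨a1, a2⟩
      · exact h4 ⟨a1, a2⟩
      · exact h1 (a1.trans a2.symm)
    · push Not at a2
      simp only [eps_symm _ t s]
      exact sum_eps_mul_eps hr h1.symm a2.1 a2.2
  · push Not at a1
    exact sum_eps_mul_eps hr h1 a1.1 a1.2

end colour

section main

variable {E : Type*} [NormedAddCommGroup E] [InnerProductSpace ℂ E]

lemma second_moment {n r : ℕ} (hr : 0 < r) (v : Fin n × Fin n → E) :
    ∑ c : Fin n → Fin r, ‖∑ p with p.1 ≠ p.2, ((eps c p.1 p.2 : ℝ) : ℂ) • v p‖ ^ 2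
      ≤ (Fintype.card (Fin n → Fin r) : ℝ) * (2 * ∑ p with p.1 ≠ p.2, ‖v p‖ ^ 2) := by
  classical
  set N : ℝ := (Fintype.card (Fin n → Fin r) : ℝ) with hN
  set L : Finset (Fin n × Fin n) := Finset.univ.filter (fun p => p.1 < p.2) with hL
  set G : Finset (Fin n × Fin n) := Finset.univ.filter (fun p => p.2 < p.1) with hG
  have hdisj : Disjoint L G := by
    rw [Finset.disjoint_left]
    intro p hp hp'
    simp only [hL, hG, Finset.mem_filter, Finset.mem_univ, true_and] at hp hp'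
    exact absurd hp (not_lt.mpr hp'.le)
  have hun : (Finset.univ.filter (fun p : Fin n × Fin n => p.1 ≠ p.2)) = L ∪ G := by
    ext p
    simp only [hL, hG, Finset.mem_filter, Finset.mem_univ, true_and, Finset.mem_union]
    exact lt_or_lt_iff_ne.symm
  have hsq : ∀ p : Fin n × Fin n, ∑ c : Fin n → Fin r, eps c p.1 p.2 * eps c p.1 p.2 ≤ N := by
    intro p
    calc ∑ c : Fin n → Fin r, eps c p.1 p.2 * eps c p.1 p.2 ≤ ∑ _c : Fin n → Fin r, (1 : ℝ) :=
          Finset.sum_le_sum fun c _ => eps_sq_le hr c _ _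
      _ = N := by simp [hN]
  have hLb := sum_norm_sq_orth L (fun p (c : Fin n → Fin r) => eps c p.1 p.2) v N
    (by
      intro p hp p' hp' hne
      simp only [hL, Finset.mem_filter, Finset.mem_univ, true_and] at hp hp'
      refine orth_pairs hr hp.ne (fun h => hne (Prod.ext h.1 h.2)) (fun h => ?_)
      rw [h.1, h.2] at hp
      exact absurd hp (not_lt.mpr hp'.le))
    (fun p _ => hsq p)
  have hGb := sum_norm_sq_orth G (fun p (c : Fin n → Fin r) => eps c p.1 p.2) v N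
    (by
      intro p hp p' hp' hne
      simp only [hG, Finset.mem_filter, Finset.mem_univ, true_and] at hp hp'
      refine orth_pairs hr hp.ne' (fun h => hne (Prod.ext h.1 h.2)) (fun h => ?_)
      rw [h.1, h.2] at hp
      exact absurd hp (not_lt.mpr hp'.le))
    (fun p _ => hsq p)
  rw [hun, Finset.sum_union hdisj]
  calc ∑ c : Fin n → Fin r, ‖∑ p ∈ L ∪ G, ((eps c p.1 p.2 : ℝ) : ℂ) • v p‖ ^ 2
      ≤ ∑ c : Fin n → Fin r, (2 * ‖∑ p ∈ L, ((eps c p.1 p.2 : ℝ) : ℂ) • v p‖ ^ 2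
          + 2 * ‖∑ p ∈ G, ((eps c p.1 p.2 : ℝ) : ℂ) • v p‖ ^ 2) := by
        refine Finset.sum_le_sum fun c _ => ?_
        rw [Finset.sum_union hdisj]
        set a := ∑ p ∈ L, ((eps c p.1 p.2 : ℝ) : ℂ) • v p
        set b := ∑ p ∈ G, ((eps c p.1 p.2 : ℝ) : ℂ) • v p
        have h1 : ‖a + b‖ ≤ ‖a‖ + ‖b‖ := norm_add_le a b
        have h2 : ‖a + b‖ ^ 2 ≤ (‖a‖ + ‖b‖) ^ 2 := by gcongr
        nlinarith [sq_nonneg (‖a‖ - ‖b‖)]
    _ = 2 * ∑ c : Fin n → Fin r, ‖∑ p ∈ L, ((eps c p.1 p.2 : ℝ) : ℂ) • v p‖ ^ 2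
          + 2 * ∑ c : Fin n → Fin r, ‖∑ p ∈ G, ((eps c p.1 p.2 : ℝ) : ℂ) • v p‖ ^ 2 := by
        rw [Finset.sum_add_distrib, Finset.mul_sum, Finset.mul_sum]
    _ ≤ 2 * (N * ∑ p ∈ L, ‖v p‖ ^ 2) + 2 * (N * ∑ p ∈ G, ‖v p‖ ^ 2) := by
        gcongr
    _ = N * (2 * (∑ p ∈ L, ‖v p‖ ^ 2 + ∑ p ∈ G, ‖v p‖ ^ 2)) := by ring

/-- there is a colouring whose centred off-diagonal sums are small in square mean, simultaneously
for a finite family of vector arrays -/
theorem exists_colouring {n r : ℕ} (hr : 0 < r) {κ : Type*} (K : Finset κ)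
    (v : κ → Fin n × Fin n → E) :
    ∃ c : Fin n → Fin r,
      ∑ k ∈ K, ‖∑ p with p.1 ≠ p.2, ((eps c p.1 p.2 : ℝ) : ℂ) • v k p‖ ^ 2
        ≤ 2 * ∑ k ∈ K, ∑ p with p.1 ≠ p.2, ‖v k p‖ ^ 2 := by
  classical
  have : Nonempty (Fin n → Fin r) := ⟨fun _ => ⟨0, hr⟩⟩
  set B : ℝ := 2 * ∑ k ∈ K, ∑ p with p.1 ≠ p.2, ‖v k p‖ ^ 2 with hB
  obtain ⟨c, -, hc⟩ := Finset.exists_le_of_sum_le (s := (Finset.univ : Finset (Fin n → Fin r)))
    (f := fun c => ∑ k ∈ K, ‖∑ p with p.1 ≠ p.2, ((eps c p.1 p.2 : ℝ) : ℂ) • v k p‖ ^ 2)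
    (g := fun _ => B) Finset.univ_nonempty (by
      rw [Finset.sum_comm]
      calc ∑ k ∈ K, ∑ c : Fin n → Fin r,
            ‖∑ p with p.1 ≠ p.2, ((eps c p.1 p.2 : ℝ) : ℂ) • v k p‖ ^ 2
          ≤ ∑ k ∈ K, (Fintype.card (Fin n → Fin r) : ℝ) * (2 * ∑ p with p.1 ≠ p.2, ‖v k p‖ ^ 2) :=
            Finset.sum_le_sum fun k _ => second_moment hr (v k)
        _ = ∑ _c : Fin n → Fin r, B := by
            rw [← Finset.mul_sum, ← Finset.mul_sum, hB]
            simp)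
  exact ⟨c, hc⟩

end main

end Vale.Agent.P078
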