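import Vale.Agent.P078.Fine

namespace Vale.Agent.P078

open scoped InnerProductSpace

section balanced

variable {E : Type*} [NormedAddCommGroup E] [InnerProductSpace ℂ E]

lemma norm_add_real_smul_sq (x β : E) (k : ℝ) :
    ‖x + (k : ℂ) • β‖ ^ 2 = ‖x‖ ^ 2 + 2 * k * (⟪x, β⟫_ℂ).re + k ^ 2 * ‖β‖ ^ 2 := by
  rw [norm_add_sq (𝕜 := ℂ), inner_smul_right, norm_smul]
  simp only [RCLike.re_to_complex, Complex.re_ofReal_mul, Complex.norm_real, Real.norm_eq_abs,
    mul_pow, sq_abs]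
  ring

lemma balanced_step {r : ℕ} (hr : 0 < r) (Q : Fin r → E) (hQ : ∑ i, Q i = 0) (β : E) :
    ∃ a : Fin r, ∑ i, ‖Q i + ((((if i = a then 1 else 0) - 1 / r : ℝ)) : ℂ) • β‖ ^ 2
      ≤ ∑ i, ‖Q i‖ ^ 2 + ‖β‖ ^ 2 := by
  have : Nonempty (Fin r) := ⟨⟨0, hr⟩⟩
  have hr' : (r : ℝ) ≠ 0 := by positivity
  have hsum : ∑ i, (⟪Q i, β⟫_ℂ).re = 0 := by
    rw [← Complex.re_sum, ← sum_inner, hQ, inner_zero_left, Complex.zero_re]
  obtain ⟨a, -, ha⟩ : ∃ a ∈ (Finset.univ : Finset (Fin r)), (⟪Q a, β⟫_ℂ).re ≤ (fun _ => (0 : ℝ)) a :=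
    Finset.exists_le_of_sum_le Finset.univ_nonempty (by simp [hsum])
  refine ⟨a, ?_⟩
  simp only [norm_add_real_smul_sq]
  rw [Finset.sum_add_distrib, Finset.sum_add_distrib]
  have h1 : ∑ i : Fin r, 2 * ((if i = a then 1 else 0) - 1 / (r : ℝ)) * (⟪Q i, β⟫_ℂ).re
      = 2 * (⟪Q a, β⟫_ℂ).re := by
    have : ∀ i : Fin r, 2 * ((if i = a then 1 else 0) - 1 / (r : ℝ)) * (⟪Q i, β⟫_ℂ).re
        = (if i = a then 2 * (⟪Q i, β⟫_ℂ).re else 0) - 2 / r * (⟪Q i, β⟫_ℂ).re := by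
      intro i
      split_ifs <;> ring
    rw [Finset.sum_congr rfl (fun i _ => this i), Finset.sum_sub_distrib, ← Finset.mul_sum, hsum]
    simp
  have h2 : ∑ i : Fin r, ((if i = a then 1 else 0) - 1 / (r : ℝ)) ^ 2 * ‖β‖ ^ 2
      = (1 - 1 / r) * ‖β‖ ^ 2 := by
    rw [← Finset.sum_mul]
    congr 1
    have : ∀ i : Fin r, ((if i = a then 1 else 0) - 1 / (r : ℝ)) ^ 2
        = (if i = a then 1 - 2 / (r : ℝ) else 0) + 1 / (r : ℝ) ^ 2 := by
      intro i
      split_ifs <;> ring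
    rw [Finset.sum_congr rfl (fun i _ => this i), Finset.sum_add_distrib]
    simp
    field_simp
    ring
  rw [h1, h2]
  have h3 : (0 : ℝ) ≤ 1 / r * ‖β‖ ^ 2 := by positivity
  simp only at ha
  nlinarith

lemma exists_balanced {τ : Type*} (s : Finset τ) (b : τ → E) {r : ℕ} (hr : 0 < r) :
    ∃ c : τ → Fin r,
      ∑ i, ‖(∑ t ∈ s, if c t = i then b t else 0) - ((1 / r : ℝ) : ℂ) • ∑ t ∈ s, b t‖ ^ 2
        ≤ ∑ t ∈ s, ‖b t‖ ^ 2 := by
  classical
  induction s using Finset.induction_on with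
  | empty => exact ⟨fun _ => ⟨0, hr⟩, by simp⟩
  | insert t0 s ht0 ih =>
    obtain ⟨c, hc⟩ := ih
    set Q : Fin r → E := fun i =>
      (∑ t ∈ s, if c t = i then b t else 0) - ((1 / r : ℝ) : ℂ) • ∑ t ∈ s, b t with hQdef
    have hr' : (r : ℂ) ≠ 0 := by
      have : (r : ℝ) ≠ 0 := by positivity
      exact_mod_cast this
    have hQ : ∑ i, Q i = 0 := by
      simp only [hQdef, Finset.sum_sub_distrib]
      rw [Finset.sum_comm]
      simp only [Finset.sum_ite_eq, Finset.mem_univ, if_true, Finset.sum_const, Finset.card_univ,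
        Fintype.card_fin]
      rw [← Nat.cast_smul_eq_nsmul ℂ, smul_smul]
      have : (r : ℂ) * ((1 / r : ℝ) : ℂ) = 1 := by
        push_cast
        field_simp
      rw [this, one_smul, sub_self]
    obtain ⟨a, ha⟩ := balanced_step hr Q hQ (b t0)
    refine ⟨Function.update c t0 a, ?_⟩
    have hkey : ∀ i, (∑ t ∈ insert t0 s, if Function.update c t0 a t = i then b t else 0)
        - ((1 / r : ℝ) : ℂ) • ∑ t ∈ insert t0 s, b t
        = Q i + ((((if i = a then 1 else 0) - 1 / r : ℝ)) : ℂ) • b t0 := by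
      intro i
      rw [Finset.sum_insert ht0, Finset.sum_insert ht0]
      have h1 : ∑ t ∈ s, (if Function.update c t0 a t = i then b t else 0)
          = ∑ t ∈ s, if c t = i then b t else 0 := by
        refine Finset.sum_congr rfl fun t ht => ?_
        have : t ≠ t0 := fun h => ht0 (h ▸ ht)
        rw [Function.update_of_ne this]
      rw [h1, Function.update_self]
      simp only [hQdef]
      by_cases hia : i = a
      · subst hia
        simp only [if_true]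
        push_cast
        rw [smul_add, sub_smul, one_smul]
        abel
      · have hai : ¬ a = i := fun h => hia h.symm
        simp only [hia, hai, if_false]
        push_cast
        rw [smul_add, sub_smul, zero_smul]
        abel
    calc _ = ∑ i, ‖Q i + ((((if i = a then 1 else 0) - 1 / r : ℝ)) : ℂ) • b t0‖ ^ 2 :=
          Finset.sum_congr rfl (fun i _ => by rw [hkey i])
      _ ≤ ∑ i, ‖Q i‖ ^ 2 + ‖b t0‖ ^ 2 := ha
      _ ≤ ∑ t ∈ s, ‖b t‖ ^ 2 + ‖b t0‖ ^ 2 := by linarith [hc]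
      _ = ∑ t ∈ insert t0 s, ‖b t‖ ^ 2 := by rw [Finset.sum_insert ht0]; ring

end balanced

variable {H : Type*} [NormedAddCommGroup H] [InnerProductSpace ℂ H] [CompleteSpace H]
variable {A : VonNeumannAlgebra H}

lemma norm_inner_proj_sq_le {g : H →L[ℂ] H} (hg : IsStarProjection g) (v w : H) :
    ‖⟪v, g w⟫_ℂ‖ ^ 2 ≤ ‖g v‖ ^ 2 * ‖g w‖ ^ 2 := by
  rw [← proj_inner_both hg, ← mul_pow]
  gcongr
  exact norm_inner_le_norm _ _

theorem split (hA : Ctx A) (hd : IsDiffuse A) {e : H →L[ℂ] H} (he : e ∈ A)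
    (hep : IsStarProjection e) (u : H) {κ : Type*} [Fintype κ] (v : κ → H) {η : ℝ} (hη : 0 < η)
    {r : ℕ} (hr : 0 < r) :
    ∃ f : Fin r → H →L[ℂ] H, Part A f e ∧
      ∀ k i, ‖⟪v k, f i u⟫_ℂ - ((1 / r : ℝ) : ℂ) * ⟪v k, e u⟫_ℂ‖ ≤ η := by
  classical
  set w : H := e u with hw
  set N : ℝ := ∑ k, ‖v k‖ ^ 2 + 1 with hN
  have hNpos : 0 < N := by positivity
  obtain ⟨τ, _, g, hg, hs⟩ := exists_fine hA hd w (η := η ^ 2 / N) (by positivity)
  set b : τ → EuclideanSpace ℂ κ := fun t => WithLp.toLp 2 (fun k => ⟪v k, g t w⟫_ℂ) with hb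
  obtain ⟨c, hc⟩ := exists_balanced Finset.univ b hr
  refine ⟨fun i => (∑ t with c t = i, g t) * e, ?_, ?_⟩
  · have := (hg.color c).mulRight hA.comm he hep
    rwa [one_mul] at this
  · intro k i
    set D : EuclideanSpace ℂ κ :=
      (∑ t, if c t = i then b t else 0) - ((1 / r : ℝ) : ℂ) • ∑ t, b t with hD
    have h1 : ⟪v k, ((∑ t with c t = i, g t) * e) u⟫_ℂ - ((1 / r : ℝ) : ℂ) * ⟪v k, e u⟫_ℂ = D k := by
      have e1 : ((∑ t with c t = i, g t) * e) u = ∑ t, if c t = i then g t w else 0 := by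
        rw [mul_apply_eq_comp, _root_.sum_apply, Finset.sum_filter]
      have e2 : e u = ∑ t, g t w := by
        rw [hg.sum_apply]; rfl
      have e3 : D k = (∑ t, if c t = i then ⟪v k, g t w⟫_ℂ else 0)
          - ((1 / r : ℝ) : ℂ) * ∑ t, ⟪v k, g t w⟫_ℂ := by
        simp only [hD, hb, PiLp.sub_apply, PiLp.smul_apply, smul_eq_mul, WithLp.ofLp_sum,
          Finset.sum_apply]
        congr 1
        refine Finset.sum_congr rfl fun t _ => ?_
        split_ifs <;> simp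
      rw [e1, e2, e3, inner_sum, inner_sum]
      congr 1
      refine Finset.sum_congr rfl fun t _ => ?_
      split_ifs <;> simp
    rw [h1]
    have h2 : ‖D‖ ^ 2 ≤ η ^ 2 := by
      calc ‖D‖ ^ 2 ≤ ∑ j, ‖(∑ t, if c t = j then b t else 0) - ((1 / r : ℝ) : ℂ) • ∑ t, b t‖ ^ 2 :=
            Finset.single_le_sum (f := fun j =>
              ‖(∑ t, if c t = j then b t else 0) - ((1 / r : ℝ) : ℂ) • ∑ t, b t‖ ^ 2)
              (fun j _ => by positivity) (Finset.mem_univ i)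
        _ ≤ ∑ t, ‖b t‖ ^ 2 := hc
        _ = ∑ t, ∑ k, ‖⟪v k, g t w⟫_ℂ‖ ^ 2 := by
            refine Finset.sum_congr rfl fun t _ => ?_
            rw [EuclideanSpace.norm_sq_eq]
        _ ≤ ∑ t, ∑ k, ‖g t (v k)‖ ^ 2 * (η ^ 2 / N) := by
            refine Finset.sum_le_sum fun t _ => Finset.sum_le_sum fun k _ => ?_
            refine (norm_inner_proj_sq_le (hg.proj t) (v k) w).trans ?_
            gcongr
            exact hs t
        _ = (∑ k, ‖v k‖ ^ 2) * (η ^ 2 / N) := by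
            rw [Finset.sum_comm, Finset.sum_mul]
            refine Finset.sum_congr rfl fun k _ => ?_
            rw [← Finset.sum_mul, hg.norm_sq]
            rfl
        _ ≤ N * (η ^ 2 / N) := by
            gcongr
            rw [hN]; linarith
        _ = η ^ 2 := by field_simp
    have h3 : ‖D‖ ≤ η := by
      exact abs_le_of_sq_le_sq' h2 hη.le |>.2 |> fun h => by simpa using h
    exact (PiLp.norm_apply_le D k).trans h3

end Vale.Agent.P078
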