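import Vale.Agent.P078.Reduction

namespace Vale.Agent.P078

open scoped InnerProductSpace

variable {H : Type*} [NormedAddCommGroup H] [InnerProductSpace ℂ H] [CompleteSpace H]
variable {A M : VonNeumannAlgebra H}

/-- the norm of a self-adjoint operator is controlled by its quadratic form -/
lemma norm_le_of_form {S : H →L[ℂ] H} (hS : IsSelfAdjoint S) {C : ℝ} (hC : 0 ≤ C)
    (h : ∀ ζ, ‖⟪ζ, S ζ⟫_ℂ‖ ≤ C * ‖ζ‖ ^ 2) : ‖S‖ ≤ C := by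
  rw [ContinuousLinearMap.norm_eq_iSup_rayleighQuotient S hS.isSymmetric]
  refine ciSup_le fun x => ?_
  rw [ContinuousLinearMap.rayleighQuotient, ContinuousLinearMap.reApplyInnerSelf_apply, abs_div,
    abs_sq]
  by_cases hx : ‖x‖ ^ 2 = 0
  · rw [hx, div_zero]; exact hC
  · have hpos : 0 < ‖x‖ ^ 2 := lt_of_le_of_ne (by positivity) (Ne.symm hx)
    rw [div_le_iff₀ hpos]
    calc |RCLike.re ⟪S x, x⟫_ℂ| ≤ ‖⟪S x, x⟫_ℂ‖ := RCLike.abs_re_le_norm _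
      _ = ‖⟪x, S x⟫_ℂ‖ := norm_inner_symm _ _
      _ ≤ _ := h x

lemma form_le_general {q T : H →L[ℂ] H} (hq : IsStarProjection q) {C κ : ℝ}
    (hT : ‖T‖ ≤ C) (hqT : ‖q * T * q‖ ≤ κ) (ζ : H) :
    ‖⟪ζ, T ζ⟫_ℂ‖ ≤ κ * ‖ζ‖ ^ 2 + 2 * C * ‖ζ‖ * ‖(1 - q) ζ‖ := by
  have hC : 0 ≤ C := (norm_nonneg T).trans hT
  have hsub : ζ - q ζ = (1 - q) ζ := by simp
  have hdec : ⟪ζ, T ζ⟫_ℂ = ⟪ζ, (q * T * q) ζ⟫_ℂ + ⟪(1 - q) ζ, T ζ⟫_ℂ + ⟪q ζ, T ((1 - q) ζ)⟫_ℂ := by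
    have e1 : ⟪ζ, (q * T * q) ζ⟫_ℂ = ⟪q ζ, T (q ζ)⟫_ℂ := by
      rw [proj_inner hq]; rfl
    rw [e1, ← hsub, map_sub, inner_sub_left, inner_sub_right]
    ring
  have hqζ : ‖q ζ‖ ≤ ‖ζ‖ := proj_norm_le hq ζ
  have b1 : ‖⟪ζ, (q * T * q) ζ⟫_ℂ‖ ≤ κ * ‖ζ‖ ^ 2 := by
    calc ‖⟪ζ, (q * T * q) ζ⟫_ℂ‖ ≤ ‖ζ‖ * ‖(q * T * q) ζ‖ := norm_inner_le_norm _ _
      _ ≤ ‖ζ‖ * (‖q * T * q‖ * ‖ζ‖) := by
          gcongr
          exact ContinuousLinearMap.le_opNorm _ _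
      _ = ‖q * T * q‖ * ‖ζ‖ ^ 2 := by ring
      _ ≤ κ * ‖ζ‖ ^ 2 := by gcongr
  have b2 : ‖⟪(1 - q) ζ, T ζ⟫_ℂ‖ ≤ C * ‖ζ‖ * ‖(1 - q) ζ‖ := by
    calc ‖⟪(1 - q) ζ, T ζ⟫_ℂ‖ ≤ ‖(1 - q) ζ‖ * ‖T ζ‖ := norm_inner_le_norm _ _
      _ ≤ ‖(1 - q) ζ‖ * (‖T‖ * ‖ζ‖) := by gcongr; exact T.le_opNorm _
      _ ≤ ‖(1 - q) ζ‖ * (C * ‖ζ‖) := by gcongr
      _ = C * ‖ζ‖ * ‖(1 - q) ζ‖ := by ring
  have b3 : ‖⟪q ζ, T ((1 - q) ζ)⟫_ℂ‖ ≤ C * ‖ζ‖ * ‖(1 - q) ζ‖ := by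
    calc ‖⟪q ζ, T ((1 - q) ζ)⟫_ℂ‖ ≤ ‖q ζ‖ * ‖T ((1 - q) ζ)‖ := norm_inner_le_norm _ _
      _ ≤ ‖ζ‖ * (‖T‖ * ‖(1 - q) ζ‖) := by gcongr; exact T.le_opNorm _
      _ ≤ ‖ζ‖ * (C * ‖(1 - q) ζ‖) := by gcongr
      _ = C * ‖ζ‖ * ‖(1 - q) ζ‖ := by ring
  rw [hdec]
  calc _ ≤ ‖⟪ζ, (q * T * q) ζ⟫_ℂ + ⟪(1 - q) ζ, T ζ⟫_ℂ‖ + ‖⟪q ζ, T ((1 - q) ζ)⟫_ℂ‖ := norm_add_le _ _
    _ ≤ ‖⟪ζ, (q * T * q) ζ⟫_ℂ‖ + ‖⟪(1 - q) ζ, T ζ⟫_ℂ‖ + ‖⟪q ζ, T ((1 - q) ζ)⟫_ℂ‖ := by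
        gcongr
        exact norm_add_le _ _
    _ ≤ κ * ‖ζ‖ ^ 2 + 2 * C * ‖ζ‖ * ‖(1 - q) ζ‖ := by linarith

/-- a paving in `M` of an element of the corner `z M z` can be compressed to the corner, with an
arbitrarily small loss in the error -/
theorem compress_paving (hA : IsMASA A M) {z : H →L[ℂ] H} (hzA : z ∈ A) (hz : IsStarProjection z)
    {x : H →L[ℂ] H} (hx : IsSelfAdjoint x) (hxz : z * x * z = x) {ε ε' : ℝ} (hεε : ε < ε') {r : ℕ}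
    (h : SoPavable A M x ε r) : SoPavableIn A M z x ε' r := by
  classical
  intro F δ hδ
  have hc : Comm A := hA.comm
  have hzz : z * z = z := hz.isIdempotentElem.eq
  have hzM : z ∈ M := hA.le hzA
  set σ : ℝ := (ε' - ε) / 4 with hσdef
  have hσ : 0 < σ := by
    have : 0 < ε' - ε := sub_pos.mpr hεε
    positivity
  obtain ⟨p, a, q, hp, haA, hasa, han, hqM, hq, hqF, hnorm⟩ := h (F.image z) (δ * σ) (by positivity)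
  set X : ℝ := ‖x‖ with hX
  have hX0 : 0 ≤ X := norm_nonneg x
  have hεX : 0 ≤ ε * X := (norm_nonneg _).trans hnorm
  set b : H →L[ℂ] H := z * (1 - q) * z with hb
  have hbM : b ∈ M := mul_mem (mul_mem hzM (sub_mem (one_mem M) hqM)) hzM
  have hb0 : 0 ≤ b := IsSelfAdjoint.conjugate_nonneg hq.one_sub.nonneg hz.isSelfAdjoint
  obtain ⟨f, hfM, hf, c1, c2, -, c5⟩ := cut_mem M hbM hb0 (σ ^ 2)
  have hzf : z * f = f * z := c5 z (by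
    rw [hb, ← mul_assoc, ← mul_assoc, hzz, mul_assoc _ z z, hzz])
  set q' : H →L[ℂ] H := z * f with hq'def
  have hq' : IsStarProjection q' := hz.mul hf hzf
  have hzq' : z * q' = q' := by rw [hq'def, ← mul_assoc, hzz]
  have hq'z : q' * z = q' := mul_eq_symm hz hq' hzq'
  have hfq' : f * q' = q' := by rw [hq'def, ← mul_assoc, ← hzf, mul_assoc, hf.isIdempotentElem.eq]
  have hbform : ∀ v : H, ⟪v, b v⟫_ℂ = ((‖(1 - q) (z v)‖ ^ 2 : ℝ) : ℂ) := by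
    intro v
    rw [hb]
    show ⟪v, z ((1 - q) (z v))⟫_ℂ = _
    rw [← proj_inner hz, proj_inner_self hq.one_sub]
  set T : H →L[ℂ] H := pinching p x - a with hT
  have hTsa : IsSelfAdjoint T := (pinching_sa hp.proj hx).sub hasa
  have hTn : ‖T‖ ≤ 2 * X := by
    calc ‖T‖ ≤ ‖pinching p x‖ + ‖a‖ := norm_sub_le _ _
      _ ≤ X + X := add_le_add (pinching_norm_le hp.toPart x) han
      _ = 2 * X := by ring
  have hpz : ∀ i, z * p i = p i * z := fun i => hc _ hzA _ (hp.mem i)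
  refine ⟨fun i => p i * z, z * a, q', fun i => mul_mem (hp.mem i) hzA,
    fun i => (hp.proj i).mul hz (hpz i).symm, ?_, ?_, mul_mem hzA haA,
    by rw [← mul_assoc, hzz], ?_, ?_, mul_mem hzM hfM, hq', hzq', ?_, ?_⟩
  · intro i j hij
    calc p i * z * (p j * z) = p i * (z * p j) * z := by simp only [mul_assoc]
      _ = p i * p j * (z * z) := by rw [hpz j]; simp only [mul_assoc]
      _ = 0 := by rw [hp.ortho i j hij, zero_mul]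
  · rw [← Finset.sum_mul, hp.sum_eq, one_mul]
  · show star (z * a) = z * a
    rw [star_mul, hasa.star_eq, hz.isSelfAdjoint.star_eq, hc _ haA _ hzA]
  · calc ‖z * a‖ ≤ ‖z‖ * ‖a‖ := norm_mul_le _ _
      _ ≤ 1 * ‖a‖ := by gcongr; exact hz.norm_le
      _ = ‖a‖ := one_mul _
      _ ≤ ‖x‖ := han
  · intro ξ hξ
    have hmem : z ξ ∈ F.image z := Finset.mem_image_of_mem _ hξ
    have e1 : (z - q') ξ = (1 - f) (z ξ) := by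
      have : (z - q' : H →L[ℂ] H) = (1 - f) * z := by
        rw [hzf, sub_mul, one_mul]
      rw [this]; rfl
    have h1 := le_inner c2 (z ξ)
    have e2 : (⟪z ξ, (((σ ^ 2 : ℝ) : ℂ) • (1 - f)) (z ξ)⟫_ℂ).re = σ ^ 2 * ‖(1 - f) (z ξ)‖ ^ 2 := by
      rw [smul_apply, inner_smul_right, proj_inner_self hf.one_sub, ← Complex.ofReal_mul,
        Complex.ofReal_re]
    rw [e2, hbform, Complex.ofReal_re, proj_apply_apply hz] at h1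
    have h2 : ‖(1 - q) (z ξ)‖ < δ * σ := hqF _ hmem
    have h3 : (σ * ‖(1 - f) (z ξ)‖) ^ 2 < (σ * δ) ^ 2 := by
      calc (σ * ‖(1 - f) (z ξ)‖) ^ 2 = σ ^ 2 * ‖(1 - f) (z ξ)‖ ^ 2 := by ring
        _ ≤ ‖(1 - q) (z ξ)‖ ^ 2 := h1
        _ < (δ * σ) ^ 2 := by gcongr
        _ = (σ * δ) ^ 2 := by ring
    have h4 : σ * ‖(1 - f) (z ξ)‖ < σ * δ := lt_of_pow_lt_pow_left₀ 2 (by positivity) h3
    rw [e1]
    exact lt_of_mul_lt_mul_left h4 hσ.le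
  · have e1 : pinching (fun i => p i * z) x = pinching p x := by
      unfold pinching
      refine Finset.sum_congr rfl fun i _ => ?_
      calc p i * z * x * (p i * z) = p i * z * x * (z * p i) := by rw [hpz i]
        _ = p i * (z * x * z) * p i := by simp only [mul_assoc]
        _ = p i * x * p i := by rw [hxz]
    have e2 : q' * (pinching p x - z * a) * q' = q' * T * q' := by
      rw [hT, mul_sub, mul_sub, ← mul_assoc q' z a, hq'z]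
    rw [e1, e2]
    have hC : 0 ≤ ε' * X := hεX.trans (by gcongr)
    refine norm_le_of_form (hTsa.conjugate_self hq'.isSelfAdjoint) hC fun ζ => ?_
    set v : H := q' ζ with hv
    have hzv : z v = v := by rw [hv, ← mul_apply_eq_comp, hzq']
    have hfv : f v = v := by rw [hv, ← mul_apply_eq_comp, hfq']
    have e3 : ⟪ζ, (q' * T * q') ζ⟫_ℂ = ⟪v, T v⟫_ℂ := by
      rw [hv, proj_inner hq']; rfl
    have h1 := le_inner c1 v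
    have e4 : (⟪v, (f * b * f) v⟫_ℂ).re = ‖(1 - q) v‖ ^ 2 := by
      show (⟪v, f (b (f v))⟫_ℂ).re = _
      rw [← proj_inner hf, hfv, hbform, Complex.ofReal_re, hzv]
    have e5 : (⟪v, (((σ ^ 2 : ℝ) : ℂ) • f) v⟫_ℂ).re = σ ^ 2 * ‖v‖ ^ 2 := by
      rw [smul_apply, inner_smul_right, proj_inner_self hf, ← Complex.ofReal_mul,
        Complex.ofReal_re, hfv]
    rw [e4, e5, ← mul_pow] at h1
    have h2 : ‖(1 - q) v‖ ≤ σ * ‖v‖ := abs_le_of_sq_le_sq' h1 (by positivity) |>.2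
    have h3 := form_le_general hq hTn hnorm v
    have hvζ : ‖v‖ ≤ ‖ζ‖ := proj_norm_le hq' ζ
    rw [e3]
    calc ‖⟪v, T v⟫_ℂ‖ ≤ ε * X * ‖v‖ ^ 2 + 2 * (2 * X) * ‖v‖ * ‖(1 - q) v‖ := h3
      _ ≤ ε * X * ‖v‖ ^ 2 + 2 * (2 * X) * ‖v‖ * (σ * ‖v‖) := by gcongr
      _ = ε' * X * ‖v‖ ^ 2 := by rw [hσdef]; ring
      _ ≤ ε' * X * ‖ζ‖ ^ 2 := by gcongr

theorem compress_number (hA : IsMASA A M) {z : H →L[ℂ] H} (hzA : z ∈ A)
    (hz : IsStarProjection z) {ε ε' : ℝ} (hεε : ε < ε') :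
    cornerPavingNumber A M z ε' ≤ pavingNumber A M ε := by
  unfold pavingNumber
  refine le_sInf ?_
  rintro _ ⟨r, rfl, hr1, hr⟩
  unfold cornerPavingNumber
  exact sInf_le ⟨r, rfl, hr1, fun x hxM hx hxz => compress_paving hA hzA hz hx hxz hεε (hr x hxM hx)⟩

end Vale.Agent.P078
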