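import Vale.Agent.P078.Upper

namespace Vale.Agent.P078

open scoped InnerProductSpace
open InnerProductSpace

variable {H : Type*} [NormedAddCommGroup H] [InnerProductSpace ℂ H] [CompleteSpace H]
variable {A : VonNeumannAlgebra H}

lemma Part.reindex {ι κ : Type*} [Fintype ι] [Fintype κ] {e : ι → H →L[ℂ] H} {E : H →L[ℂ] H}
    (h : Part A e E) (σ : κ ≃ ι) : Part A (fun k => e (σ k)) E where
  mem k := h.mem _
  proj k := h.proj _
  ortho k k' hkk := h.ortho _ _ (fun hh => hkk (σ.injective hh))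
  sum_eq := by rw [← h.sum_eq]; exact Equiv.sum_comp σ e

/-- an orthogonal frame adapted to a partition of `A` -/
structure Frame (A : VonNeumannAlgebra H) {n : ℕ} (e : Fin n → H →L[ℂ] H) (u : Fin n → H) :
    Prop where
  part : Part A e 1
  fix : ∀ l, e l (u l) = u l
  norm : ∀ l, ‖u l‖ = 1 ∨ u l = 0

namespace Frame

variable {n : ℕ} {e : Fin n → H →L[ℂ] H} {u : Fin n → H}

lemma norm_le (h : Frame A e u) (l : Fin n) : ‖u l‖ ≤ 1 := by
  rcases h.norm l with h1 | h1
  · exact h1.le
  · rw [h1, norm_zero]; exact zero_le_one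

lemma orth (h : Frame A e u) {l m : Fin n} (hlm : l ≠ m) : ⟪u l, u m⟫_ℂ = 0 := by
  rw [← h.fix l, ← h.fix m]
  exact h.part.inner_ne hlm _ _

lemma proj (h : Frame A e u) : IsStarProjection (∑ l, rankOne ℂ (u l) (u l)) := by
  refine proj_sum _ _ (fun l _ => ?_) (fun l _ m _ hlm => ?_)
  · rcases h.norm l with h1 | h1
    · exact isStarProjection_rankOne_self h1
    · rw [h1]; simp
  · have := rankOne_mul_mul (u l) (u l) (u m) (u m) 1
    rw [mul_one, one_apply_eq_self, h.orth hlm, zero_smul] at this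
    exact this

end Frame

theorem exists_frame (hA : Ctx A) (F : Finset H) {δ : ℝ} (hδ : 0 < δ) :
    ∃ (n : ℕ) (e : Fin n → H →L[ℂ] H) (u : Fin n → H), Frame A e u ∧
      ∀ ξ ∈ F, ‖(1 - ∑ l, rankOne ℂ (u l) (u l)) ξ‖ < δ := by
  classical
  obtain ⟨w, ι, _, e0, he0, happ0⟩ := exists_adapted hA F hδ
  set σ := (Fintype.equivFin ι).symm with hσ
  set e : Fin (Fintype.card ι) → H →L[ℂ] H := fun k => e0 (σ k) with he_def
  have he : Part A e 1 := he0.reindex σ
  have happ : ∀ ξ ∈ F, ∃ v ∈ Submodule.span ℂ (Set.range fun l => e l w), ‖ξ - v‖ < δ := by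
    intro ξ hξ
    obtain ⟨v, hv, hlt⟩ := happ0 ξ hξ
    refine ⟨v, ?_, hlt⟩
    have : (Set.range fun l => e0 l w) = Set.range fun l => e l w := by
      ext z
      constructor
      · rintro ⟨l, rfl⟩
        exact ⟨σ.symm l, by simp [he_def]⟩
      · rintro ⟨k, rfl⟩
        exact ⟨σ k, rfl⟩
    rwa [← this]
  set u : Fin (Fintype.card ι) → H := fun l => ((‖e l w‖⁻¹ : ℝ) : ℂ) • e l w with hu
  have hu_e : ∀ l, e l (u l) = u l := by
    intro l
    simp only [hu, map_smul, proj_apply_apply (he.proj l)]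
  have hu_norm : ∀ l, ‖u l‖ = 1 ∨ u l = 0 := by
    intro l
    by_cases h : e l w = 0
    · right; simp [hu, h]
    · left
      have : ‖e l w‖ ≠ 0 := norm_ne_zero_iff.mpr h
      simp only [hu, norm_smul, Complex.norm_real, norm_inv, norm_norm]
      field_simp
  have hfr : Frame A e u := ⟨he, hu_e, hu_norm⟩
  refine ⟨Fintype.card ι, e, u, hfr, ?_⟩
  set q : H →L[ℂ] H := ∑ l, rankOne ℂ (u l) (u l) with hq
  have hqp : IsStarProjection q := hfr.proj
  have hq_fix : ∀ l, q (e l w) = e l w := by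
    intro l
    rw [hq, _root_.sum_apply, Finset.sum_eq_single l]
    · rw [rankOne_apply]
      by_cases h : e l w = 0
      · simp [h]
      · have hn : (‖e l w‖ : ℂ) ≠ 0 := by
          exact_mod_cast norm_ne_zero_iff.mpr h
        simp only [hu, inner_smul_left, smul_smul, inner_self_eq_norm_sq_to_K, Complex.conj_ofReal]
        have : ((‖e l w‖⁻¹ : ℝ) : ℂ) * ((‖e l w‖ : ℂ)) ^ 2 * ((‖e l w‖⁻¹ : ℝ) : ℂ) = 1 := by
          push_cast
          field_simp
        erw [this, one_smul]
    · intro m _ hml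
      rw [rankOne_apply]
      have : ⟪u m, e l w⟫_ℂ = 0 := by
        rw [← hu_e m]
        exact he.inner_ne hml _ _
      rw [this, zero_smul]
    · intro h; exact absurd (Finset.mem_univ l) h
  have hq_span : ∀ v ∈ Submodule.span ℂ (Set.range fun l => e l w), q v = v := by
    intro v hv
    induction hv using Submodule.span_induction with
    | mem y hy => obtain ⟨l, rfl⟩ := hy; exact hq_fix l
    | zero => exact map_zero q
    | add y z _ _ hy hz => rw [map_add, hy, hz]
    | smul c y _ hy => rw [map_smul, hy]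
  intro ξ hξ
  obtain ⟨v, hv, hlt⟩ := happ ξ hξ
  have h1 : (1 - q) ξ = (1 - q) (ξ - v) := by
    simp only [sub_apply, one_apply_eq_self, map_sub, hq_span v hv]
    abel
  rw [h1]
  exact (proj_norm_le hqp.one_sub _).trans_lt hlt

end Vale.Agent.P078
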