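import Vale.Agent.P078.Upper

namespace Vale.Agent.P078

open scoped InnerProductSpace
open InnerProductSpace

variable {H : Type*} [NormedAddCommGroup H] [InnerProductSpace ℂ H] [CompleteSpace H]
variable {A : VonNeumannAlgebra H}

lemma pinching_norm_le {r : ℕ} {p : Fin r → H →L[ℂ] H} (hp : Part A p 1) (x : H →L[ℂ] H) :
    ‖pinching p x‖ ≤ ‖x‖ := by
  classical
  refine ContinuousLinearMap.opNorm_le_bound _ (norm_nonneg x) fun ξ => ?_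
  set ζ : H := pinching p x ξ with hζ
  have h1 : ∀ i, p i ζ = p i (x (p i ξ)) := by
    intro i
    rw [hζ, pinching, _root_.sum_apply, map_sum, Finset.sum_eq_single i]
    · simp only [mul_apply_eq_comp, proj_apply_apply (hp.proj i)]
    · intro j _ hj
      have := congrArg (fun T : H →L[ℂ] H => T (x (p j ξ))) (hp.ortho i j (Ne.symm hj))
      simpa using this
    · intro h; exact absurd (Finset.mem_univ i) h
  have h2 : ‖ζ‖ ^ 2 ≤ (‖x‖ * ‖ξ‖) ^ 2 := by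
    have e1 := hp.norm_sq ζ
    have e2 := hp.norm_sq ξ
    rw [one_apply_eq_self] at e1 e2
    rw [← e1, mul_pow, ← e2, Finset.mul_sum]
    refine Finset.sum_le_sum fun i _ => ?_
    rw [h1 i, ← mul_pow]
    gcongr
    exact (proj_norm_le (hp.proj i) _).trans (x.le_opNorm _)
  exact abs_le_of_sq_le_sq' h2 (by positivity) |>.2

/-- compressing by `q` changes the quadratic form of `T` only slightly on vectors almost fixed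
by `q` -/
lemma form_le_of_compress {q T : H →L[ℂ] H} (hq : IsStarProjection q) {C κ δ : ℝ}
    (hT : ‖T‖ ≤ C) (hqT : ‖q * T * q‖ ≤ κ) {ζ : H} (hζ : ‖ζ‖ ≤ 1) (hδ : ‖(1 - q) ζ‖ < δ) :
    ‖⟪ζ, T ζ⟫_ℂ‖ ≤ κ * ‖ζ‖ ^ 2 + 2 * C * δ := by
  have hC : 0 ≤ C := (norm_nonneg T).trans hT
  have hsub : ζ - q ζ = (1 - q) ζ := by simp
  have hdec : ⟪ζ, T ζ⟫_ℂ = ⟪ζ, (q * T * q) ζ⟫_ℂ + ⟪(1 - q) ζ, T ζ⟫_ℂ + ⟪q ζ, T ((1 - q) ζ)⟫_ℂ := by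
    have e1 : ⟪ζ, (q * T * q) ζ⟫_ℂ = ⟪q ζ, T (q ζ)⟫_ℂ := by
      rw [proj_inner hq]; rfl
    rw [e1, ← hsub, map_sub, inner_sub_left, inner_sub_right]
    ring
  have hqζ : ‖q ζ‖ ≤ 1 := (proj_norm_le hq ζ).trans hζ
  have b1 : ‖⟪ζ, (q * T * q) ζ⟫_ℂ‖ ≤ κ * ‖ζ‖ ^ 2 := by
    calc ‖⟪ζ, (q * T * q) ζ⟫_ℂ‖ ≤ ‖ζ‖ * ‖(q * T * q) ζ‖ := norm_inner_le_norm _ _
      _ ≤ ‖ζ‖ * (‖q * T * q‖ * ‖ζ‖) := by
          gcongr
          exact ContinuousLinearMap.le_opNorm _ _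
      _ = ‖q * T * q‖ * ‖ζ‖ ^ 2 := by ring
      _ ≤ κ * ‖ζ‖ ^ 2 := by gcongr
  have b2 : ‖⟪(1 - q) ζ, T ζ⟫_ℂ‖ ≤ C * δ := by
    have hTζ : ‖T ζ‖ ≤ C * 1 := by
      calc ‖T ζ‖ ≤ ‖T‖ * ‖ζ‖ := T.le_opNorm _
        _ ≤ C * 1 := by gcongr
    calc ‖⟪(1 - q) ζ, T ζ⟫_ℂ‖ ≤ ‖(1 - q) ζ‖ * ‖T ζ‖ := norm_inner_le_norm _ _
      _ ≤ δ * (C * 1) := mul_le_mul hδ.le hTζ (norm_nonneg _) ((norm_nonneg _).trans hδ.le)
      _ = C * δ := by ring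
  have b3 : ‖⟪q ζ, T ((1 - q) ζ)⟫_ℂ‖ ≤ C * δ := by
    have hTζ : ‖T ((1 - q) ζ)‖ ≤ C * δ := by
      calc ‖T ((1 - q) ζ)‖ ≤ ‖T‖ * ‖(1 - q) ζ‖ := T.le_opNorm _
        _ ≤ C * δ := mul_le_mul hT hδ.le (norm_nonneg _) hC
    calc ‖⟪q ζ, T ((1 - q) ζ)⟫_ℂ‖ ≤ ‖q ζ‖ * ‖T ((1 - q) ζ)‖ := norm_inner_le_norm _ _
      _ ≤ 1 * (C * δ) := mul_le_mul hqζ hTζ (norm_nonneg _) zero_le_one
      _ = C * δ := by ring
  rw [hdec]
  calc _ ≤ ‖⟪ζ, (q * T * q) ζ⟫_ℂ + ⟪(1 - q) ζ, T ζ⟫_ℂ‖ + ‖⟪q ζ, T ((1 - q) ζ)⟫_ℂ‖ := norm_add_le _ _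
    _ ≤ ‖⟪ζ, (q * T * q) ζ⟫_ℂ‖ + ‖⟪(1 - q) ζ, T ζ⟫_ℂ‖ + ‖⟪q ζ, T ((1 - q) ζ)⟫_ℂ‖ := by
        gcongr
        exact norm_add_le _ _
    _ ≤ κ * ‖ζ‖ ^ 2 + 2 * C * δ := by linarith

theorem lower [Nontrivial H] (hA : Ctx A) (hd : IsDiffuse A) (M : VonNeumannAlgebra H) {r : ℕ}
    (hr : 0 < r) {ε : ℝ} (hε : ε < 1 / (r : ℝ)) :
    ∃ x : H →L[ℂ] H, IsSelfAdjoint x ∧ ¬ SoPavable A M x ε r := by
  classical
  have hrpos : (0 : ℝ) < r := by exact_mod_cast hr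
  obtain ⟨y, hy⟩ := exists_ne (0 : H)
  set ξ0 : H := ((‖y‖⁻¹ : ℝ) : ℂ) • y with hξ0
  have hnorm : ‖ξ0‖ = 1 := by
    have : ‖y‖ ≠ 0 := norm_ne_zero_iff.mpr hy
    simp only [hξ0, norm_smul, Complex.norm_real, norm_inv, norm_norm]
    field_simp
  set e0 : H →L[ℂ] H := rankOne ℂ ξ0 ξ0 with he0
  have he0p : IsStarProjection e0 := isStarProjection_rankOne_self hnorm
  set x : H →L[ℂ] H := 2 * e0 - 1 with hx
  have hxu : x ∈ unitary (H →L[ℂ] H) := he0p.two_mul_sub_one_mem_unitary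
  have hxnorm : ‖x‖ = 1 := CStarRing.norm_of_mem_unitary hxu
  have hxsa : IsSelfAdjoint x := by
    show star x = x
    rw [hx, star_sub, star_mul, star_one, he0p.isSelfAdjoint.star_eq]
    have : star (2 : H →L[ℂ] H) = 2 := by
      rw [← one_add_one_eq_two, star_add, star_one]
    rw [this, two_mul, mul_two]
  refine ⟨x, hxsa, fun hpav => ?_⟩
  set D : ℝ := 1 / r - ε with hD
  have hDpos : 0 < D := sub_pos.mpr hε
  obtain ⟨τ, _, g, hg, hs⟩ := exists_fine hA hd ξ0 (η := D / 4) (by positivity)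
  set n : ℝ := (Fintype.card τ : ℝ) with hn
  set δ : ℝ := D / (8 * (n + 1)) with hδ
  have hδpos : 0 < δ := by positivity
  obtain ⟨p, a, q, hp, ha, hasa, hale, -, hqp, hqF, hqT⟩ :=
    hpav (Finset.univ.image (fun t => g t ξ0) ∪ {ξ0}) δ hδpos
  have hpP : Part A p 1 := hp.toPart
  rw [hxnorm] at hale
  rw [hxnorm, mul_one] at hqT
  set T : H →L[ℂ] H := pinching p x - a with hT
  have hTnorm : ‖T‖ ≤ 2 := by
    calc ‖T‖ ≤ ‖pinching p x‖ + ‖a‖ := norm_sub_le _ _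
      _ ≤ 1 + 1 := add_le_add ((pinching_norm_le hpP x).trans hxnorm.le) hale
      _ = 2 := by norm_num
  -- the quadratic form of `T`
  have hform : ∀ ζ : H, (⟪ζ, T ζ⟫_ℂ).re
      = 2 * ∑ i, ‖⟪ξ0, p i ζ⟫_ℂ‖ ^ 2 - (‖ζ‖ ^ 2 + (⟪ζ, a ζ⟫_ℂ).re) := by
    intro ζ
    have e1 : ∀ v : H, (⟪v, x v⟫_ℂ).re = 2 * ‖⟪ξ0, v⟫_ℂ‖ ^ 2 - ‖v‖ ^ 2 := by
      intro v
      have : x v = (2 * ⟪ξ0, v⟫_ℂ) • ξ0 - v := by
        simp only [hx, he0, sub_apply, mul_apply_eq_comp, rankOne_apply, one_apply_eq_self]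
        rw [mul_smul]
        congr 1
        have : (2 : H →L[ℂ] H) = (2 : ℂ) • (1 : H →L[ℂ] H) := by
          rw [two_smul, one_add_one_eq_two]
        rw [this]
        rfl
      rw [this, inner_sub_right, inner_smul_right, inner_self_eq_norm_sq_to_K]
      have h2 : ⟪ξ0, v⟫_ℂ * ⟪v, ξ0⟫_ℂ = ((‖⟪ξ0, v⟫_ℂ‖ ^ 2 : ℝ) : ℂ) := by
        rw [← inner_conj_symm v ξ0, Complex.mul_conj, Complex.normSq_eq_norm_sq]
      rw [mul_assoc, h2]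
      have h3 : ((‖v‖ : ℂ) ^ 2) = ((‖v‖ ^ 2 : ℝ) : ℂ) := by push_cast; rfl
      erw [h3]
      simp only [Complex.sub_re, Complex.mul_re, Complex.re_ofNat, Complex.im_ofNat,
        Complex.ofReal_re, Complex.ofReal_im]
      ring
    rw [hT, sub_apply, inner_sub_right, Complex.sub_re, inner_pinching hpP.proj, Complex.re_sum,
      Finset.sum_congr rfl (fun i _ => e1 (p i ζ)), Finset.sum_sub_distrib, ← Finset.mul_sum,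
      hpP.norm_sq ζ, one_apply_eq_self]
    ring
  have hK : ∀ ζ ∈ (Finset.univ.image (fun t => g t ξ0) ∪ {ξ0}), ‖ζ‖ ≤ 1 →
      ‖⟪ζ, T ζ⟫_ℂ‖ ≤ ε * ‖ζ‖ ^ 2 + 4 * δ := by
    intro ζ hζ hζ1
    have := form_le_of_compress hqp hTnorm hqT hζ1 (hqF ζ hζ)
    linarith
  set φ : H → ℝ := fun ζ => ‖ζ‖ ^ 2 + (⟪ζ, a ζ⟫_ℂ).re with hφ
  -- the small pieces
  have hpiece : ∀ t, φ (g t ξ0) ≤ (D / 2 + ε) * ‖g t ξ0‖ ^ 2 + 4 * δ := by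
    intro t
    have hmem : g t ξ0 ∈ (Finset.univ.image (fun t => g t ξ0) ∪ {ξ0}) :=
      Finset.mem_union_left _ (Finset.mem_image_of_mem _ (Finset.mem_univ t))
    have hle1 : ‖g t ξ0‖ ≤ 1 := (proj_norm_le (hg.proj t) ξ0).trans hnorm.le
    have h1 := hK _ hmem hle1
    have h2 := hform (g t ξ0)
    have h3 : -‖⟪g t ξ0, T (g t ξ0)⟫_ℂ‖ ≤ (⟪g t ξ0, T (g t ξ0)⟫_ℂ).re :=
      (abs_le.mp (Complex.abs_re_le_norm _)).1
    have h4 : ∑ i, ‖⟪ξ0, p i (g t ξ0)⟫_ℂ‖ ^ 2 ≤ D / 4 * ‖g t ξ0‖ ^ 2 := by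
      have e1 := hpP.norm_sq (g t ξ0)
      rw [one_apply_eq_self] at e1
      rw [← e1, Finset.mul_sum]
      refine Finset.sum_le_sum fun i _ => ?_
      have hproj : IsStarProjection (p i * g t) :=
        (hpP.proj i).mul (hg.proj t) (hA.comm _ (hpP.mem i) _ (hg.mem t))
      have e2 : ⟪ξ0, p i (g t ξ0)⟫_ℂ = ((‖p i (g t ξ0)‖ ^ 2 : ℝ) : ℂ) := proj_inner_self hproj ξ0
      rw [e2, Complex.norm_real, Real.norm_eq_abs, abs_of_nonneg (by positivity)]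
      have e3 : ‖p i (g t ξ0)‖ ^ 2 ≤ D / 4 := by
        calc ‖p i (g t ξ0)‖ ^ 2 ≤ ‖g t ξ0‖ ^ 2 := by
              gcongr
              exact proj_norm_le (hpP.proj i) _
          _ ≤ D / 4 := hs t
      calc (‖p i (g t ξ0)‖ ^ 2) ^ 2 = ‖p i (g t ξ0)‖ ^ 2 * ‖p i (g t ξ0)‖ ^ 2 := by ring
        _ ≤ D / 4 * ‖p i (g t ξ0)‖ ^ 2 := by gcongr
    simp only [hφ]
    nlinarith
  have hφsum : ∑ t, φ (g t ξ0) = φ ξ0 := by
    simp only [hφ]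
    rw [Finset.sum_add_distrib, hg.norm_sq ξ0, one_apply_eq_self, ← Complex.re_sum]
    congr 2
    calc ∑ t, ⟪g t ξ0, a (g t ξ0)⟫_ℂ = ∑ t, ⟪ξ0, g t (a ξ0)⟫_ℂ := by
          refine Finset.sum_congr rfl fun t _ => ?_
          rw [hA.comm_apply ha (hg.mem t), proj_inner_both (hg.proj t)]
      _ = ⟪ξ0, a ξ0⟫_ℂ := by
          rw [← inner_sum, hg.sum_apply, one_apply_eq_self]
  have hφle : φ ξ0 ≤ D / 2 + ε + 4 * δ * n := by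
    rw [← hφsum]
    calc ∑ t, φ (g t ξ0) ≤ ∑ t, ((D / 2 + ε) * ‖g t ξ0‖ ^ 2 + 4 * δ) :=
          Finset.sum_le_sum fun t _ => hpiece t
      _ = (D / 2 + ε) * ‖ξ0‖ ^ 2 + 4 * δ * n := by
          rw [Finset.sum_add_distrib, ← Finset.mul_sum, hg.norm_sq ξ0, one_apply_eq_self]
          simp only [Finset.sum_const, Finset.card_univ, nsmul_eq_mul]
          rw [hn]; ring
      _ = D / 2 + ε + 4 * δ * n := by rw [hnorm]; ring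
  have hbig : 1 / (r : ℝ) ≤ ∑ i, ‖⟪ξ0, p i ξ0⟫_ℂ‖ ^ 2 := by
    have e1 := hpP.norm_sq ξ0
    rw [one_apply_eq_self, hnorm] at e1
    have e2 : ∀ i, ‖⟪ξ0, p i ξ0⟫_ℂ‖ = ‖p i ξ0‖ ^ 2 := by
      intro i
      rw [proj_inner_self (hpP.proj i), Complex.norm_real, Real.norm_eq_abs,
        abs_of_nonneg (by positivity)]
    simp only [e2]
    have e3 := sq_sum_le_card_mul_sum_sq (s := (Finset.univ : Finset (Fin r)))
      (f := fun i => ‖p i ξ0‖ ^ 2)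
    rw [e1] at e3
    simp only [Finset.card_univ, Fintype.card_fin] at e3
    rw [div_le_iff₀ hrpos]
    nlinarith
  have hmem0 : ξ0 ∈ (Finset.univ.image (fun t => g t ξ0) ∪ {ξ0}) :=
    Finset.mem_union_right _ (Finset.mem_singleton_self ξ0)
  have h1 := hK ξ0 hmem0 hnorm.le
  have h2 := hform ξ0
  have h3 : (⟪ξ0, T ξ0⟫_ℂ).re ≤ ‖⟪ξ0, T ξ0⟫_ℂ‖ := Complex.re_le_norm _
  rw [hnorm] at h1
  have h4 : 4 * δ * (n + 1) = D / 2 := by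
    have hn1 : n + 1 ≠ 0 := by positivity
    rw [hδ]; field_simp; ring
  have h5 : φ ξ0 = ‖ξ0‖ ^ 2 + (⟪ξ0, a ξ0⟫_ℂ).re := rfl
  have h6 : 1 / (r : ℝ) = D + ε := by rw [hD]; ring
  nlinarith

end Vale.Agent.P078
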