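import Vale.Agent.P078.Wot
import Vale.Agent.P078.Approx2
import Vale.Agent.P078.Frame
import Vale.Agent.P078.Lower

namespace Vale.Agent.P078

open scoped InnerProductSpace ComplexOrder
open Filter

variable {H : Type*} [NormedAddCommGroup H] [InnerProductSpace ℂ H] [CompleteSpace H]
variable {A M : VonNeumannAlgebra H}

lemma IsMASA.comm (hA : IsMASA A M) : Comm A := fun a ha b hb => ((hA b).mp hb).2 a ha

lemma IsMASA.le (hA : IsMASA A M) {a : H →L[ℂ] H} (ha : a ∈ A) : a ∈ M := ((hA a).mp ha).1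

/-- an operator commuting with all projections of a commutative von Neumann algebra commutes
with the whole algebra -/
lemma commute_of_commute_proj (hc : Comm A) {z : H →L[ℂ] H}
    (hz : ∀ e ∈ A, IsStarProjection e → e * z = z * e) {a : H →L[ℂ] H} (ha : a ∈ A) :
    a * z = z * a := by
  rw [← sub_eq_zero, ← norm_le_zero_iff]
  refine le_of_forall_pos_le_add fun δ hδ => ?_
  have hpos : 0 < 2 * ‖z‖ + 1 := by positivity
  obtain ⟨s, hs, hle⟩ := Gen.approx hc ha (δ := δ / (2 * ‖z‖ + 1)) (by positivity)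
  have hsz : s * z = z * s := by
    obtain ⟨ι, _, e, γ, he, rfl⟩ := hs
    rw [Finset.sum_mul, Finset.mul_sum]
    refine Finset.sum_congr rfl fun l _ => ?_
    rw [smul_mul_assoc, mul_smul_comm, hz _ (he.mem l) (he.proj l)]
  have : a * z - z * a = (a - s) * z - z * (a - s) := by
    rw [sub_mul, mul_sub, hsz]; abel
  rw [this, zero_add]
  calc ‖(a - s) * z - z * (a - s)‖ ≤ ‖(a - s) * z‖ + ‖z * (a - s)‖ := norm_sub_le _ _
    _ ≤ ‖a - s‖ * ‖z‖ + ‖z‖ * ‖a - s‖ := add_le_add (norm_mul_le _ _) (norm_mul_le _ _)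
    _ = ‖a - s‖ * (2 * ‖z‖) := by ring
    _ ≤ δ / (2 * ‖z‖ + 1) * (2 * ‖z‖ + 1) := by
        gcongr
        linarith
    _ = δ := by field_simp

/-- finite partitions of unity in `A` -/
structure FP (A : VonNeumannAlgebra H) where
  n : ℕ
  g : Fin n → H →L[ℂ] H
  part : Part A g 1

namespace FP

/-- a partition indexed by a finite type, reindexed -/
noncomputable def ofPart {ι : Type*} [Fintype ι] {e : ι → H →L[ℂ] H} (h : Part A e 1) : FP A :=
  ⟨Fintype.card ι, fun k => e ((Fintype.equivFin ι).symm k), h.reindex _⟩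

instance : Preorder (FP A) where
  le P Q := ∀ s, ∃ t, P.g t * Q.g s = Q.g s
  le_refl P := fun s => ⟨s, (P.part.proj s).isIdempotentElem.eq⟩
  le_trans P Q R hPQ hQR := fun u => by
    obtain ⟨s, hs⟩ := hQR u
    obtain ⟨t, ht⟩ := hPQ s
    exact ⟨t, by rw [← hs, ← mul_assoc, ht]⟩

lemma le_def {P Q : FP A} : P ≤ Q ↔ ∀ s, ∃ t, P.g t * Q.g s = Q.g s := Iff.rfl

/-- the pinching along a partition -/
noncomputable def pin (P : FP A) (y : H →L[ℂ] H) : H →L[ℂ] H := pinching P.g y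

lemma pin_norm_le (P : FP A) (y : H →L[ℂ] H) : ‖P.pin y‖ ≤ ‖y‖ := pinching_norm_le P.part y

lemma exists_ge (hc : Comm A) (P Q : FP A) : ∃ R : FP A, P ≤ R ∧ Q ≤ R := by
  have h := P.part.prod hc Q.part
  rw [one_mul] at h
  refine ⟨ofPart h, fun s => ?_, fun s => ?_⟩
  · refine ⟨((Fintype.equivFin _).symm s).1, ?_⟩
    show P.g _ * (P.g _ * Q.g _) = P.g _ * Q.g _
    rw [← mul_assoc, (P.part.proj _).isIdempotentElem.eq]
  · refine ⟨((Fintype.equivFin _).symm s).2, ?_⟩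
    show Q.g _ * (P.g _ * Q.g _) = P.g _ * Q.g _
    rw [hc _ (P.part.mem _) _ (Q.part.mem _), ← mul_assoc, (Q.part.proj _).isIdempotentElem.eq]

lemma part_two {e : H →L[ℂ] H} (he : e ∈ A) (hep : IsStarProjection e) :
    Part A (Sum.elim (fun _ : Unit => e) (fun _ : Unit => 1 - e)) 1 := by
  have h := (Part.single he hep).sumElim (Part.single (sub_mem (one_mem A) he) hep.one_sub)
    (by rw [mul_sub, mul_one, hep.isIdempotentElem.eq, sub_self])
  have h1 : e + (1 - e) = 1 := by abel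
  rwa [h1] at h

/-- the two-piece partition `(e, 1 - e)` -/
noncomputable def two {e : H →L[ℂ] H} (he : e ∈ A) (hep : IsStarProjection e) : FP A :=
  ofPart (part_two he hep)

lemma resp_of_two_le {e : H →L[ℂ] H} (he : e ∈ A) (hep : IsStarProjection e) {Q : FP A}
    (h : two he hep ≤ Q) (s : Fin Q.n) : e * Q.g s = Q.g s ∨ e * Q.g s = 0 := by
  obtain ⟨t, ht⟩ := h s
  have ht' : (Sum.elim (fun _ : Unit => e) (fun _ : Unit => 1 - e))
      ((Fintype.equivFin (Unit ⊕ Unit)).symm t) * Q.g s = Q.g s := ht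
  generalize (Fintype.equivFin (Unit ⊕ Unit)).symm t = u at ht'
  rcases u with u | u
  · left; exact ht'
  · right
    have h2 : (1 - e) * Q.g s = Q.g s := ht'
    rw [sub_mul, one_mul, sub_eq_self] at h2
    exact h2

lemma pin_commute {e : H →L[ℂ] H} (he : e ∈ A) (hep : IsStarProjection e) {Q : FP A}
    (h : two he hep ≤ Q) (y : H →L[ℂ] H) : e * Q.pin y = Q.pin y * e := by
  unfold pin pinching
  rw [Finset.mul_sum, Finset.sum_mul]
  refine Finset.sum_congr rfl fun s _ => ?_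
  have hstar : ∀ {c : H →L[ℂ] H}, e * Q.g s = c → IsSelfAdjoint c → Q.g s * e = c := by
    intro c hc hcs
    have := congrArg star hc
    simpa [star_mul, hep.isSelfAdjoint.star_eq, (Q.part.proj s).isSelfAdjoint.star_eq,
      hcs.star_eq] using this
  rcases resp_of_two_le he hep h s with h1 | h1
  · rw [← mul_assoc, ← mul_assoc, h1, mul_assoc _ _ e, hstar h1 (Q.part.proj s).isSelfAdjoint]
  · rw [← mul_assoc, ← mul_assoc, h1, mul_assoc _ _ e, hstar h1 (IsSelfAdjoint.zero _)]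
    simp

lemma pin_mem (hA : IsMASA A M) (P : FP A) {y : H →L[ℂ] H} (hy : y ∈ M) : P.pin y ∈ M := by
  unfold pin pinching
  exact sum_mem fun t _ => mul_mem (mul_mem (hA.le (P.part.mem t)) hy) (hA.le (P.part.mem t))

lemma pin_mul_mul (hc : Comm A) (P : FP A) {a b : H →L[ℂ] H} (ha : a ∈ A) (hb : b ∈ A)
    (y : H →L[ℂ] H) : P.pin (a * y * b) = a * P.pin y * b := by
  unfold pin pinching
  rw [Finset.mul_sum, Finset.sum_mul]
  refine Finset.sum_congr rfl fun t _ => ?_
  calc P.g t * (a * y * b) * P.g t = (P.g t * a) * y * (b * P.g t) := by simp only [mul_assoc]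
    _ = (a * P.g t) * y * (P.g t * b) := by
        rw [hc _ (P.part.mem t) _ ha, hc _ hb _ (P.part.mem t)]
    _ = a * (P.g t * y * P.g t) * b := by simp only [mul_assoc]

lemma pin_add (P : FP A) (y y' : H →L[ℂ] H) : P.pin (y + y') = P.pin y + P.pin y' := by
  unfold pin pinching
  rw [← Finset.sum_add_distrib]
  exact Finset.sum_congr rfl fun t _ => by rw [mul_add, add_mul]

lemma pin_smul (P : FP A) (c : ℂ) (y : H →L[ℂ] H) : P.pin (c • y) = c • P.pin y := by
  unfold pin pinching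
  rw [Finset.smul_sum]
  exact Finset.sum_congr rfl fun t _ => by rw [mul_smul_comm, smul_mul_assoc]

lemma pin_star (P : FP A) (y : H →L[ℂ] H) : P.pin (star y) = star (P.pin y) := by
  unfold pin pinching
  rw [star_sum]
  refine Finset.sum_congr rfl fun t _ => ?_
  rw [star_mul, star_mul, (P.part.proj t).isSelfAdjoint.star_eq, mul_assoc]

lemma pin_nonneg (P : FP A) {y : H →L[ℂ] H} (hy : 0 ≤ y) : 0 ≤ P.pin y :=
  Finset.sum_nonneg fun t _ => IsSelfAdjoint.conjugate_nonneg hy (P.part.proj t).isSelfAdjoint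

end FP

/-- an ultrafilter on partitions finer than the refinement order -/
lemma exists_ultra (hc : Comm A) :
    ∃ U : Ultrafilter (FP A), ∀ P : FP A, ∀ᶠ Q in (U : Filter (FP A)), P ≤ Q := by
  have : IsDirectedOrder (FP A) := ⟨fun P Q => FP.exists_ge hc P Q⟩
  have : Nonempty (FP A) := ⟨FP.two (one_mem A) (IsStarProjection.one _)⟩
  exact ⟨Ultrafilter.of atTop, fun P => (Ultrafilter.of_le atTop) (eventually_ge_atTop P)⟩

/-- a conditional expectation of `B(H)` onto the commutant of `A`, obtained as a weak operator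
limit of pinchings along an ultrafilter of partitions -/
structure CE (A : VonNeumannAlgebra H) (U : Ultrafilter (FP A))
    (Φ : (H →L[ℂ] H) → (H →L[ℂ] H)) : Prop where
  fine : ∀ P : FP A, ∀ᶠ Q in (U : Filter (FP A)), P ≤ Q
  lim : ∀ y v w, Tendsto (fun P : FP A => ⟪P.pin y v, w⟫_ℂ) U (nhds ⟪Φ y v, w⟫_ℂ)
  norm_le : ∀ y, ‖Φ y‖ ≤ ‖y‖

lemma exists_CE (hc : Comm A) : ∃ U Φ, CE A U Φ := by
  obtain ⟨U, hU⟩ := exists_ultra hc
  choose Φ h1 h2 using fun y : H →L[ℂ] H =>
    wot_lim U (fun P : FP A => P.pin y) ‖y‖ (fun P => P.pin_norm_le y)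
  exact ⟨U, Φ, hU, h2, h1⟩

namespace CE

variable {U : Ultrafilter (FP A)} {Φ : (H →L[ℂ] H) → (H →L[ℂ] H)}

lemma eq_of_lim (h : CE A U Φ) {y L : H →L[ℂ] H}
    (hL : ∀ v w, Tendsto (fun P : FP A => ⟪P.pin y v, w⟫_ℂ) U (nhds ⟪L v, w⟫_ℂ)) : Φ y = L := by
  ext v
  refine ext_inner_right ℂ fun w => ?_
  exact tendsto_nhds_unique (h.lim y v w) (hL v w)

lemma add (h : CE A U Φ) (y y' : H →L[ℂ] H) : Φ (y + y') = Φ y + Φ y' := by
  refine h.eq_of_lim fun v w => ?_
  have := (h.lim y v w).add (h.lim y' v w)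
  rw [add_apply, inner_add_left]
  refine this.congr fun P => ?_
  rw [FP.pin_add, add_apply, inner_add_left]

lemma smul (h : CE A U Φ) (c : ℂ) (y : H →L[ℂ] H) : Φ (c • y) = c • Φ y := by
  refine h.eq_of_lim fun v w => ?_
  have := (h.lim y v w).const_mul (starRingEnd ℂ c)
  rw [smul_apply, inner_smul_left]
  refine this.congr fun P => ?_
  rw [FP.pin_smul, smul_apply, inner_smul_left]

lemma lim' (h : CE A U Φ) (y : H →L[ℂ] H) (v w : H) :
    Tendsto (fun P : FP A => ⟪w, P.pin y v⟫_ℂ) U (nhds ⟪w, Φ y v⟫_ℂ) := by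
  have := ((Complex.continuous_conj.tendsto _).comp (h.lim y v w))
  rw [inner_conj_symm] at this
  refine this.congr fun P => ?_
  simp only [Function.comp]
  rw [inner_conj_symm]

lemma map_star (h : CE A U Φ) (y : H →L[ℂ] H) : Φ (star y) = star (Φ y) := by
  refine h.eq_of_lim fun v w => ?_
  have := h.lim' y w v
  have e1 : ⟪(star (Φ y)) v, w⟫_ℂ = ⟪v, Φ y w⟫_ℂ := by
    rw [ContinuousLinearMap.star_eq_adjoint, ContinuousLinearMap.adjoint_inner_left]
  rw [e1]
  refine this.congr fun P => ?_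
  rw [FP.pin_star, ContinuousLinearMap.star_eq_adjoint, ContinuousLinearMap.adjoint_inner_left]

lemma sa (h : CE A U Φ) {y : H →L[ℂ] H} (hy : IsSelfAdjoint y) : IsSelfAdjoint (Φ y) := by
  show star (Φ y) = Φ y
  rw [← h.map_star, hy.star_eq]

lemma nonneg (h : CE A U Φ) {y : H →L[ℂ] H} (hy : 0 ≤ y) : 0 ≤ Φ y := by
  rw [ContinuousLinearMap.nonneg_iff_isPositive, ContinuousLinearMap.isPositive_iff']
  refine ⟨h.sa hy.isSelfAdjoint, fun v => ?_⟩
  refine ge_of_tendsto' (h.lim y v v) fun P => ?_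
  have := P.pin_nonneg hy
  rw [ContinuousLinearMap.nonneg_iff_isPositive] at this
  exact this.inner_nonneg_left v

lemma mul_mul (h : CE A U Φ) (hc : Comm A) {a b : H →L[ℂ] H} (ha : a ∈ A) (hb : b ∈ A)
    (y : H →L[ℂ] H) : Φ (a * y * b) = a * Φ y * b := by
  refine h.eq_of_lim fun v w => ?_
  have := h.lim y (b v) ((star a) w)
  have e1 : ∀ T : H →L[ℂ] H, ⟪(a * T * b) v, w⟫_ℂ = ⟪T (b v), (star a) w⟫_ℂ := by
    intro T
    rw [ContinuousLinearMap.star_eq_adjoint, ContinuousLinearMap.adjoint_inner_right]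
    rfl
  rw [e1]
  refine this.congr fun P => ?_
  rw [FP.pin_mul_mul hc P ha hb, e1]

lemma mem_M (h : CE A U Φ) (hA : IsMASA A M) {y : H →L[ℂ] H} (hy : y ∈ M) : Φ y ∈ M := by
  refine mem_of_commute_commutant M fun z hz => ?_
  ext v
  refine ext_inner_right ℂ fun w => ?_
  have e1 : ∀ T : H →L[ℂ] H, ⟪(z * T) v, w⟫_ℂ = ⟪T v, (star z) w⟫_ℂ := by
    intro T
    rw [ContinuousLinearMap.star_eq_adjoint, ContinuousLinearMap.adjoint_inner_right]
    rfl
  rw [e1]
  refine tendsto_nhds_unique (h.lim y v _) ?_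
  have := h.lim y (z v) w
  refine this.congr fun P => ?_
  rw [← e1, commute_of_mem_commutant (P.pin_mem hA hy) hz]
  rfl

lemma commute_proj (h : CE A U Φ) {e : H →L[ℂ] H} (he : e ∈ A) (hep : IsStarProjection e)
    (y : H →L[ℂ] H) : e * Φ y = Φ y * e := by
  ext v
  refine ext_inner_right ℂ fun w => ?_
  have e1 : ∀ T : H →L[ℂ] H, ⟪(e * T) v, w⟫_ℂ = ⟪T v, e w⟫_ℂ := by
    intro T
    exact proj_inner hep _ _
  rw [e1]
  refine tendsto_nhds_unique (h.lim y v _) ?_
  have := h.lim y (e v) w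
  refine this.congr' ?_
  filter_upwards [h.fine (FP.two he hep)] with P hP
  rw [← e1, FP.pin_commute he hep hP]
  rfl

lemma mem_A (h : CE A U Φ) (hA : IsMASA A M) {y : H →L[ℂ] H} (hy : y ∈ M) : Φ y ∈ A :=
  (hA _).mpr ⟨h.mem_M hA hy, fun _ ha =>
    commute_of_commute_proj hA.comm (fun _ he hep => h.commute_proj he hep y) ha⟩

/-- finitely many matrix coefficients of `Φ y` are approximated by those of a pinching -/
lemma approx (h : CE A U Φ) (y : H →L[ℂ] H) (S : Finset (H × H)) {κ : ℝ} (hκ : 0 < κ) :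
    ∃ P : FP A, ∀ vw ∈ S, ‖⟪(P.pin y - Φ y) vw.1, vw.2⟫_ℂ‖ < κ := by
  have h1 : ∀ vw ∈ S, ∀ᶠ P in (U : Filter (FP A)),
      ‖⟪(P.pin y - Φ y) vw.1, vw.2⟫_ℂ‖ < κ := by
    intro vw _
    have h2 := h.lim y vw.1 vw.2
    rw [Metric.tendsto_nhds] at h2
    filter_upwards [h2 κ hκ] with P hP
    rw [sub_apply, inner_sub_left, ← dist_eq_norm]
    exact hP
  exact ((eventually_all_finset S).mpr h1).exists

end CE

end Vale.Agent.P078
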