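import Vale.Agent.P078.Defs2

namespace Vale.Agent.P078

variable {H : Type*} [NormedAddCommGroup H] [InnerProductSpace ℂ H] [CompleteSpace H]

/-- Every normal positive linear functional on `M` having `A` in its centralizer vanishes at
`e`. -/
def NullAt (A M : VonNeumannAlgebra H) (e : H →L[ℂ] H) : Prop :=
  ∀ ψ : (H →L[ℂ] H) →ₗ[ℂ] ℂ, PositiveOn M ψ → NormalOn M ψ → CentralOn A M ψ → ψ e = 0

/-- For a projection `z ∈ A` and `x = z x z ∈ M`: `x` is `(ε, r)` so-pavable over `A z` in the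
corner `z M z` (acting on `z H`): the partition is a partition of `z` in `A`, `a ∈ A z`, and the
projection `q ∈ z M z` is strongly close to the unit `z` of the corner. -/
def SoPavableIn (A M : VonNeumannAlgebra H) (z x : H →L[ℂ] H) (ε : ℝ) (r : ℕ) : Prop :=
  ∀ (F : Finset H) (δ : ℝ), 0 < δ →
    ∃ (p : Fin r → H →L[ℂ] H) (a q : H →L[ℂ] H),
      (∀ i, p i ∈ A) ∧ (∀ i, IsStarProjection (p i)) ∧ (∀ i j, i ≠ j → p i * p j = 0) ∧
      ∑ i, p i = z ∧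
      a ∈ A ∧ z * a = a ∧ IsSelfAdjoint a ∧ ‖a‖ ≤ ‖x‖ ∧
      q ∈ M ∧ IsStarProjection q ∧ z * q = q ∧ (∀ ξ ∈ F, ‖(z - q) ξ‖ < δ) ∧
      ‖q * (pinching p x - a) * q‖ ≤ ε * ‖x‖

/-- `n_{A z ⊆ z M z}(ε)`: the least `r ≥ 1` such that every self-adjoint `x ∈ z M z` is `(ε, r)`
so-pavable over `A z` in `z M z` (and `⊤` if there is none). -/
noncomputable def cornerPavingNumber (A M : VonNeumannAlgebra H) (z : H →L[ℂ] H) (ε : ℝ) : ℕ∞ :=
  sInf {n : ℕ∞ | ∃ r : ℕ, n = r ∧ 1 ≤ r ∧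
    ∀ x ∈ M, IsSelfAdjoint x → z * x * z = x → SoPavableIn A M z x ε r}

end Vale.Agent.P078
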