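import Vale.Agent.P078.ThinNE
import Vale.Agent.P078.Defs3

namespace Vale.Agent.P078

open scoped InnerProductSpace ComplexOrder
open Filter

variable {H : Type*} [NormedAddCommGroup H] [InnerProductSpace ℂ H] [CompleteSpace H]
variable {A M : VonNeumannAlgebra H}

/-- thinness of the corner of a projection `e` -/
def ThinAt (A M : VonNeumannAlgebra H) (e : H →L[ℂ] H) : Prop :=
  ∀ (F : Finset H) (δ η : ℝ), (∀ ξ ∈ F, e ξ = ξ) → 0 < δ → 0 < η →
    ∃ (q : H →L[ℂ] H) (P : FP A), q ∈ M ∧ IsStarProjection q ∧ e * q = q ∧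
      (∀ ξ ∈ F, ‖(1 - q) ξ‖ < δ) ∧ ∀ j, ‖P.g j * q‖ ≤ η

/-- thinness in mean of the corner of a projection `e` -/
def L1ThinAt (A M : VonNeumannAlgebra H) (e : H →L[ℂ] H) : Prop :=
  ∀ (F : Finset H) (δ κ : ℝ), (∀ ξ ∈ F, e ξ = ξ) → 0 < δ → 0 < κ →
    ∃ (q : H →L[ℂ] H) (P : FP A), q ∈ M ∧ IsStarProjection q ∧ e * q = q ∧
      (∀ ξ ∈ F, ‖(1 - q) ξ‖ < δ) ∧ ∑ ξ ∈ F, (⟪ξ, P.pin q ξ⟫_ℂ).re < κ

/-- a projection dominated by a multiple of an element of the corner lies in the corner -/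
lemma mul_eq_of_le_corner {e q b : H →L[ℂ] H} (he : IsStarProjection e) (hq : IsStarProjection q)
    (hqb : q ≤ (2 : ℂ) • b) (hb : b * (1 - e) = 0) : e * q = q := by
  have h1 := IsSelfAdjoint.conjugate_le_conjugate hqb he.one_sub.isSelfAdjoint
  have e1 : (1 - e) * ((2 : ℂ) • b) * (1 - e) = 0 := by
    rw [mul_assoc, smul_mul_assoc, hb, smul_zero, mul_zero]
  have e2 : (1 - e) * q * (1 - e) = star (q * (1 - e)) * (q * (1 - e)) := by
    rw [star_mul, he.one_sub.isSelfAdjoint.star_eq, hq.isSelfAdjoint.star_eq]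
    calc (1 - e) * q * (1 - e) = (1 - e) * (q * q) * (1 - e) := by rw [hq.isIdempotentElem.eq]
      _ = _ := by simp only [mul_assoc]
  rw [e1, e2] at h1
  have h2 : star (q * (1 - e)) * (q * (1 - e)) = 0 :=
    le_antisymm h1 (star_mul_self_nonneg _)
  have h3 : q * (1 - e) = 0 := CStarRing.star_mul_self_eq_zero_iff _ |>.mp h2
  have h4 : q * e = q := by
    rw [mul_sub, mul_one, sub_eq_zero] at h3
    exact h3.symm
  have := congrArg star h4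
  rwa [star_mul, he.isSelfAdjoint.star_eq, hq.isSelfAdjoint.star_eq] at this

lemma mul_eq_symm {e q : H →L[ℂ] H} (he : IsStarProjection e) (hq : IsStarProjection q)
    (h : e * q = q) : q * e = q := by
  have := congrArg star h
  rwa [star_mul, he.isSelfAdjoint.star_eq, hq.isSelfAdjoint.star_eq] at this

theorem thinAt_of_l1At (hA : IsMASA A M) {e : H →L[ℂ] H} (heA : e ∈ A) (he : IsStarProjection e)
    (h : L1ThinAt A M e) : ThinAt A M e := by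
  classical
  intro F δ η hFe hδ hη
  have hc : Comm A := hA.comm
  set R : ℝ := 1 + ∑ ξ ∈ F, ‖ξ‖ with hR
  have hR1 : 1 ≤ R := by
    have : 0 ≤ ∑ ξ ∈ F, ‖ξ‖ := Finset.sum_nonneg fun _ _ => norm_nonneg _
    linarith
  have hRξ : ∀ ξ ∈ F, ‖ξ‖ ≤ R := by
    intro ξ hξ
    have := Finset.single_le_sum (f := fun ξ : H => ‖ξ‖) (fun _ _ => norm_nonneg _) hξ
    linarith
  set ρ : ℝ := δ ^ 2 / (16 * R) with hρ
  have hρpos : 0 < ρ := by positivity
  set η1 : ℝ := η ^ 2 / 2 with hη1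
  have hη1pos : 0 < η1 := by positivity
  obtain ⟨q0, P, hq0M, hq0, heq0, hq0F, hsum⟩ := h F ρ (η1 * ρ ^ 2) hFe hρpos (by positivity)
  have hq0e : q0 * e = q0 := mul_eq_symm he hq0 heq0
  set b : H →L[ℂ] H := P.pin q0 with hb
  have hb0 : 0 ≤ b := P.pin_nonneg hq0.nonneg
  have hbM : b ∈ M := P.pin_mem hA hq0M
  obtain ⟨f, hfM, hf, c1, c2, -, c5⟩ := cut_mem M hbM hb0 η1
  have hfP : ∀ j, P.g j * f = f * P.g j := fun j => c5 _ (by
    rw [hb, FP.cell_mul_pin, FP.pin_mul_cell])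
  have hfe : e * f = f * e := c5 _ (by
    have h1 := FP.pin_mul_mul hc P heA (one_mem A) q0
    have h2 := FP.pin_mul_mul hc P (one_mem A) heA q0
    rw [mul_one, mul_one, heq0] at h1
    rw [one_mul, one_mul, hq0e] at h2
    rw [hb, ← h1, ← h2])
  set Y : H →L[ℂ] H := f * q0 * f with hY
  have hYM : Y ∈ M := mul_mem (mul_mem hfM hq0M) hfM
  have hY0 : 0 ≤ Y := IsSelfAdjoint.conjugate_nonneg hq0.nonneg hf.isSelfAdjoint
  have hY1 : Y ≤ 1 := by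
    have h1 : q0 ≤ 1 := hq0.le_one
    have h2 := IsSelfAdjoint.conjugate_le_conjugate h1 hf.isSelfAdjoint
    rw [mul_one, hf.isIdempotentElem.eq] at h2
    exact h2.trans hf.le_one
  have hYe : Y * (1 - e) = 0 := by
    have h1 : f * (1 - e) = (1 - e) * f := by
      rw [mul_sub, sub_mul, mul_one, one_mul, hfe]
    have h2 : q0 * (1 - e) = 0 := by rw [mul_sub, mul_one, hq0e, sub_self]
    rw [hY, mul_assoc, h1, ← mul_assoc, mul_assoc f, h2, mul_zero, zero_mul]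
  obtain ⟨q, hqM, hq, d1, d2, -⟩ := cut_half M hYM hY0 hY1
  refine ⟨q, P, hqM, hq, mul_eq_of_le_corner he hq d1 hYe, ?_, ?_⟩
  · intro ξ hξ
    have hfξ : ‖(1 - f) ξ‖ ≤ ρ := by
      have h1 := le_inner c2 ξ
      have e1 : (⟪ξ, ((η1 : ℂ) • (1 - f)) ξ⟫_ℂ).re = η1 * ‖(1 - f) ξ‖ ^ 2 := by
        rw [smul_apply, inner_smul_right, proj_inner_self hf.one_sub, ← Complex.ofReal_mul,
          Complex.ofReal_re]
      have h2 : (⟪ξ, b ξ⟫_ℂ).re ≤ ∑ ξ ∈ F, (⟪ξ, b ξ⟫_ℂ).re :=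
        Finset.single_le_sum (f := fun ξ : H => (⟪ξ, b ξ⟫_ℂ).re) (fun ζ _ => by
          have := le_inner hb0 ζ
          simpa using this) hξ
      rw [e1] at h1
      have h3 : η1 * ‖(1 - f) ξ‖ ^ 2 ≤ η1 * ρ ^ 2 := by linarith
      have h4 : ‖(1 - f) ξ‖ ^ 2 ≤ ρ ^ 2 := le_of_mul_le_mul_left h3 hη1pos
      exact abs_le_of_sq_le_sq' h4 hρpos.le |>.2
    have h5 := le_inner d2 ξ
    have e2 : (⟪ξ, (1 - q) ξ⟫_ℂ).re = ‖(1 - q) ξ‖ ^ 2 := by
      rw [proj_inner_self hq.one_sub, Complex.ofReal_re]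
    have e3 : (⟪ξ, ((2 : ℂ) • (1 - Y)) ξ⟫_ℂ).re = 2 * (‖ξ‖ ^ 2 - ‖q0 (f ξ)‖ ^ 2) := by
      have e4 : ⟪ξ, Y ξ⟫_ℂ = ((‖q0 (f ξ)‖ ^ 2 : ℝ) : ℂ) := by
        rw [hY]
        show ⟪ξ, f (q0 (f ξ))⟫_ℂ = _
        rw [← proj_inner hf, proj_inner_self hq0]
      rw [smul_apply, inner_smul_right, sub_apply, one_apply_eq_self, inner_sub_right, e4,
        inner_self_eq_norm_sq_to_K]
      have h3 : ((‖ξ‖ : ℂ) ^ 2) = ((‖ξ‖ ^ 2 : ℝ) : ℂ) := by push_cast; rfl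
      erw [h3]
      rw [← Complex.ofReal_sub, show (2 : ℂ) = ((2 : ℝ) : ℂ) by norm_num, ← Complex.ofReal_mul,
        Complex.ofReal_re]
    rw [e2, e3] at h5
    have h6 : ‖q0 (f ξ)‖ ≤ ‖ξ‖ := (proj_norm_le hq0 _).trans (proj_norm_le hf _)
    have h7 := norm_sq_sub_le h6
    have h8 : ‖ξ - q0 (f ξ)‖ ≤ ρ + ρ := by
      have : ξ - q0 (f ξ) = (1 - q0) ξ + q0 ((1 - f) ξ) := by
        simp only [sub_apply, one_apply_eq_self, map_sub]
        abel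
      rw [this]
      calc ‖(1 - q0) ξ + q0 ((1 - f) ξ)‖ ≤ ‖(1 - q0) ξ‖ + ‖q0 ((1 - f) ξ)‖ := norm_add_le _ _
        _ ≤ ρ + ρ := add_le_add (hq0F ξ hξ).le ((proj_norm_le hq0 _).trans hfξ)
    have h9 : ‖(1 - q) ξ‖ ^ 2 < δ ^ 2 := by
      have h10 : 2 * ‖ξ‖ * ‖ξ - q0 (f ξ)‖ ≤ 2 * R * (ρ + ρ) := by
        have := hRξ ξ hξ
        gcongr
      have h11 : 2 * (2 * R * (ρ + ρ)) = δ ^ 2 / 2 := by
        rw [hρ]; field_simp; ring
      have : 0 < δ ^ 2 := by positivity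
      linarith
    exact abs_lt_of_sq_lt_sq' h9 hδ.le |>.2
  · intro j
    have hPj := P.part.proj j
    have e1 : ‖P.g j * q‖ * ‖P.g j * q‖ = ‖P.g j * q * P.g j‖ := by
      rw [← CStarRing.norm_self_mul_star, star_mul, hq.isSelfAdjoint.star_eq,
        hPj.isSelfAdjoint.star_eq]
      congr 1
      calc P.g j * q * (q * P.g j) = P.g j * (q * q) * P.g j := by simp only [mul_assoc]
        _ = _ := by rw [hq.isIdempotentElem.eq]
    have e2 : P.g j * q * P.g j ≤ ((η ^ 2 : ℝ) : ℂ) • (1 : H →L[ℂ] H) := by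
      have s1 := IsSelfAdjoint.conjugate_le_conjugate d1 hPj.isSelfAdjoint
      have s2 : P.g j * ((2 : ℂ) • Y) * P.g j = (2 : ℂ) • (f * (P.g j * q0 * P.g j) * f) := by
        rw [mul_smul_comm, smul_mul_assoc, hY]
        congr 1
        calc P.g j * (f * q0 * f) * P.g j = (P.g j * f) * q0 * (f * P.g j) := by
              simp only [mul_assoc]
          _ = (f * P.g j) * q0 * (P.g j * f) := by rw [hfP j]
          _ = _ := by simp only [mul_assoc]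
      have s3 : f * (P.g j * q0 * P.g j) * f ≤ (η1 : ℂ) • f :=
        (IsSelfAdjoint.conjugate_le_conjugate (P.cell_le_pin j hq0.nonneg) hf.isSelfAdjoint).trans c1
      have s4 : (η1 : ℂ) • f ≤ (η1 : ℂ) • (1 : H →L[ℂ] H) := by
        rw [← sub_nonneg, ← smul_sub]
        have : 0 ≤ (1 - f : H →L[ℂ] H) := hf.one_sub.nonneg
        rw [ContinuousLinearMap.nonneg_iff_isPositive] at this ⊢
        exact this.smul_of_nonneg (by exact_mod_cast hη1pos.le)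
      rw [s2] at s1
      refine s1.trans ?_
      have s5 : (2 : ℂ) • (f * (P.g j * q0 * P.g j) * f) ≤ (2 : ℂ) • ((η1 : ℂ) • (1 : H →L[ℂ] H)) := by
        rw [two_smul, two_smul]
        exact add_le_add (s3.trans s4) (s3.trans s4)
      refine s5.trans (le_of_eq ?_)
      rw [smul_smul, hη1]
      congr 1
      push_cast
      ring
    have e3 : ‖P.g j * q * P.g j‖ ≤ η ^ 2 := by
      have h0 : 0 ≤ P.g j * q * P.g j := IsSelfAdjoint.conjugate_nonneg hq.nonneg hPj.isSelfAdjoint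
      exact (CStarAlgebra.norm_le_norm_of_nonneg_of_le h0 e2).trans
        (norm_real_smul_proj_le (IsStarProjection.one _) (by positivity))
    have e4 : ‖P.g j * q‖ ^ 2 ≤ η ^ 2 := by rw [sq, e1]; exact e3
    exact abs_le_of_sq_le_sq' e4 hη.le |>.2

theorem l1thinAt_of_null (hA : IsMASA A M) {e : H →L[ℂ] H} (heA : e ∈ A)
    (he : IsStarProjection e) (hne : NullAt A M e) : L1ThinAt A M e := by
  classical
  intro F δ κ hFe hδ hκ
  have hc : Comm A := hA.comm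
  have heM : e ∈ M := hA.le heA
  have hee : e * e = e := he.isIdempotentElem.eq
  obtain ⟨U, Φ, hΦ⟩ := exists_CE hc
  set ψ := ceFun hΦ F with hψ
  have hPF : PF ψ := ceFun_PF hΦ F
  set G : Set (H →L[ℂ] H) := {u | ∃ e ∈ A, IsStarProjection e ∧ u = 1 - (2 : ℂ) • e} with hG
  have hGA : ∀ u ∈ G, u ∈ A ∧ IsSelfAdjoint u ∧ u * u = 1 := by
    rintro u ⟨e, he, hep, rfl⟩
    exact symm_of_proj he hep
  have hGinv : ∀ u ∈ G, ∀ z ∈ M, ψ (u * z * u) = ψ z := by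
    intro u hu z hz
    obtain ⟨huA, husa, huu⟩ := hGA u hu
    rw [hψ, ceFun_apply, ceFun_apply]
    refine Finset.sum_congr rfl fun ξ _ => ?_
    rw [hΦ.mul_mul hc huA huA z]
    have : u * Φ z * u = Φ z := by
      rw [hc u huA (Φ z) (hΦ.mem_A hA hz), mul_assoc, huu, mul_one]
    rw [this]
  obtain ⟨ψn, hpos, hbd, hnorm, hinv, -, happ⟩ := exists_normal_part M hPF G
    (fun u hu => ⟨hA.le (hGA u hu).1, (hGA u hu).2.1, (hGA u hu).2.2, hGinv u hu⟩)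
  have hcentral : CentralOn A M ψn := by
    intro a ha y hy
    refine central_of_proj hc hbd (fun e he hep => ?_) ha
    have hu : (1 - (2 : ℂ) • e) ∈ G := ⟨e, he, hep, rfl⟩
    obtain ⟨huA, husa, huu⟩ := hGA _ hu
    have h1 := hinv _ hu ((1 - (2 : ℂ) • e) * y) (mul_mem (hA.le huA) hy)
    rw [← mul_assoc, huu, one_mul] at h1
    rw [mul_sub, sub_mul, mul_one, one_mul, map_sub, map_sub, mul_smul_comm, smul_mul_assoc,
      map_smul, map_smul, sub_right_inj] at h1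
    have h2 : (2 : ℂ) ≠ 0 := two_ne_zero
    exact (smul_right_injective ℂ h2 h1).symm
  have hz : ψn e = 0 := hne ψn (fun y _ hy => hpos y hy) hnorm hcentral
  -- choice of the parameters
  set R : ℝ := 1 + ∑ ξ ∈ F, ‖ξ‖ with hR
  have hR1 : 1 ≤ R := by
    have : 0 ≤ ∑ ξ ∈ F, ‖ξ‖ := Finset.sum_nonneg fun _ _ => norm_nonneg _
    linarith
  have hRξ : ∀ ξ ∈ F, ‖ξ‖ ≤ R := by
    intro ξ hξ
    have := Finset.single_le_sum (f := fun ξ : H => ‖ξ‖) (fun _ _ => norm_nonneg _) hξ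
    linarith
  obtain ⟨n, hn1⟩ := exists_nat_one_div_lt (K := ℝ) (ε := δ ^ 2 / (4 * R)) (by positivity)
  obtain ⟨y0, ⟨hy0M, hy01, hy0F⟩, hy0N⟩ := happ e (F, n) (κ / 4) (by positivity)
  simp only at hy0F
  rw [hz, sub_zero] at hy0N
  set y : H →L[ℂ] H := e * y0 * e with hy
  have hyM : y ∈ M := mul_mem (mul_mem heM hy0M) heM
  have hy1 : ‖y‖ ≤ 1 := by
    calc ‖y‖ ≤ ‖e * y0‖ * ‖e‖ := norm_mul_le _ _
      _ ≤ (‖e‖ * ‖y0‖) * ‖e‖ := by gcongr; exact norm_mul_le _ _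
      _ ≤ (1 * 1) * 1 := by
          gcongr
          · exact he.norm_le
          · exact he.norm_le
      _ = 1 := by norm_num
  have hyF : ∀ ξ ∈ F, ‖ξ - y ξ‖ < 1 / ((n : ℝ) + 1) := by
    intro ξ hξ
    have e1 : ξ - y ξ = e ((1 - y0) ξ) := by
      rw [hy]
      show ξ - e (y0 (e ξ)) = _
      rw [hFe ξ hξ, sub_apply, one_apply_eq_self, map_sub, hFe ξ hξ]
    rw [e1]
    exact (proj_norm_le he _).trans_lt (hy0F ξ hξ)
  set b : H →L[ℂ] H := star y * y with hb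
  have hbe : b = e * (star y0 * e * y0) * e := by
    rw [hb, hy, star_mul, star_mul, he.isSelfAdjoint.star_eq]
    calc e * (star y0 * e) * (e * y0 * e) = e * (star y0 * (e * e) * y0) * e := by
          simp only [mul_assoc]
      _ = _ := by rw [hee]
  have hψb : ψ b = ψ (star y0 * e * y0) := by
    rw [hbe, hψ, ceFun_apply, ceFun_apply]
    refine Finset.sum_congr rfl fun ξ hξ => ?_
    rw [hΦ.mul_mul hc heA heA]
    show ⟪ξ, e (Φ (star y0 * e * y0) (e ξ))⟫_ℂ = _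
    rw [← proj_inner he, hFe ξ hξ]
  have hyN' : N2 ψ y < κ / 4 := by
    have : N2 ψ y = (ψ (star y0 * e * y0)).re := by rw [← hψb]; rfl
    rw [this]
    exact (Complex.re_le_norm _).trans_lt hy0N
  have hbM : b ∈ M := mul_mem (star_mem hyM) hyM
  have hb0 : 0 ≤ b := star_mul_self_nonneg y
  have hb1 : b ≤ 1 := by
    have h1 : star y * y ≤ algebraMap ℝ (H →L[ℂ] H) (‖y‖ ^ 2) :=
      CStarAlgebra.star_mul_le_algebraMap_norm_sq
    refine h1.trans ?_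
    have h2 : ‖y‖ ^ 2 ≤ 1 := by nlinarith [norm_nonneg y]
    have h3 : algebraMap ℝ (H →L[ℂ] H) (‖y‖ ^ 2) ≤ algebraMap ℝ (H →L[ℂ] H) 1 :=
      algebraMap_mono (H →L[ℂ] H) h2
    rwa [map_one] at h3
  have hbe0 : b * (1 - e) = 0 := by
    rw [hbe, mul_assoc, mul_sub, mul_one, hee, sub_self, mul_zero]
  obtain ⟨q, hqM, hq, hq1, hq2, -⟩ := cut_half M hbM hb0 hb1
  have hψq : (ψ q).re < κ / 2 := by
    have h1 := hPF.mono hq1
    rw [map_smul, smul_eq_mul] at h1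
    have h2 : ((2 : ℂ) * ψ b).re = 2 * N2 ψ y := by
      simp [N2, hb]
    rw [h2] at h1
    linarith
  have hqF : ∀ ξ ∈ F, ‖(1 - q) ξ‖ < δ := by
    intro ξ hξ
    have h1 := le_inner hq2 ξ
    rw [proj_inner_self hq.one_sub, Complex.ofReal_re] at h1
    have h2 : (⟪ξ, ((2 : ℂ) • (1 - b)) ξ⟫_ℂ).re = 2 * (‖ξ‖ ^ 2 - ‖y ξ‖ ^ 2) := by
      have e1 : ⟪ξ, b ξ⟫_ℂ = ((‖y ξ‖ ^ 2 : ℝ) : ℂ) := by
        rw [hb, mul_apply_eq_comp, ContinuousLinearMap.star_eq_adjoint,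
          ContinuousLinearMap.adjoint_inner_right, inner_self_eq_norm_sq_to_K]
        norm_cast
      have e2 : ⟪ξ, ξ⟫_ℂ = ((‖ξ‖ ^ 2 : ℝ) : ℂ) := by
        rw [inner_self_eq_norm_sq_to_K]
        norm_cast
      rw [smul_apply, sub_apply, one_apply_eq_self, inner_smul_right, inner_sub_right, e1, e2,
        ← Complex.ofReal_sub]
      have e3 : (2 : ℂ) = ((2 : ℝ) : ℂ) := by norm_num
      rw [e3, Complex.re_ofReal_mul, Complex.ofReal_re]
    rw [h2] at h1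
    have h3 : ‖y ξ‖ ≤ ‖ξ‖ := by
      refine (y.le_opNorm ξ).trans ?_
      nlinarith [norm_nonneg ξ]
    have h4 := norm_sq_sub_le h3
    have h5 : ‖ξ - y ξ‖ < 1 / ((n : ℝ) + 1) := hyF ξ hξ
    have h6 : ‖(1 - q) ξ‖ ^ 2 < δ ^ 2 := by
      have h7 : 2 * ‖ξ‖ * ‖ξ - y ξ‖ ≤ 2 * R * (1 / ((n : ℝ) + 1)) := by
        have := hRξ ξ hξ
        gcongr
      have h8 : 2 * R * (1 / ((n : ℝ) + 1)) < 2 * R * (δ ^ 2 / (4 * R)) := by
        gcongr
      have h9 : 2 * R * (δ ^ 2 / (4 * R)) = δ ^ 2 / 2 := by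
        field_simp
        ring
      nlinarith [sq_nonneg δ]
    exact lt_of_pow_lt_pow_left₀ 2 hδ.le h6
  set κ' : ℝ := κ / (2 * ((F.card : ℝ) + 1)) with hκ'
  have hκ'pos : 0 < κ' := by positivity
  obtain ⟨P, hP⟩ := hΦ.approx q (F.image fun ξ => (ξ, ξ)) hκ'pos
  refine ⟨q, P, hqM, hq, mul_eq_of_le_corner he hq hq1 hbe0, hqF, ?_⟩
  have hterm : ∀ ξ ∈ F, (⟪ξ, P.pin q ξ⟫_ℂ).re ≤ (⟪ξ, Φ q ξ⟫_ℂ).re + κ' := by
    intro ξ hξ
    have h1 := hP (ξ, ξ) (Finset.mem_image.mpr ⟨ξ, hξ, rfl⟩)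
    simp only at h1
    have h2 : ‖⟪ξ, (P.pin q - Φ q) ξ⟫_ℂ‖ < κ' := by
      rw [← inner_conj_symm, RCLike.norm_conj]
      exact h1
    have h3 : (⟪ξ, P.pin q ξ⟫_ℂ).re - (⟪ξ, Φ q ξ⟫_ℂ).re = (⟪ξ, (P.pin q - Φ q) ξ⟫_ℂ).re := by
      rw [sub_apply, inner_sub_right, Complex.sub_re]
    have h4 := (Complex.re_le_norm (⟪ξ, (P.pin q - Φ q) ξ⟫_ℂ))
    linarith
  calc ∑ ξ ∈ F, (⟪ξ, P.pin q ξ⟫_ℂ).re ≤ ∑ ξ ∈ F, ((⟪ξ, Φ q ξ⟫_ℂ).re + κ') :=
        Finset.sum_le_sum hterm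
    _ = (ψ q).re + F.card * κ' := by
        rw [Finset.sum_add_distrib, hψ, ceFun_apply, Complex.re_sum]
        simp
    _ < κ / 2 + κ / 2 := by
        refine add_lt_add_of_lt_of_le hψq ?_
        rw [hκ']
        rw [mul_div_assoc', div_le_div_iff₀ (by positivity) (by positivity)]
        nlinarith [hκ, (Nat.cast_nonneg F.card : (0 : ℝ) ≤ F.card)]
    _ = κ := by ring

theorem thinAt_of_null (hA : IsMASA A M) {e : H →L[ℂ] H} (heA : e ∈ A)
    (he : IsStarProjection e) (hne : NullAt A M e) : ThinAt A M e :=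
  thinAt_of_l1At hA heA he (l1thinAt_of_null hA heA he hne)

end Vale.Agent.P078
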