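import Vale.Agent.P078.VN

namespace Vale.Agent.P078

open scoped InnerProductSpace

variable {H : Type*} [NormedAddCommGroup H] [InnerProductSpace ℂ H] [CompleteSpace H]

lemma norm_real_smul_proj_le {f : H →L[ℂ] H} (hf : IsStarProjection f) {η : ℝ} (hη : 0 ≤ η) :
    ‖(η : ℂ) • f‖ ≤ η := by
  calc ‖(η : ℂ) • f‖ ≤ ‖(η : ℂ)‖ * ‖f‖ := norm_smul_le _ _
    _ ≤ η * 1 := by
        rw [Complex.norm_real, Real.norm_eq_abs, abs_of_nonneg hη]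
        gcongr
        exact hf.norm_le
    _ = η := mul_one _

/-- membership version of `cut` -/
lemma cut_mem (M : VonNeumannAlgebra H) {b : H →L[ℂ] H} (hbM : b ∈ M) (hb : 0 ≤ b) (η : ℝ) :
    ∃ f ∈ M, IsStarProjection f ∧ f * b * f ≤ (η : ℂ) • f ∧ (η : ℂ) • (1 - f) ≤ b ∧
      f * b * f ≤ b ∧ ∀ z : H →L[ℂ] H, z * b = b * z → z * f = f * z := by
  obtain ⟨f, h1, h2, h3, h4, h5⟩ := cut hb η
  exact ⟨f, mem_of_commute_commutant M fun y hy => h5 y (commute_of_mem_commutant hbM hy),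
    h1, h2, h3, h4, h5⟩

/-- spectral cut of a self-adjoint operator `W` of `M` at level `κ` -/
lemma cut_sa (M : VonNeumannAlgebra H) {W : H →L[ℂ] H} (hW : W ∈ M) (hsa : IsSelfAdjoint W)
    {κ : ℝ} (hκ : 0 < κ) :
    ∃ p ∈ M, IsStarProjection p ∧ ‖W * p‖ ≤ κ ∧ (∀ ζ, κ * ‖(1 - p) ζ‖ ≤ ‖W ζ‖) ∧
      ∀ z : H →L[ℂ] H, z * W = W * z → z * p = p * z := by
  have hb : 0 ≤ W * W := by
    have := star_mul_self_nonneg W
    rwa [hsa.star_eq] at this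
  obtain ⟨p, hpM, hp, h1, h2, -, h5⟩ := cut_mem M (mul_mem hW hW) hb (κ ^ 2)
  refine ⟨p, hpM, hp, ?_, ?_, ?_⟩
  · have e1 : ‖W * p‖ * ‖W * p‖ = ‖p * (W * W) * p‖ := by
      rw [← CStarRing.norm_star_mul_self, star_mul, hsa.star_eq, hp.isSelfAdjoint.star_eq]
      simp only [mul_assoc]
    have e2 : ‖p * (W * W) * p‖ ≤ κ ^ 2 := by
      have h0 : 0 ≤ p * (W * W) * p := IsSelfAdjoint.conjugate_nonneg hb hp.isSelfAdjoint
      have h1' : p * (W * W) * p ≤ ((κ ^ 2 : ℝ) : ℂ) • p := h1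
      exact (CStarAlgebra.norm_le_norm_of_nonneg_of_le h0 h1').trans
        (norm_real_smul_proj_le hp (by positivity))
    have e3 : ‖W * p‖ ^ 2 ≤ κ ^ 2 := by rw [sq, e1]; exact e2
    exact abs_le_of_sq_le_sq' e3 hκ.le |>.2
  · intro ζ
    have h3 := le_inner h2 ζ
    have e1 : (⟪ζ, (((κ ^ 2 : ℝ) : ℂ) • (1 - p)) ζ⟫_ℂ).re = κ ^ 2 * ‖(1 - p) ζ‖ ^ 2 := by
      rw [smul_apply, inner_smul_right, proj_inner_self hp.one_sub, ← Complex.ofReal_mul,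
        Complex.ofReal_re]
    have e2 : (⟪ζ, (W * W) ζ⟫_ℂ).re = ‖W ζ‖ ^ 2 := by
      rw [mul_apply_eq_comp, ← sa_inner hsa, ← inner_self_eq_norm_sq (𝕜 := ℂ)]
      rfl
    rw [e1, e2, ← mul_pow] at h3
    exact abs_le_of_sq_le_sq' h3 (norm_nonneg _) |>.2
  · intro z hz
    refine h5 z ?_
    rw [← mul_assoc, hz, mul_assoc, hz, mul_assoc]

end Vale.Agent.P078
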