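import Vale.Agent.P078.NEThin
import Vale.Agent.P078.Defs3

namespace Vale.Agent.P078

open scoped InnerProductSpace

variable {H : Type*} [NormedAddCommGroup H] [InnerProductSpace ℂ H] [CompleteSpace H]
variable {A M : VonNeumannAlgebra H}

lemma proj_mem_of_commutant (A : VonNeumannAlgebra H) (K : Submodule ℂ H)
    [K.HasOrthogonalProjection] (hK : ∀ y ∈ A.commutant, ∀ ξ ∈ K, y ξ ∈ K) :
    K.starProjection ∈ A := by
  rw [VonNeumannAlgebra.IsStarProjection.mem_iff isStarProjection_starProjection]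
  intro y hy
  rw [Submodule.range_starProjection, Module.End.mem_invtSubmodule_iff_forall_mem_of_mem]
  exact hK y hy

/-- projections of `A` on which all normal central positive functionals vanish -/
def IsNull (A M : VonNeumannAlgebra H) (f : H →L[ℂ] H) : Prop :=
  f ∈ A ∧ IsStarProjection f ∧ NullAt A M f

lemma IsNull.zero : IsNull A M 0 :=
  ⟨zero_mem A, IsStarProjection.zero _, fun ψ _ _ _ => map_zero ψ⟩

lemma IsNull.sup (hA : IsMASA A M) {f g : H →L[ℂ] H} (hf : IsNull A M f) (hg : IsNull A M g) :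
    IsNull A M (f + g * (1 - f)) := by
  obtain ⟨hfA, hfp, hfn⟩ := hf
  obtain ⟨hgA, hgp, hgn⟩ := hg
  have hc : Comm A := hA.comm
  have h1A : (1 - f) ∈ A := sub_mem (one_mem A) hfA
  have hcomm : g * (1 - f) = (1 - f) * g := hc _ hgA _ h1A
  have hp2 : IsStarProjection (g * (1 - f)) := hgp.mul hfp.one_sub hcomm
  have hortho : f * (g * (1 - f)) = 0 := by
    rw [hcomm, ← mul_assoc, hfp.mul_one_sub_self, zero_mul]
  refine ⟨add_mem hfA (mul_mem hgA h1A), hfp.add hp2 hortho, fun ψ hpos hnorm hcen => ?_⟩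
  have hle : g * (1 - f) ≤ g := by
    have e1 : g - g * (1 - f) = g * f := by rw [mul_sub, mul_one]; abel
    rw [← sub_nonneg, e1]
    exact (hgp.mul hfp (hc _ hgA _ hfA)).nonneg
  have h2M : g * (1 - f) ∈ M := hA.le (mul_mem hgA h1A)
  have b1 := hpos.mono h2M (hA.le hgA) hle
  have b2 := hpos _ h2M hp2.nonneg
  rw [hgn ψ hpos hnorm hcen, Complex.zero_re] at b1
  have h0 : ψ (g * (1 - f)) = 0 := by
    apply Complex.ext
    · simp only [Complex.zero_re]; linarith [b2.1]
    · exact b2.2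
  rw [map_add, hfn ψ hpos hnorm hcen, h0, add_zero]

/-- the ranges of the null projections -/
def nullRange (A M : VonNeumannAlgebra H) : {f : H →L[ℂ] H // IsNull A M f} → Submodule ℂ H :=
  fun f => f.1.range

lemma nullRange_directed (hA : IsMASA A M) : Directed (· ≤ ·) (nullRange A M) := by
  rintro ⟨E, hE⟩ ⟨E', hE'⟩
  refine ⟨⟨E + E' * (1 - E), hE.sup hA hE'⟩, ?_, ?_⟩
  · intro ξ hξ
    have h1 : E ξ = ξ := (mem_range_iff hE.2.1).mp hξ
    refine (mem_range_iff (hE.sup hA hE').2.1).mpr ?_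
    simp only [add_apply, mul_apply_eq_comp, sub_apply, one_apply_eq_self, h1, sub_self, map_zero,
      add_zero]
  · intro ξ hξ
    have h1 : E' ξ = ξ := (mem_range_iff hE'.2.1).mp hξ
    refine (mem_range_iff (hE.sup hA hE').2.1).mpr ?_
    simp only [add_apply, mul_apply_eq_comp, sub_apply, one_apply_eq_self, map_sub, h1]
    have : E' (E ξ) = E (E' ξ) := by
      have := congrArg (fun T : H →L[ℂ] H => T ξ) (hA.comm _ hE'.1 _ hE.1)
      simpa using this
    rw [this, h1]
    abel

/-- the decomposition of a MASA into its expected part `z` and its nowhere expected part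
`1 - z` -/
theorem exists_decomp (hA : IsMASA A M) :
    ∃ z ∈ A, IsStarProjection z ∧
      (∀ f ∈ A, IsStarProjection f → z * f = f → f ≠ 0 →
        ∃ ψ : (H →L[ℂ] H) →ₗ[ℂ] ℂ, PositiveOn M ψ ∧ NormalOn M ψ ∧ CentralOn A M ψ ∧ ψ f ≠ 0) ∧
      NullAt A M (1 - z) := by
  classical
  have : Nonempty {f : H →L[ℂ] H // IsNull A M f} := ⟨⟨0, IsNull.zero⟩⟩
  set K : Submodule ℂ H := (⨆ f, nullRange A M f).topologicalClosure with hK
  have : CompleteSpace K := by rw [hK]; infer_instance
  have hdir := nullRange_directed hA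
  have hinv : ∀ y ∈ A.commutant, ∀ ξ ∈ K, y ξ ∈ K := by
    intro y hy ξ hξ
    have h1 : ξ ∈ closure ((⨆ f, nullRange A M f : Submodule ℂ H) : Set H) := hξ
    have : y ξ ∈ closure ((⨆ f, nullRange A M f : Submodule ℂ H) : Set H) := by
      refine map_mem_closure y.continuous h1 ?_
      intro ζ hζ
      obtain ⟨E, hE⟩ := (Submodule.mem_iSup_of_directed _ hdir).mp hζ
      refine (Submodule.mem_iSup_of_directed _ hdir).mpr ⟨E, ?_⟩
      have h2 : E.1 ζ = ζ := (mem_range_iff E.2.2.1).mp hE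
      refine (mem_range_iff E.2.2.1).mpr ?_
      have h3 : E.1 (y ζ) = y (E.1 ζ) := by
        have := congrArg (fun T : H →L[ℂ] H => T ζ)
          ((VonNeumannAlgebra.mem_commutant_iff.mp hy) E.1 E.2.1)
        simpa using this
      rw [h3, h2]
    exact this
  set P : H →L[ℂ] H := K.starProjection with hP
  have hPmem : P ∈ A := proj_mem_of_commutant A K hinv
  have hPp : IsStarProjection P := isStarProjection_starProjection
  have hPf : ∀ f : {f : H →L[ℂ] H // IsNull A M f}, P * f.1 = f.1 := by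
    intro f
    ext ζ
    have : f.1 ζ ∈ K := by
      refine Submodule.le_topologicalClosure _ ?_
      exact Submodule.mem_iSup_of_mem f ⟨ζ, rfl⟩
    exact Submodule.starProjection_eq_self_iff.mpr this
  refine ⟨1 - P, sub_mem (one_mem A) hPmem, hPp.one_sub, ?_, ?_⟩
  · intro f hfA hfp hzf hf0
    by_contra hcon
    push Not at hcon
    have hnull : IsNull A M f := ⟨hfA, hfp, fun ψ h1 h2 h3 => hcon ψ h1 h2 h3⟩
    have h1 := hPf ⟨f, hnull⟩
    simp only at h1
    rw [sub_mul, one_mul, h1, sub_self] at hzf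
    exact hf0 hzf.symm
  · intro ψ hpos hnorm hcen
    have e0 : (1 - (1 - P) : H →L[ℂ] H) = P := by abel
    rw [e0, ← norm_le_zero_iff]
    refine le_of_forall_pos_le_add fun κ hκ => ?_
    rw [zero_add]
    obtain ⟨F, δ, hδ, hF⟩ := hnorm κ hκ
    have key : ∀ S : Finset H, ∃ f : {f : H →L[ℂ] H // IsNull A M f},
        ∀ ξ ∈ S, ∃ v ∈ nullRange A M f, ‖P ξ - v‖ < δ := by
      intro S
      induction S using Finset.induction_on with
      | empty => exact ⟨⟨0, IsNull.zero⟩, by simp⟩
      | insert ξ0 S _ ih =>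
        obtain ⟨f1, hf1⟩ := ih
        have hmem : P ξ0 ∈ closure ((⨆ f, nullRange A M f : Submodule ℂ H) : Set H) := by
          have : P ξ0 ∈ K := Submodule.starProjection_apply_mem K ξ0
          exact this
        obtain ⟨v, hv, hdist⟩ := Metric.mem_closure_iff.mp hmem δ hδ
        obtain ⟨f2, hf2⟩ := (Submodule.mem_iSup_of_directed _ hdir).mp hv
        obtain ⟨f3, h13, h23⟩ := hdir f1 f2
        refine ⟨f3, fun ξ hξ => ?_⟩
        rcases Finset.mem_insert.mp hξ with rfl | hξS
        · exact ⟨v, h23 hf2, by rwa [dist_eq_norm] at hdist⟩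
        · obtain ⟨v', hv', hlt⟩ := hf1 ξ hξS
          exact ⟨v', h13 hv', hlt⟩
    obtain ⟨f, hf⟩ := key F
    obtain ⟨hfA, hfp, hfn⟩ := f.2
    have hPf' : P * f.1 = f.1 := hPf f
    have hfP : f.1 * P = f.1 := by rw [hA.comm _ hfA _ hPmem, hPf']
    have e1 : P - f.1 = P * (1 - f.1) := by rw [mul_sub, mul_one, hPf']
    have hproj : IsStarProjection (P - f.1) := by
      rw [e1]
      exact hPp.mul hfp.one_sub (hA.comm _ hPmem _ (sub_mem (one_mem A) hfA))
    have hsmall : ∀ ξ ∈ F, ‖(P - f.1) ξ‖ < δ := by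
      intro ξ hξ
      obtain ⟨v, hv, hlt⟩ := hf ξ hξ
      have hfv : f.1 v = v := (mem_range_iff hfp).mp hv
      have e2 : (P - f.1) ξ = (1 - f.1) (P ξ - v) := by
        have : f.1 ξ = f.1 (P ξ) := by rw [← mul_apply_eq_comp, hfP]
        simp only [sub_apply, one_apply_eq_self, map_sub, hfv]
        rw [this]
        abel
      rw [e2]
      exact (proj_norm_le hfp.one_sub _).trans_lt hlt
    have h1 := hF _ (hA.le (sub_mem hPmem hfA)) hproj hsmall
    rw [map_sub, hfn ψ hpos hnorm hcen, sub_zero] at h1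
    exact h1.le

end Vale.Agent.P078
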