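import Mathlib

namespace Vale.Agent.P078

variable {H : Type*} [NormedAddCommGroup H] [InnerProductSpace ℂ H] [CompleteSpace H]

/-- `A` is a maximal abelian self-adjoint subalgebra of `M`: `A` equals its relative commutant
in `M`, that is `A = A' ∩ M`. -/
def IsMASA (A M : VonNeumannAlgebra H) : Prop :=
  ∀ x : H →L[ℂ] H, x ∈ A ↔ x ∈ M ∧ ∀ a ∈ A, a * x = x * a

/-- `A` is diffuse: it has no minimal projection. -/
def IsDiffuse (A : VonNeumannAlgebra H) : Prop :=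
  ∀ e ∈ A, IsStarProjection e → e ≠ 0 →
    ∃ f ∈ A, IsStarProjection f ∧ f * e = f ∧ f ≠ 0 ∧ f ≠ e

/-- A partition in `A` with `r` pieces: mutually orthogonal projections of `A` with sum `1`
(zeros allowed). -/
structure IsPartition (A : VonNeumannAlgebra H) {r : ℕ} (p : Fin r → H →L[ℂ] H) : Prop where
  mem : ∀ i, p i ∈ A
  proj : ∀ i, IsStarProjection (p i)
  ortho : ∀ i j, i ≠ j → p i * p j = 0
  sum_eq : ∑ i, p i = 1

/-- The pinching `S_P(x) = ∑ p_i x p_i`. -/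
noncomputable def pinching {r : ℕ} (p : Fin r → H →L[ℂ] H) (x : H →L[ℂ] H) : H →L[ℂ] H :=
  ∑ i, p i * x * p i

/-- `x` is `(ε, r)` so-pavable over `A` in `M`. -/
def SoPavable (A M : VonNeumannAlgebra H) (x : H →L[ℂ] H) (ε : ℝ) (r : ℕ) : Prop :=
  ∀ (F : Finset H) (δ : ℝ), 0 < δ →
    ∃ (p : Fin r → H →L[ℂ] H) (a q : H →L[ℂ] H),
      IsPartition A p ∧ a ∈ A ∧ IsSelfAdjoint a ∧ ‖a‖ ≤ ‖x‖ ∧
      q ∈ M ∧ IsStarProjection q ∧ (∀ ξ ∈ F, ‖(1 - q) ξ‖ < δ) ∧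
      ‖q * (pinching p x - a) * q‖ ≤ ε * ‖x‖

/-- `n_{A ⊆ M}(ε)`: the least `r ≥ 1` such that every self-adjoint `x ∈ M` is `(ε, r)` so-pavable
(and `⊤` if there is none). -/
noncomputable def pavingNumber (A M : VonNeumannAlgebra H) (ε : ℝ) : ℕ∞ :=
  sInf {n : ℕ∞ | ∃ r : ℕ, n = r ∧ 1 ≤ r ∧ ∀ x ∈ M, IsSelfAdjoint x → SoPavable A M x ε r}

end Vale.Agent.P078
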