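import Vale.Agent.P078.Defs

namespace Vale.Agent.P078

variable {H : Type*} [NormedAddCommGroup H] [InnerProductSpace ℂ H] [CompleteSpace H]

/-- The linear functional `ψ` (given on all bounded operators; only its restriction to `M` is
used) is positive on `M`: its values on positive elements of `M` are nonnegative reals. -/
def PositiveOn (M : VonNeumannAlgebra H) (ψ : (H →L[ℂ] H) →ₗ[ℂ] ℂ) : Prop :=
  ∀ y ∈ M, 0 ≤ y → 0 ≤ (ψ y).re ∧ (ψ y).im = 0

/-- `ψ` is normal on `M`: `ψ e → 0` when the projection `e ∈ M` tends to `0` in the strong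
operator topology. For a positive functional this is equivalent to complete additivity on
orthogonal families of projections, that is to normality. -/
def NormalOn (M : VonNeumannAlgebra H) (ψ : (H →L[ℂ] H) →ₗ[ℂ] ℂ) : Prop :=
  ∀ κ : ℝ, 0 < κ → ∃ (F : Finset H) (δ : ℝ), 0 < δ ∧
    ∀ e ∈ M, IsStarProjection e → (∀ ξ ∈ F, ‖e ξ‖ < δ) → ‖ψ e‖ < κ

/-- `A` lies in the centralizer of `ψ` on `M`. -/
def CentralOn (A M : VonNeumannAlgebra H) (ψ : (H →L[ℂ] H) →ₗ[ℂ] ℂ) : Prop :=
  ∀ a ∈ A, ∀ y ∈ M, ψ (a * y) = ψ (y * a)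

/-- `A ⊆ M` is nowhere expected: `M` has no nonzero normal positive linear functional whose
centralizer contains `A`. (By Takesaki's theorem this says that for no nonzero projection
`p ∈ A` is there a normal conditional expectation of `p M p` onto `A p`.) -/
def NowhereExpected (A M : VonNeumannAlgebra H) : Prop :=
  ∀ ψ : (H →L[ℂ] H) →ₗ[ℂ] ℂ, PositiveOn M ψ → NormalOn M ψ → CentralOn A M ψ → ∀ y ∈ M, ψ y = 0

end Vale.Agent.P078
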