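import Vale.Agent.P078.Cond

namespace Vale.Agent.P078

open scoped InnerProductSpace
open Filter

variable {H : Type*} [NormedAddCommGroup H] [InnerProductSpace ℂ H] [CompleteSpace H]
variable {A M : VonNeumannAlgebra H}

namespace FP

lemma pin_ofPart {ι : Type*} [Fintype ι] {e : ι → H →L[ℂ] H} (h : Part A e 1) (y : H →L[ℂ] H) :
    (ofPart h).pin y = ∑ l, e l * y * e l := by
  unfold pin pinching ofPart
  exact Equiv.sum_comp (Fintype.equivFin ι).symm (fun l => e l * y * e l)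

/-- refine every cell of `P` by its own partition -/
lemma part_sigma (hc : Comm A) (P : FP A) (R : Fin P.n → FP A) :
    Part A (fun jt : (j : Fin P.n) × Fin (R j).n => P.g jt.1 * (R jt.1).g jt.2) 1 where
  mem jt := mul_mem (P.part.mem _) ((R jt.1).part.mem _)
  proj jt := (P.part.proj _).mul ((R jt.1).part.proj _) (hc _ (P.part.mem _) _ ((R jt.1).part.mem _))
  ortho jt jt' hne := by
    obtain ⟨j, t⟩ := jt
    obtain ⟨j', t'⟩ := jt'
    show P.g j * (R j).g t * (P.g j' * (R j').g t') = 0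
    by_cases hj : j = j'
    · subst hj
      have ht : t ≠ t' := fun h => hne (by rw [h])
      calc P.g j * (R j).g t * (P.g j * (R j).g t')
          = P.g j * ((R j).g t * P.g j) * (R j).g t' := by simp only [mul_assoc]
        _ = P.g j * (P.g j * (R j).g t) * (R j).g t' := by
            rw [hc _ ((R j).part.mem t) _ (P.part.mem j)]
        _ = P.g j * P.g j * ((R j).g t * (R j).g t') := by simp only [mul_assoc]
        _ = 0 := by rw [(R j).part.ortho t t' ht, mul_zero]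
    · calc P.g j * (R j).g t * (P.g j' * (R j').g t')
          = P.g j * ((R j).g t * P.g j') * (R j').g t' := by simp only [mul_assoc]
        _ = P.g j * (P.g j' * (R j).g t) * (R j').g t' := by
            rw [hc _ ((R j).part.mem t) _ (P.part.mem j')]
        _ = (P.g j * P.g j') * (R j).g t * (R j').g t' := by simp only [mul_assoc]
        _ = 0 := by rw [P.part.ortho j j' hj]; simp
  sum_eq := by
    rw [Fintype.sum_sigma]
    calc ∑ j, ∑ t, P.g j * (R j).g t = ∑ j, P.g j := by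
          refine Finset.sum_congr rfl fun j _ => ?_
          rw [← Finset.mul_sum, (R j).part.sum_eq, mul_one]
      _ = 1 := P.part.sum_eq

/-- the glued partition -/
noncomputable def sigma (hc : Comm A) (P : FP A) (R : Fin P.n → FP A) : FP A :=
  ofPart (part_sigma hc P R)

lemma le_sigma (hc : Comm A) (P : FP A) (R : Fin P.n → FP A) : P ≤ sigma hc P R := by
  intro s
  refine ⟨((Fintype.equivFin _).symm s).1, ?_⟩
  show P.g _ * (P.g _ * (R _).g _) = P.g _ * (R _).g _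
  rw [← mul_assoc, (P.part.proj _).isIdempotentElem.eq]

lemma pin_sigma (hc : Comm A) (P : FP A) (R : Fin P.n → FP A) (y : H →L[ℂ] H) :
    (sigma hc P R).pin y = ∑ j, P.g j * (R j).pin y * P.g j := by
  unfold sigma
  rw [pin_ofPart, Fintype.sum_sigma]
  refine Finset.sum_congr rfl fun j _ => ?_
  unfold pin pinching
  rw [Finset.mul_sum, Finset.sum_mul]
  refine Finset.sum_congr rfl fun t _ => ?_
  calc P.g j * (R j).g t * y * (P.g j * (R j).g t)
      = P.g j * (R j).g t * y * ((R j).g t * P.g j) := by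
        rw [hc _ (P.part.mem j) _ ((R j).part.mem t)]
    _ = P.g j * ((R j).g t * y * (R j).g t) * P.g j := by simp only [mul_assoc]

lemma sum_conj_of_mem (hc : Comm A) (P : FP A) {a : H →L[ℂ] H} (ha : a ∈ A) :
    ∑ j, P.g j * a * P.g j = a := by
  calc ∑ j, P.g j * a * P.g j = ∑ j, a * P.g j := by
        refine Finset.sum_congr rfl fun j _ => ?_
        rw [hc _ (P.part.mem j) _ ha, mul_assoc, (P.part.proj j).isIdempotentElem.eq]
    _ = a := by rw [← Finset.mul_sum, P.part.sum_eq, mul_one]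

lemma norm_mul_le_of_le {P Q : FP A} (h : P ≤ Q) {q : H →L[ℂ] H} {η : ℝ}
    (hη : ∀ j, ‖P.g j * q‖ ≤ η) (s : Fin Q.n) : ‖Q.g s * q‖ ≤ η := by
  obtain ⟨t, ht⟩ := h s
  have h1 : Q.g s * P.g t = Q.g s := by
    have := congrArg star ht
    simpa [star_mul, (P.part.proj t).isSelfAdjoint.star_eq,
      (Q.part.proj s).isSelfAdjoint.star_eq] using this
  calc ‖Q.g s * q‖ = ‖Q.g s * (P.g t * q)‖ := by rw [← mul_assoc, h1]
    _ ≤ ‖Q.g s‖ * ‖P.g t * q‖ := norm_mul_le _ _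
    _ ≤ 1 * η := mul_le_mul (Q.part.proj s).norm_le (hη t) (norm_nonneg _) zero_le_one
    _ = η := one_mul _

end FP

lemma norm_star_mul_proj {g q : H →L[ℂ] H} (hg : IsStarProjection g) (hq : IsStarProjection q) :
    ‖q * g‖ = ‖g * q‖ := by
  have : q * g = star (g * q) := by
    rw [star_mul, hg.isSelfAdjoint.star_eq, hq.isSelfAdjoint.star_eq]
  rw [this, norm_star]

/-- the diagonal part: on a thin projection `q` the pinching along a suitable refinement of `P`
is close, in the strong sense on finitely many vectors, to the conditional expectation -/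
theorem exists_diag {U : Ultrafilter (FP A)} {Φ : (H →L[ℂ] H) → (H →L[ℂ] H)} (h : CE A U Φ)
    (hA : IsMASA A M) {x : H →L[ℂ] H} (hx : x ∈ M) {q : H →L[ℂ] H} (hq : IsStarProjection q)
    (P : FP A) {η : ℝ} (hη0 : 0 ≤ η) (hη : ∀ j, ‖P.g j * q‖ ≤ η) (F : Finset H) {τ : ℝ}
    (hτ : 0 < τ) :
    ∃ Q : FP A, P ≤ Q ∧
      ∑ ξ ∈ F, ‖(q * (Q.pin x - Φ x) * q) ξ‖ ^ 2 ≤ 4 * η ^ 2 * ‖x‖ ^ 2 * ∑ ξ ∈ F, ‖ξ‖ ^ 2 + τ := by
  classical
  have hc : Comm A := hA.comm
  set a : H →L[ℂ] H := Φ x with ha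
  have haA : a ∈ A := h.mem_A hA hx
  have han : ‖a‖ ≤ ‖x‖ := h.norm_le x
  set D : Fin P.n → FP A → H →L[ℂ] H := fun j R => q * (P.g j * (R.pin x - a) * P.g j) * q with hD
  set β : Fin P.n → ℝ := fun j => ∑ ξ ∈ F, (η * (2 * ‖x‖) * ‖P.g j (q ξ)‖) ^ 2 with hβ
  set τ' : ℝ := τ / (P.n + 1) with hτ'
  have hτ'pos : 0 < τ' := by positivity
  have key : ∀ s : Finset (Fin P.n), ∃ R : Fin P.n → FP A,
      ∑ ξ ∈ F, ‖∑ j ∈ s, D j (R j) ξ‖ ^ 2 ≤ ∑ j ∈ s, (β j + τ') := by
    intro s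
    induction s using Finset.induction_on with
    | empty => exact ⟨fun _ => P, by simp⟩
    | insert k s hk ih =>
      obtain ⟨R, hR⟩ := ih
      set V : H → H := fun ξ => ∑ j ∈ s, D j (R j) ξ with hV
      set κ : ℝ := τ' / (2 * (F.card + 1)) with hκ
      have hκpos : 0 < κ := by positivity
      obtain ⟨R', hR'⟩ := h.approx x (F.image fun ξ => (P.g k (q ξ), P.g k (q (V ξ)))) hκpos
      refine ⟨Function.update R k R', ?_⟩
      have e1 : ∀ ξ, ∑ j ∈ insert k s, D j (Function.update R k R' j) ξ = V ξ + D k R' ξ := by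
        intro ξ
        rw [Finset.sum_insert hk, Function.update_self, add_comm]
        congr 1
        refine Finset.sum_congr rfl fun j hj => ?_
        rw [Function.update_of_ne (fun hjk => hk (by rw [← hjk]; exact hj))]
      have e2 : ∀ ξ ∈ F, ‖V ξ + D k R' ξ‖ ^ 2
          ≤ ‖V ξ‖ ^ 2 + 2 * κ + (η * (2 * ‖x‖) * ‖P.g k (q ξ)‖) ^ 2 := by
        intro ξ hξ
        have h1 : ‖⟪(R'.pin x - a) (P.g k (q ξ)), P.g k (q (V ξ))⟫_ℂ‖ < κ :=
          hR' _ (Finset.mem_image_of_mem _ hξ)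
        have h2 : ⟪D k R' ξ, V ξ⟫_ℂ = ⟪(R'.pin x - a) (P.g k (q ξ)), P.g k (q (V ξ))⟫_ℂ := by
          simp only [hD, mul_apply_eq_comp]
          rw [proj_inner hq, proj_inner (P.part.proj k)]
        have h3 : ‖D k R' ξ‖ ≤ η * (2 * ‖x‖) * ‖P.g k (q ξ)‖ := by
          have h4 : D k R' ξ = (q * P.g k) ((R'.pin x - a) (P.g k (q ξ))) := by
            simp only [hD, mul_apply_eq_comp]
          rw [h4]
          calc ‖(q * P.g k) ((R'.pin x - a) (P.g k (q ξ)))‖
              ≤ ‖q * P.g k‖ * ‖(R'.pin x - a) (P.g k (q ξ))‖ := ContinuousLinearMap.le_opNorm _ _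
            _ ≤ ‖q * P.g k‖ * (‖R'.pin x - a‖ * ‖P.g k (q ξ)‖) := by
                gcongr
                exact ContinuousLinearMap.le_opNorm _ _
            _ ≤ η * ((2 * ‖x‖) * ‖P.g k (q ξ)‖) := by
                gcongr
                · rw [norm_star_mul_proj (P.part.proj k) hq]; exact hη k
                · calc ‖R'.pin x - a‖ ≤ ‖R'.pin x‖ + ‖a‖ := norm_sub_le _ _
                    _ ≤ ‖x‖ + ‖x‖ := add_le_add (R'.pin_norm_le x) han
                    _ = 2 * ‖x‖ := by ring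
            _ = η * (2 * ‖x‖) * ‖P.g k (q ξ)‖ := by ring
        have h5 : ‖V ξ + D k R' ξ‖ ^ 2
            = ‖V ξ‖ ^ 2 + 2 * (⟪V ξ, D k R' ξ⟫_ℂ).re + ‖D k R' ξ‖ ^ 2 := by
          rw [norm_add_sq (𝕜 := ℂ)]
          rfl
        have h6 : (⟪V ξ, D k R' ξ⟫_ℂ).re ≤ κ := by
          calc (⟪V ξ, D k R' ξ⟫_ℂ).re ≤ ‖⟪V ξ, D k R' ξ⟫_ℂ‖ := Complex.re_le_norm _
            _ = ‖⟪D k R' ξ, V ξ⟫_ℂ‖ := norm_inner_symm _ _
            _ ≤ κ := by rw [h2]; exact h1.le
        have h7 : ‖D k R' ξ‖ ^ 2 ≤ (η * (2 * ‖x‖) * ‖P.g k (q ξ)‖) ^ 2 := by gcongr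
        rw [h5]
        linarith
      calc ∑ ξ ∈ F, ‖∑ j ∈ insert k s, D j (Function.update R k R' j) ξ‖ ^ 2
          = ∑ ξ ∈ F, ‖V ξ + D k R' ξ‖ ^ 2 := by
            refine Finset.sum_congr rfl fun ξ _ => ?_
            rw [e1]
        _ ≤ ∑ ξ ∈ F, (‖V ξ‖ ^ 2 + 2 * κ + (η * (2 * ‖x‖) * ‖P.g k (q ξ)‖) ^ 2) :=
            Finset.sum_le_sum e2
        _ = ∑ ξ ∈ F, ‖V ξ‖ ^ 2 + F.card * (2 * κ) + β k := by
            rw [Finset.sum_add_distrib, Finset.sum_add_distrib]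
            simp [hβ]
        _ ≤ ∑ j ∈ s, (β j + τ') + τ' + β k := by
            gcongr
            rw [hκ]
            have : (F.card : ℝ) * (2 * (τ' / (2 * (F.card + 1)))) = τ' * (F.card / (F.card + 1)) := by
              field_simp
            rw [this]
            have h8 : (F.card : ℝ) / (F.card + 1) ≤ 1 := by
              rw [div_le_one (by positivity)]
              linarith
            nlinarith
        _ = ∑ j ∈ insert k s, (β j + τ') := by
            rw [Finset.sum_insert hk]; ring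
  obtain ⟨R, hR⟩ := key Finset.univ
  refine ⟨FP.sigma hc P R, FP.le_sigma hc P R, ?_⟩
  have e3 : q * ((FP.sigma hc P R).pin x - a) * q = ∑ j, D j (R j) := by
    rw [FP.pin_sigma]
    nth_rewrite 1 [← FP.sum_conj_of_mem hc P haA]
    rw [← Finset.sum_sub_distrib, Finset.mul_sum, Finset.sum_mul]
    refine Finset.sum_congr rfl fun j _ => ?_
    simp only [hD, mul_sub, sub_mul]
  have e4 : ∑ j, β j ≤ 4 * η ^ 2 * ‖x‖ ^ 2 * ∑ ξ ∈ F, ‖ξ‖ ^ 2 := by
    simp only [hβ]
    rw [Finset.sum_comm, Finset.mul_sum]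
    refine Finset.sum_le_sum fun ξ _ => ?_
    have h9 := P.part.norm_sq (q ξ)
    rw [one_apply_eq_self] at h9
    have h10 : ‖q ξ‖ ^ 2 ≤ ‖ξ‖ ^ 2 := by
      gcongr
      exact proj_norm_le hq ξ
    calc ∑ j, (η * (2 * ‖x‖) * ‖P.g j (q ξ)‖) ^ 2
        = 4 * η ^ 2 * ‖x‖ ^ 2 * ∑ j, ‖P.g j (q ξ)‖ ^ 2 := by
          rw [Finset.mul_sum]
          refine Finset.sum_congr rfl fun j _ => ?_
          ring
      _ ≤ 4 * η ^ 2 * ‖x‖ ^ 2 * ‖ξ‖ ^ 2 := by
          rw [h9]
          gcongr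
  calc ∑ ξ ∈ F, ‖(q * ((FP.sigma hc P R).pin x - a) * q) ξ‖ ^ 2
      = ∑ ξ ∈ F, ‖∑ j, D j (R j) ξ‖ ^ 2 := by
        refine Finset.sum_congr rfl fun ξ _ => ?_
        rw [e3, _root_.sum_apply]
    _ ≤ ∑ j, (β j + τ') := hR
    _ = ∑ j, β j + P.n * τ' := by
        rw [Finset.sum_add_distrib]
        simp
    _ ≤ 4 * η ^ 2 * ‖x‖ ^ 2 * ∑ ξ ∈ F, ‖ξ‖ ^ 2 + τ := by
        refine add_le_add e4 ?_
        rw [hτ']
        have : (P.n : ℝ) * (τ / (P.n + 1)) = τ * (P.n / (P.n + 1)) := by field_simp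
        rw [this]
        have h8 : (P.n : ℝ) / (P.n + 1) ≤ 1 := by
          rw [div_le_one (by positivity)]
          linarith
        nlinarith

end Vale.Agent.P078
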