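import Vale.Agent.P078.Proj

namespace Vale.Agent.P078

open scoped InnerProductSpace

variable {H : Type*} [NormedAddCommGroup H] [InnerProductSpace ℂ H] [CompleteSpace H]

/-- `A` is a maximal abelian subalgebra of the algebra of all bounded operators -/
structure Ctx (A : VonNeumannAlgebra H) : Prop where
  comm : ∀ a ∈ A, ∀ b ∈ A, a * b = b * a
  max : ∀ x : H →L[ℂ] H, (∀ a ∈ A, a * x = x * a) → x ∈ A

variable {A : VonNeumannAlgebra H}

lemma smul_mem' (c : ℂ) {a : H →L[ℂ] H} (ha : a ∈ A) : c • a ∈ A :=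
  SMulMemClass.smul_mem (S := StarSubalgebra ℂ (H →L[ℂ] H)) (s := A.toStarSubalgebra) c ha

lemma Ctx.comm_apply (hA : Ctx A) {a b : H →L[ℂ] H} (ha : a ∈ A) (hb : b ∈ A) (ξ : H) :
    a (b ξ) = b (a ξ) := by
  have := congrArg (fun T : H →L[ℂ] H => T ξ) (hA.comm a ha b hb)
  simpa using this

lemma proj_mem (hA : Ctx A) (K : Submodule ℂ H) [K.HasOrthogonalProjection]
    (hK : ∀ a ∈ A, ∀ ξ ∈ K, a ξ ∈ K) : K.starProjection ∈ A := by
  rw [VonNeumannAlgebra.IsStarProjection.mem_iff isStarProjection_starProjection]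
  intro y hy
  have hyA : y ∈ A := hA.max y (fun a ha => (VonNeumannAlgebra.mem_commutant_iff.mp hy) a ha)
  rw [Submodule.range_starProjection, Module.End.mem_invtSubmodule_iff_forall_mem_of_mem]
  exact hK y hyA

/-- the orbit `A w` -/
def orbit (A : VonNeumannAlgebra H) (w : H) : Submodule ℂ H where
  carrier := {ξ | ∃ a ∈ A, a w = ξ}
  add_mem' := by
    rintro _ _ ⟨a, ha, rfl⟩ ⟨b, hb, rfl⟩
    exact ⟨a + b, add_mem ha hb, rfl⟩
  zero_mem' := ⟨0, zero_mem A, rfl⟩
  smul_mem' := by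
    rintro c _ ⟨a, ha, rfl⟩
    exact ⟨c • a, smul_mem' c ha, rfl⟩

/-- the cyclic subspace, closure of `A w` -/
def cyc (A : VonNeumannAlgebra H) (w : H) : Submodule ℂ H := (orbit A w).topologicalClosure

instance (w : H) : CompleteSpace (cyc A w) := by
  unfold cyc; infer_instance

lemma mem_orbit {a : H →L[ℂ] H} (ha : a ∈ A) (w : H) : a w ∈ orbit A w := ⟨a, ha, rfl⟩

lemma orbit_le_cyc (w : H) : orbit A w ≤ cyc A w := Submodule.le_topologicalClosure _

lemma self_mem_cyc (w : H) : w ∈ cyc A w := orbit_le_cyc w ⟨1, one_mem A, rfl⟩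

lemma cyc_invariant {a : H →L[ℂ] H} (ha : a ∈ A) {w ξ : H} (hξ : ξ ∈ cyc A w) :
    a ξ ∈ cyc A w := by
  have h1 : ξ ∈ closure (orbit A w : Set H) := hξ
  have : a ξ ∈ closure (orbit A w : Set H) := by
    refine map_mem_closure a.continuous h1 ?_
    rintro _ ⟨b, hb, rfl⟩
    exact ⟨a * b, mul_mem ha hb, rfl⟩
  exact this

/-- the cyclic projection -/
noncomputable def cycProj (A : VonNeumannAlgebra H) (w : H) : H →L[ℂ] H := (cyc A w).starProjection

lemma cycProj_mem (hA : Ctx A) (w : H) : cycProj A w ∈ A :=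
  proj_mem hA _ (fun _ ha _ hξ => cyc_invariant ha hξ)

lemma cycProj_proj (w : H) : IsStarProjection (cycProj A w) := isStarProjection_starProjection

lemma cycProj_self (w : H) : cycProj A w w = w :=
  Submodule.starProjection_eq_self_iff.mpr (self_mem_cyc w)

lemma cycProj_apply_mem (w ξ : H) : cycProj A w ξ ∈ cyc A w :=
  Submodule.starProjection_apply_mem _ _

lemma mul_cycProj_eq_zero (hA : Ctx A) {g : H →L[ℂ] H} (hg : g ∈ A) {w : H} (hgw : g w = 0) :
    g * cycProj A w = 0 := by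
  ext ξ
  have h1 : cycProj A w ξ ∈ closure (orbit A w : Set H) := cycProj_apply_mem w ξ
  have hcl : IsClosed {ζ : H | g ζ = 0} := isClosed_eq g.continuous continuous_const
  have hsub : (orbit A w : Set H) ⊆ {ζ : H | g ζ = 0} := by
    rintro _ ⟨a, ha, rfl⟩
    show g (a w) = 0
    rw [hA.comm_apply hg ha, hgw, map_zero]
  exact (closure_minimal hsub hcl) h1

lemma exists_small (hd : IsDiffuse A) (w : H) {h : H →L[ℂ] H} (hh : h ∈ A)
    (hp : IsStarProjection h) (h0 : h ≠ 0) (n : ℕ) :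
    ∃ g ∈ A, IsStarProjection g ∧ g * h = g ∧ g ≠ 0 ∧ ‖g w‖ ^ 2 ≤ ‖w‖ ^ 2 / 2 ^ n := by
  induction n with
  | zero =>
    refine ⟨h, hh, hp, hp.isIdempotentElem.eq, h0, ?_⟩
    have := proj_norm_le hp w
    simp only [pow_zero, div_one]
    gcongr
  | succ n ih =>
    obtain ⟨g, hg, hgp, hgh, hg0, hgw⟩ := ih
    obtain ⟨g', hg', hgp', hgg, hg0', hne⟩ := hd g hg hgp hg0
    have hsubp : IsStarProjection (g - g') := hgp'.sub_of_mul_eq_left hgp hgg
    have hortho : g' * (g - g') = 0 := by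
      rw [mul_sub, hgg, hgp'.isIdempotentElem.eq, sub_self]
    have hsplit : ‖g w‖ ^ 2 = ‖g' w‖ ^ 2 + ‖(g - g') w‖ ^ 2 := by
      have := norm_sq_add_of_ortho hgp' hortho w
      rwa [add_sub_cancel] at this
    have hg'h : g' * h = g' := by
      calc g' * h = g' * g * h := by rw [hgg]
        _ = g' * (g * h) := mul_assoc _ _ _
        _ = g' := by rw [hgh, hgg]
    have hpow : ‖w‖ ^ 2 / 2 ^ (n + 1) = ‖w‖ ^ 2 / 2 ^ n / 2 := by
      rw [pow_succ (2 : ℝ) n, div_div]
    by_cases hcase : ‖g' w‖ ^ 2 ≤ ‖(g - g') w‖ ^ 2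
    · refine ⟨g', hg', hgp', hg'h, hg0', ?_⟩
      rw [hpow]; linarith
    · refine ⟨g - g', sub_mem hg hg', hsubp, ?_, sub_ne_zero.mpr (Ne.symm hne), ?_⟩
      · rw [sub_mul, hgh, hg'h]
      · rw [hpow]; linarith

/-- `E` splits into finitely many projections of `A`, each small on `w` -/
def Good (A : VonNeumannAlgebra H) (w : H) (η : ℝ) (E : H →L[ℂ] H) : Prop :=
  ∃ (τ : Type) (_ : Fintype τ) (g : τ → H →L[ℂ] H), Part A g E ∧ ∀ t, ‖g t w‖ ^ 2 ≤ η

namespace Good

variable {w : H} {η : ℝ} {E E' : H →L[ℂ] H}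

lemma mem (h : Good A w η E) : E ∈ A := by
  obtain ⟨τ, _, g, hg, _⟩ := h
  exact hg.total_mem

lemma proj (h : Good A w η E) : IsStarProjection E := by
  obtain ⟨τ, _, g, hg, _⟩ := h
  exact hg.total_proj

lemma small (hE : E ∈ A) (hp : IsStarProjection E) (hs : ‖E w‖ ^ 2 ≤ η) : Good A w η E :=
  ⟨Unit, inferInstance, fun _ => E, Part.single hE hp, fun _ => hs⟩

lemma add (h : Good A w η E) (h' : Good A w η E') (hEE : E * E' = 0) : Good A w η (E + E') := by
  obtain ⟨τ, _, g, hg, hs⟩ := h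
  obtain ⟨τ', _, g', hg', hs'⟩ := h'
  refine ⟨τ ⊕ τ', inferInstance, Sum.elim g g', hg.sumElim hg' hEE, ?_⟩
  rintro (t | t)
  · exact hs t
  · exact hs' t

lemma mul (hA : Ctx A) (h : Good A w η E) {f : H →L[ℂ] H} (hf : f ∈ A)
    (hfp : IsStarProjection f) : Good A w η (E * f) := by
  obtain ⟨τ, _, g, hg, hs⟩ := h
  refine ⟨τ, inferInstance, fun t => g t * f, hg.mulRight hA.comm hf hfp, fun t => ?_⟩
  have h1 : (g t * f) w = f (g t w) := by
    rw [mul_apply_eq_comp, hA.comm_apply (hg.mem t) hf]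
  rw [h1]
  have := proj_norm_le hfp (g t w)
  calc ‖f (g t w)‖ ^ 2 ≤ ‖g t w‖ ^ 2 := by gcongr
    _ ≤ η := hs t

end Good

lemma good_sup (hA : Ctx A) {w : H} {η : ℝ} {E E' : H →L[ℂ] H} (h : Good A w η E)
    (h' : Good A w η E') : Good A w η (E + E' * (1 - E)) := by
  refine h.add (h'.mul hA (sub_mem (one_mem A) h.mem) h.proj.one_sub) ?_
  calc E * (E' * (1 - E)) = (E * E') * (1 - E) := (mul_assoc _ _ _).symm
    _ = (E' * E) * (1 - E) := by rw [hA.comm _ h.mem _ h'.mem]
    _ = E' * (E * (1 - E)) := mul_assoc _ _ _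
    _ = 0 := by rw [h.proj.mul_one_sub_self, mul_zero]

/-- the family of ranges of good projections -/
def goodRange (A : VonNeumannAlgebra H) (w : H) (η : ℝ) :
    {E : H →L[ℂ] H // Good A w η E} → Submodule ℂ H := fun E => E.1.range

lemma mem_range_iff {E : H →L[ℂ] H} (hp : IsStarProjection E) {ξ : H} :
    ξ ∈ E.range ↔ E ξ = ξ := by
  constructor
  · rintro ⟨ζ, rfl⟩
    exact proj_apply_apply hp ζ
  · intro h
    exact ⟨ξ, h⟩

lemma goodRange_directed (hA : Ctx A) (w : H) (η : ℝ) :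
    Directed (· ≤ ·) (goodRange A w η) := by
  rintro ⟨E, hE⟩ ⟨E', hE'⟩
  refine ⟨⟨E + E' * (1 - E), good_sup hA hE hE'⟩, ?_, ?_⟩
  · intro ξ hξ
    have h1 : E ξ = ξ := (mem_range_iff hE.proj).mp hξ
    refine (mem_range_iff (good_sup hA hE hE').proj).mpr ?_
    simp only [add_apply, mul_apply_eq_comp, sub_apply, one_apply_eq_self, h1, sub_self, map_zero,
      add_zero]
  · intro ξ hξ
    have h1 : E' ξ = ξ := (mem_range_iff hE'.proj).mp hξ
    refine (mem_range_iff (good_sup hA hE hE').proj).mpr ?_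
    simp only [add_apply, mul_apply_eq_comp, sub_apply, one_apply_eq_self, map_sub, h1]
    rw [hA.comm_apply hE'.mem hE.mem, h1]
    abel

theorem exists_fine (hA : Ctx A) (hd : IsDiffuse A) (w : H) {η : ℝ} (hη : 0 < η) :
    Good A w η 1 := by
  have hzero : Good A w η 0 := Good.small (zero_mem A) (IsStarProjection.zero _) (by simpa using hη.le)
  haveI : Nonempty {E : H →L[ℂ] H // Good A w η E} := ⟨⟨0, hzero⟩⟩
  set K : Submodule ℂ H := (⨆ E, goodRange A w η E).topologicalClosure with hK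
  haveI : CompleteSpace K := by rw [hK]; infer_instance
  have hdir := goodRange_directed hA w η
  have hinv : ∀ a ∈ A, ∀ ξ ∈ K, a ξ ∈ K := by
    intro a ha ξ hξ
    have h1 : ξ ∈ closure ((⨆ E, goodRange A w η E : Submodule ℂ H) : Set H) := hξ
    have : a ξ ∈ closure ((⨆ E, goodRange A w η E : Submodule ℂ H) : Set H) := by
      refine map_mem_closure a.continuous h1 ?_
      intro ζ hζ
      obtain ⟨E, hE⟩ := (Submodule.mem_iSup_of_directed _ hdir).mp hζ
      refine (Submodule.mem_iSup_of_directed _ hdir).mpr ⟨E, ?_⟩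
      have h2 : E.1 ζ = ζ := (mem_range_iff E.2.proj).mp hE
      refine (mem_range_iff E.2.proj).mpr ?_
      rw [hA.comm_apply E.2.mem ha, h2]
    exact this
  set P : H →L[ℂ] H := K.starProjection with hP
  have hPmem : P ∈ A := proj_mem hA K hinv
  have hPp : IsStarProjection P := isStarProjection_starProjection
  set c := cycProj A w with hc
  have hcmem : c ∈ A := cycProj_mem hA w
  have hcp : IsStarProjection c := cycProj_proj w
  -- first step
  have hstep1 : (1 - P) * c = 0 := by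
    by_contra hne
    have hhmem : (1 - P) * c ∈ A := mul_mem (sub_mem (one_mem A) hPmem) hcmem
    have hhp : IsStarProjection ((1 - P) * c) :=
      hPp.one_sub.mul hcp (hA.comm _ (sub_mem (one_mem A) hPmem) _ hcmem)
    obtain ⟨n, hn⟩ : ∃ n : ℕ, ‖w‖ ^ 2 / 2 ^ n ≤ η := by
      obtain ⟨n, hn⟩ := exists_nat_gt (‖w‖ ^ 2 / η)
      refine ⟨n, ?_⟩
      have h2 : (n : ℝ) < 2 ^ n := by exact_mod_cast Nat.lt_two_pow_self
      rw [div_le_iff₀ (by positivity)]
      rw [div_lt_iff₀ hη] at hn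
      nlinarith
    obtain ⟨g, hg, hgp, hgh, hg0, hgw⟩ := exists_small hd w hhmem hhp hne n
    have hgood : Good A w η g := Good.small hg hgp (hgw.trans hn)
    have hPg : P * g = g := by
      ext ζ
      have : g ζ ∈ K := by
        refine Submodule.le_topologicalClosure _ ?_
        exact Submodule.mem_iSup_of_mem ⟨g, hgood⟩ ⟨ζ, rfl⟩
      exact Submodule.starProjection_eq_self_iff.mpr this
    apply hg0
    calc g = P * g := hPg.symm
      _ = P * (g * ((1 - P) * c)) := by rw [hgh]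
      _ = (P * g) * (1 - P) * c := by simp only [mul_assoc]
      _ = (g * P) * (1 - P) * c := by rw [hA.comm _ hPmem _ hg]
      _ = g * (P * (1 - P)) * c := by simp only [mul_assoc]
      _ = 0 := by rw [hPp.mul_one_sub_self]; simp
  have hwK : w ∈ K := by
    have h1 : (1 - P) w = 0 := by
      have := congrArg (fun T : H →L[ℂ] H => T w) hstep1
      simp only [mul_apply_eq_comp, zero_apply] at this
      rwa [hc, cycProj_self] at this
    have h2 : P w = w := by
      simp only [sub_apply, one_apply_eq_self] at h1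
      exact (sub_eq_zero.mp h1).symm
    exact Submodule.starProjection_eq_self_iff.mp h2
  have hwcl : w ∈ closure ((⨆ E, goodRange A w η E : Submodule ℂ H) : Set H) := hwK
  obtain ⟨v, hv, hdist⟩ := Metric.mem_closure_iff.mp hwcl (Real.sqrt η) (Real.sqrt_pos.mpr hη)
  obtain ⟨E, hE⟩ := (Submodule.mem_iSup_of_directed _ hdir).mp hv
  have hEv : E.1 v = v := (mem_range_iff E.2.proj).mp hE
  have hsmall : ‖(1 - E.1) w‖ ^ 2 ≤ η := by
    have h1 : (1 - E.1) w = (1 - E.1) (w - v) := by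
      simp only [sub_apply, one_apply_eq_self, map_sub, hEv]
      abel
    have h2 : ‖(1 - E.1) w‖ ≤ ‖w - v‖ := by
      rw [h1]; exact proj_norm_le E.2.proj.one_sub _
    have h3 : ‖w - v‖ < Real.sqrt η := by rwa [dist_eq_norm] at hdist
    calc ‖(1 - E.1) w‖ ^ 2 ≤ (Real.sqrt η) ^ 2 := by
          gcongr
          exact h2.trans h3.le
      _ = η := Real.sq_sqrt hη.le
  have hfin := E.2.add (Good.small (sub_mem (one_mem A) E.2.mem) E.2.proj.one_sub hsmall)
    E.2.proj.mul_one_sub_self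
  rwa [add_sub_cancel] at hfin

end Vale.Agent.P078
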