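import Vale.Agent.P078.UpperGen

namespace Vale.Agent.P078

open scoped InnerProductSpace
open InnerProductSpace

variable {H : Type*} [NormedAddCommGroup H] [InnerProductSpace ℂ H] [CompleteSpace H]
variable {A M : VonNeumannAlgebra H}

lemma Comm.apply (hc : Comm A) {a b : H →L[ℂ] H} (ha : a ∈ A) (hb : b ∈ A) (ξ : H) :
    a (b ξ) = b (a ξ) := by
  have := congrArg (fun T : H →L[ℂ] H => T ξ) (hc a ha b hb)
  simpa using this

/-- if `M` has a nonzero sufficiently thin projection, then `r` pieces do not pave all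
self-adjoint elements with an error `ε < 1/r` -/
theorem lower_local [Nontrivial H] (hA : IsMASA A M) {r : ℕ}
    (hr : 0 < r) {ε : ℝ} (hε : ε < 1 / (r : ℝ)) {e0 : H →L[ℂ] H} (G : FP A) (he0M : e0 ∈ M)
    (he0p : IsStarProjection e0) (he0 : e0 ≠ 0)
    (hGη : ∀ j, ‖G.g j * e0‖ ≤ min 1 ((1 / r - ε) / 4)) :
    ∃ x ∈ M, IsSelfAdjoint x ∧ ¬ SoPavable A M x ε r := by
  classical
  have hc : Comm A := hA.comm
  have hrpos : (0 : ℝ) < r := by exact_mod_cast hr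
  set D : ℝ := 1 / r - ε with hD
  have hDpos : 0 < D := sub_pos.mpr hε
  set η : ℝ := min 1 (D / 4) with hη
  have hηpos : 0 < η := lt_min one_pos (by positivity)
  have hηsq : η ^ 2 ≤ D / 4 := by
    have h1 : η ≤ 1 := min_le_left _ _
    have h2 : η ≤ D / 4 := min_le_right _ _
    nlinarith
  obtain ⟨y, hy'⟩ : ∃ y, e0 y ≠ 0 := by
    by_contra hcon
    push Not at hcon
    exact he0 (ContinuousLinearMap.ext fun v => by simpa using hcon v)
  set ξ0 : H := ((‖e0 y‖⁻¹ : ℝ) : ℂ) • e0 y with hξ0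
  have hnorm : ‖ξ0‖ = 1 := by
    have : ‖e0 y‖ ≠ 0 := norm_ne_zero_iff.mpr hy'
    simp only [hξ0, norm_smul, Complex.norm_real, norm_inv, norm_norm]
    field_simp
  have hfix : e0 ξ0 = ξ0 := by
    rw [hξ0, map_smul, proj_apply_apply he0p]
  set g := G.g with hgdef
  have hg : Part A g 1 := G.part
  set x : H →L[ℂ] H := 2 * e0 - 1 with hx
  have hxM : x ∈ M := by
    have h2 : (2 : H →L[ℂ] H) ∈ M := by
      rw [← one_add_one_eq_two]; exact add_mem (one_mem M) (one_mem M)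
    exact sub_mem (mul_mem h2 he0M) (one_mem M)
  have hxu : x ∈ unitary (H →L[ℂ] H) := he0p.two_mul_sub_one_mem_unitary
  have hxnorm : ‖x‖ = 1 := CStarRing.norm_of_mem_unitary hxu
  have hxsa : IsSelfAdjoint x := by
    show star x = x
    rw [hx, star_sub, star_mul, star_one, he0p.isSelfAdjoint.star_eq]
    have : star (2 : H →L[ℂ] H) = 2 := by
      rw [← one_add_one_eq_two, star_add, star_one]
    rw [this, two_mul, mul_two]
  refine ⟨x, hxM, hxsa, fun hpav => ?_⟩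
  set n : ℝ := (G.n : ℝ) with hn
  set δ : ℝ := D / (8 * (n + 1)) with hδ
  have hδpos : 0 < δ := by positivity
  obtain ⟨p, a, q, hp, ha, hasa, hale, -, hqp, hqF, hqT⟩ :=
    hpav (Finset.univ.image (fun t => g t ξ0) ∪ {ξ0}) δ hδpos
  have hpP : Part A p 1 := hp.toPart
  rw [hxnorm] at hale
  rw [hxnorm, mul_one] at hqT
  set T : H →L[ℂ] H := pinching p x - a with hT
  have hTnorm : ‖T‖ ≤ 2 := by
    calc ‖T‖ ≤ ‖pinching p x‖ + ‖a‖ := norm_sub_le _ _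
      _ ≤ 1 + 1 := add_le_add ((pinching_norm_le hpP x).trans hxnorm.le) hale
      _ = 2 := by norm_num
  -- the quadratic form of `T`
  have hform : ∀ ζ : H, (⟪ζ, T ζ⟫_ℂ).re
      = 2 * ∑ i, ‖e0 (p i ζ)‖ ^ 2 - (‖ζ‖ ^ 2 + (⟪ζ, a ζ⟫_ℂ).re) := by
    intro ζ
    have e1 : ∀ v : H, (⟪v, x v⟫_ℂ).re = 2 * ‖e0 v‖ ^ 2 - ‖v‖ ^ 2 := by
      intro v
      have : x v = (2 : ℂ) • e0 v - v := by
        simp only [hx, sub_apply, mul_apply_eq_comp, one_apply_eq_self]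
        congr 1
        have : (2 : H →L[ℂ] H) = (2 : ℂ) • (1 : H →L[ℂ] H) := by
          rw [two_smul, one_add_one_eq_two]
        rw [this]
        rfl
      rw [this, inner_sub_right, inner_smul_right, inner_self_eq_norm_sq_to_K,
        proj_inner_self he0p]
      have h3 : ((‖v‖ : ℂ) ^ 2) = ((‖v‖ ^ 2 : ℝ) : ℂ) := by push_cast; rfl
      erw [h3]
      simp only [Complex.sub_re, Complex.mul_re, Complex.re_ofNat, Complex.im_ofNat,
        Complex.ofReal_re, Complex.ofReal_im]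
      ring
    rw [hT, sub_apply, inner_sub_right, Complex.sub_re, inner_pinching hpP.proj, Complex.re_sum,
      Finset.sum_congr rfl (fun i _ => e1 (p i ζ)), Finset.sum_sub_distrib, ← Finset.mul_sum,
      hpP.norm_sq ζ, one_apply_eq_self]
    ring
  have hK : ∀ ζ ∈ (Finset.univ.image (fun t => g t ξ0) ∪ {ξ0}), ‖ζ‖ ≤ 1 →
      ‖⟪ζ, T ζ⟫_ℂ‖ ≤ ε * ‖ζ‖ ^ 2 + 4 * δ := by
    intro ζ hζ hζ1
    have := form_le_of_compress hqp hTnorm hqT hζ1 (hqF ζ hζ)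
    linarith
  set φ : H → ℝ := fun ζ => ‖ζ‖ ^ 2 + (⟪ζ, a ζ⟫_ℂ).re with hφ
  -- the small pieces
  have hpiece : ∀ t, φ (g t ξ0) ≤ (D / 2 + ε) * ‖g t ξ0‖ ^ 2 + 4 * δ := by
    intro t
    have hmem : g t ξ0 ∈ (Finset.univ.image (fun t => g t ξ0) ∪ {ξ0}) :=
      Finset.mem_union_left _ (Finset.mem_image_of_mem _ (Finset.mem_univ t))
    have hle1 : ‖g t ξ0‖ ≤ 1 := (proj_norm_le (hg.proj t) ξ0).trans hnorm.le
    have h1 := hK _ hmem hle1
    have h2 := hform (g t ξ0)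
    have h3 : -‖⟪g t ξ0, T (g t ξ0)⟫_ℂ‖ ≤ (⟪g t ξ0, T (g t ξ0)⟫_ℂ).re :=
      (abs_le.mp (Complex.abs_re_le_norm _)).1
    have h4 : ∑ i, ‖e0 (p i (g t ξ0))‖ ^ 2 ≤ D / 4 * ‖g t ξ0‖ ^ 2 := by
      have e1 := hpP.norm_sq (g t ξ0)
      rw [one_apply_eq_self] at e1
      rw [← e1, Finset.mul_sum]
      refine Finset.sum_le_sum fun i _ => ?_
      set w := p i (g t ξ0) with hw
      have e2 : g t w = w := by
        rw [hw, hc.apply (hg.mem t) (hpP.mem i), proj_apply_apply (hg.proj t)]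
      have e3 : ‖e0 w‖ ≤ η * ‖w‖ := by
        calc ‖e0 w‖ = ‖(e0 * g t) w‖ := by rw [mul_apply_eq_comp, e2]
          _ ≤ ‖e0 * g t‖ * ‖w‖ := ContinuousLinearMap.le_opNorm _ _
          _ ≤ η * ‖w‖ := by
              gcongr
              rw [norm_star_mul_proj (hg.proj t) he0p]
              exact hGη t
      calc ‖e0 w‖ ^ 2 ≤ (η * ‖w‖) ^ 2 := by gcongr
        _ = η ^ 2 * ‖w‖ ^ 2 := by ring
        _ ≤ D / 4 * ‖w‖ ^ 2 := by gcongr
    simp only [hφ]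
    nlinarith
  have hφsum : ∑ t, φ (g t ξ0) = φ ξ0 := by
    simp only [hφ]
    rw [Finset.sum_add_distrib, hg.norm_sq ξ0, one_apply_eq_self, ← Complex.re_sum]
    congr 2
    calc ∑ t, ⟪g t ξ0, a (g t ξ0)⟫_ℂ = ∑ t, ⟪ξ0, g t (a ξ0)⟫_ℂ := by
          refine Finset.sum_congr rfl fun t _ => ?_
          rw [hc.apply ha (hg.mem t), proj_inner_both (hg.proj t)]
      _ = ⟪ξ0, a ξ0⟫_ℂ := by
          rw [← inner_sum, hg.sum_apply, one_apply_eq_self]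
  have hφle : φ ξ0 ≤ D / 2 + ε + 4 * δ * n := by
    rw [← hφsum]
    calc ∑ t, φ (g t ξ0) ≤ ∑ t, ((D / 2 + ε) * ‖g t ξ0‖ ^ 2 + 4 * δ) :=
          Finset.sum_le_sum fun t _ => hpiece t
      _ = (D / 2 + ε) * ‖ξ0‖ ^ 2 + 4 * δ * n := by
          rw [Finset.sum_add_distrib, ← Finset.mul_sum, hg.norm_sq ξ0, one_apply_eq_self]
          simp only [Finset.sum_const, Finset.card_univ, nsmul_eq_mul, Fintype.card_fin]
          rw [hn]; ring
      _ = D / 2 + ε + 4 * δ * n := by rw [hnorm]; ring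
  have hbig : 1 / (r : ℝ) ≤ ∑ i, ‖e0 (p i ξ0)‖ ^ 2 := by
    have e1 := hpP.norm_sq ξ0
    rw [one_apply_eq_self, hnorm] at e1
    have e2 : ∀ i, ‖p i ξ0‖ ^ 2 ≤ ‖e0 (p i ξ0)‖ := by
      intro i
      have h1 : ⟪ξ0, e0 (p i ξ0)⟫_ℂ = ((‖p i ξ0‖ ^ 2 : ℝ) : ℂ) := by
        rw [← proj_inner he0p, hfix, proj_inner_self (hpP.proj i)]
      have h2 : ‖⟪ξ0, e0 (p i ξ0)⟫_ℂ‖ ≤ ‖ξ0‖ * ‖e0 (p i ξ0)‖ := norm_inner_le_norm _ _
      rw [h1, hnorm, one_mul, Complex.norm_real, Real.norm_eq_abs,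
        abs_of_nonneg (by positivity)] at h2
      exact h2
    have e3 := sq_sum_le_card_mul_sum_sq (s := (Finset.univ : Finset (Fin r)))
      (f := fun i => ‖p i ξ0‖ ^ 2)
    rw [e1] at e3
    simp only [Finset.card_univ, Fintype.card_fin] at e3
    have e4 : ∑ i, (‖p i ξ0‖ ^ 2) ^ 2 ≤ ∑ i, ‖e0 (p i ξ0)‖ ^ 2 := by
      refine Finset.sum_le_sum fun i _ => ?_
      have := e2 i
      gcongr
    rw [div_le_iff₀ hrpos]
    nlinarith
  have hmem0 : ξ0 ∈ (Finset.univ.image (fun t => g t ξ0) ∪ {ξ0}) :=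
    Finset.mem_union_right _ (Finset.mem_singleton_self ξ0)
  have h1 := hK ξ0 hmem0 hnorm.le
  have h2 := hform ξ0
  have h3 : (⟪ξ0, T ξ0⟫_ℂ).re ≤ ‖⟪ξ0, T ξ0⟫_ℂ‖ := Complex.re_le_norm _
  rw [hnorm] at h1
  have h4 : 4 * δ * (n + 1) = D / 2 := by
    have hn1 : n + 1 ≠ 0 := by positivity
    rw [hδ]; field_simp; ring
  have h5 : φ ξ0 = ‖ξ0‖ ^ 2 + (⟪ξ0, a ξ0⟫_ℂ).re := rfl
  have h6 : 1 / (r : ℝ) = D + ε := by rw [hD]; ring
  nlinarith

/-- over a thin MASA, `r` pieces never pave all self-adjoint elements with an error `ε < 1/r` -/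
theorem lower_gen [Nontrivial H] (hA : IsMASA A M) (hthin : Thin A M) {r : ℕ}
    (hr : 0 < r) {ε : ℝ} (hε : ε < 1 / (r : ℝ)) :
    ∃ x ∈ M, IsSelfAdjoint x ∧ ¬ SoPavable A M x ε r := by
  have hDpos : 0 < 1 / (r : ℝ) - ε := sub_pos.mpr hε
  obtain ⟨y, hy⟩ := exists_ne (0 : H)
  obtain ⟨e0, G, he0M, he0p, he0F, hGη⟩ := hthin {y} (‖y‖) (min 1 ((1 / r - ε) / 4))
    (norm_pos_iff.mpr hy) (lt_min one_pos (by positivity))
  refine lower_local hA hr hε G he0M he0p (fun h0 => ?_) hGη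
  have := he0F y (Finset.mem_singleton_self y)
  rw [h0, sub_zero, one_apply_eq_self] at this
  exact lt_irrefl _ this

end Vale.Agent.P078
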