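import Vale.Agent.P078.Corner
import Vale.Agent.P078.LowerGen

namespace Vale.Agent.P078

open scoped InnerProductSpace

variable {H : Type*} [NormedAddCommGroup H] [InnerProductSpace ℂ H] [CompleteSpace H]
variable {A M : VonNeumannAlgebra H}

/-- paving in a thin corner -/
theorem corner_upper (hA : IsMASA A M) {e : H →L[ℂ] H} (heA : e ∈ A) (he : IsStarProjection e)
    (hthin : ThinAt A M e) {x : H →L[ℂ] H} (hxM : x ∈ M) (hx : IsSelfAdjoint x)
    (hxe : e * x * e = x) {s : ℕ} (hs : 1 ≤ s) {ε : ℝ} (hε : 1 / (s : ℝ) < ε) :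
    SoPavableIn A M e x ε s := by
  classical
  intro F δ hδ
  have hc : Comm A := hA.comm
  have hee : e * e = e := he.isIdempotentElem.eq
  have hF' : ∀ ξ ∈ F.image e, e ξ = ξ := by
    intro ξ hξ
    obtain ⟨ζ, _, rfl⟩ := Finset.mem_image.mp hξ
    exact proj_apply_apply he ζ
  obtain ⟨η, hηpos, hloc⟩ := upper_local hA hxM hx hs hε (F.image e) (δ := δ / 2) (by positivity)
  obtain ⟨q, P, hqM, hq, heq, hqF, hPη⟩ := hthin (F.image e) (δ / 2) η hF' (by positivity) hηpos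
  obtain ⟨p, a, q2, hp, haA, hasa, han, hq2M, hq2, hqq2, hq2F, hnorm⟩ := hloc q P hqM hq hPη
  have heq2 : e * q2 = q2 := by rw [← hqq2, ← mul_assoc, heq]
  have hq2e : q2 * e = q2 := mul_eq_symm he hq2 heq2
  have hpe : ∀ i, e * p i = p i * e := fun i => hc _ heA _ (hp.mem i)
  refine ⟨fun i => p i * e, e * a, q2, fun i => mul_mem (hp.mem i) heA,
    fun i => (hp.proj i).mul he (hpe i).symm, ?_, ?_, mul_mem heA haA,
    by rw [← mul_assoc, hee], ?_, ?_, hq2M, hq2, heq2, ?_, ?_⟩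
  · intro i j hij
    calc p i * e * (p j * e) = p i * (e * p j) * e := by simp only [mul_assoc]
      _ = p i * p j * (e * e) := by rw [hpe j]; simp only [mul_assoc]
      _ = 0 := by rw [hp.ortho i j hij, zero_mul]
  · rw [← Finset.sum_mul, hp.sum_eq, one_mul]
  · show star (e * a) = e * a
    rw [star_mul, hasa.star_eq, he.isSelfAdjoint.star_eq, hc _ haA _ heA]
  · calc ‖e * a‖ ≤ ‖e‖ * ‖a‖ := norm_mul_le _ _
      _ ≤ 1 * ‖a‖ := by gcongr; exact he.norm_le
      _ = ‖a‖ := one_mul _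
      _ ≤ ‖x‖ := han
  · intro ξ hξ
    have hmem : e ξ ∈ F.image e := Finset.mem_image_of_mem _ hξ
    have e1 : (e - q2) ξ = (1 - q) (e ξ) + (q - q2) (e ξ) := by
      have : q2 ξ = q2 (e ξ) := by
        rw [← mul_apply_eq_comp, hq2e]
      simp only [sub_apply, one_apply_eq_self]
      rw [this]
      abel
    rw [e1]
    calc ‖(1 - q) (e ξ) + (q - q2) (e ξ)‖ ≤ ‖(1 - q) (e ξ)‖ + ‖(q - q2) (e ξ)‖ := norm_add_le _ _
      _ < δ / 2 + δ / 2 := add_lt_add_of_lt_of_le (hqF _ hmem) (hq2F _ hmem)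
      _ = δ := by ring
  · have e1 : pinching (fun i => p i * e) x = pinching p x := by
      unfold pinching
      refine Finset.sum_congr rfl fun i _ => ?_
      calc p i * e * x * (p i * e) = p i * e * x * (e * p i) := by rw [hpe i]
        _ = p i * (e * x * e) * p i := by simp only [mul_assoc]
        _ = p i * x * p i := by rw [hxe]
    have e2 : q2 * (pinching p x - e * a) * q2 = q2 * (pinching p x - a) * q2 := by
      rw [mul_sub, mul_sub, ← mul_assoc, hq2e]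
    rw [e1, e2]
    exact hnorm

lemma norm_conj_proj_le {z : H →L[ℂ] H} (hz : IsStarProjection z) (x : H →L[ℂ] H) :
    ‖z * x * z‖ ≤ ‖x‖ := by
  calc ‖z * x * z‖ ≤ ‖z * x‖ * ‖z‖ := norm_mul_le _ _
    _ ≤ (‖z‖ * ‖x‖) * ‖z‖ := by gcongr; exact norm_mul_le _ _
    _ ≤ (1 * ‖x‖) * 1 := by
        gcongr
        · exact hz.norm_le
        · exact hz.norm_le
    _ = ‖x‖ := by ring

/-- the norm of a block diagonal operator -/
lemma norm_add_block {z T1 T2 : H →L[ℂ] H} (hz : IsStarProjection z) (h1 : z * T1 * z = T1)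
    (h2 : (1 - z) * T2 * (1 - z) = T2) {C : ℝ} (hC : 0 ≤ C) (b1 : ‖T1‖ ≤ C) (b2 : ‖T2‖ ≤ C) :
    ‖T1 + T2‖ ≤ C := by
  have hzz : z * (1 - z) = 0 := by rw [mul_sub, mul_one, hz.isIdempotentElem.eq, sub_self]
  have pyth : ∀ v w : H, ‖z v + (1 - z) w‖ ^ 2 = ‖z v‖ ^ 2 + ‖(1 - z) w‖ ^ 2 := by
    intro v w
    have := norm_add_sq_eq_norm_sq_add_norm_sq_of_inner_eq_zero (z v) ((1 - z) w)
      (ortho_inner hz hzz v w)
    simpa [sq] using this
  refine ContinuousLinearMap.opNorm_le_bound _ hC fun ξ => ?_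
  have e1 : (T1 + T2) ξ = z (T1 (z ξ)) + (1 - z) (T2 ((1 - z) ξ)) := by
    nth_rewrite 1 [← h1, ← h2]
    rfl
  have e2 : ‖ξ‖ ^ 2 = ‖z ξ‖ ^ 2 + ‖(1 - z) ξ‖ ^ 2 := by
    rw [← pyth]
    congr 2
    simp
  have e3 : ‖(T1 + T2) ξ‖ ^ 2 ≤ (C * ‖ξ‖) ^ 2 := by
    rw [e1, pyth, mul_pow, e2, mul_add, ← mul_pow, ← mul_pow]
    have c1 : ‖z (T1 (z ξ))‖ ≤ C * ‖z ξ‖ :=
      (proj_norm_le hz _).trans ((T1.le_opNorm _).trans (by gcongr))
    have c2 : ‖(1 - z) (T2 ((1 - z) ξ))‖ ≤ C * ‖(1 - z) ξ‖ :=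
      (proj_norm_le hz.one_sub _).trans ((T2.le_opNorm _).trans (by gcongr))
    gcongr
  exact abs_le_of_sq_le_sq' e3 (by positivity) |>.2

/-- gluing pavings of two complementary corners -/
theorem glue_paving {z : H →L[ℂ] H} (hz : IsStarProjection z)
    {x : H →L[ℂ] H} {ε : ℝ} (hε : 0 ≤ ε) {r s : ℕ}
    (h1 : SoPavableIn A M z (z * x * z) ε r)
    (h2 : SoPavableIn A M (1 - z) ((1 - z) * x * (1 - z)) ε s) : SoPavable A M x ε (r + s) := by
  classical
  intro F δ hδ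
  obtain ⟨p1, a1, q1, m1, pr1, o1, s1, ha1, hza1, hsa1, hn1, hq1M, hq1, hzq1, hF1, hb1⟩ :=
    h1 F (δ / 2) (by positivity)
  obtain ⟨p2, a2, q2, m2, pr2, o2, s2, ha2, hza2, hsa2, hn2, hq2M, hq2, hzq2, hF2, hb2⟩ :=
    h2 F (δ / 2) (by positivity)
  have hP1 : Part A p1 z := ⟨m1, pr1, o1, s1⟩
  have hP2 : Part A p2 (1 - z) := ⟨m2, pr2, o2, s2⟩
  have hz' : IsStarProjection (1 - z) := hz.one_sub
  have hzz : z * (1 - z) = 0 := by rw [mul_sub, mul_one, hz.isIdempotentElem.eq, sub_self]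
  have hzz' : (1 - z) * z = 0 := by rw [sub_mul, one_mul, hz.isIdempotentElem.eq, sub_self]
  have hPs := (hP1.sumElim hP2 hzz).reindex finSumFinEquiv.symm
  have hone : z + (1 - z) = 1 := by abel
  rw [hone] at hPs
  set p : Fin (r + s) → H →L[ℂ] H := fun k => Sum.elim p1 p2 (finSumFinEquiv.symm k) with hp
  set x1 : H →L[ℂ] H := z * x * z with hx1
  set x2 : H →L[ℂ] H := (1 - z) * x * (1 - z) with hx2
  have hpin : pinching p x = pinching p1 x1 + pinching p2 x2 := by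
    unfold pinching
    rw [hp, Equiv.sum_comp finSumFinEquiv.symm
      (fun t => Sum.elim p1 p2 t * x * Sum.elim p1 p2 t), Fintype.sum_sum_type]
    congr 1
    · refine Finset.sum_congr rfl fun i _ => ?_
      simp only [Sum.elim_inl]
      calc p1 i * x * p1 i = (p1 i * z) * x * (z * p1 i) := by
            rw [hP1.mul_total, hP1.total_mul]
        _ = p1 i * x1 * p1 i := by rw [hx1]; simp only [mul_assoc]
    · refine Finset.sum_congr rfl fun i _ => ?_
      simp only [Sum.elim_inr]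
      calc p2 i * x * p2 i = (p2 i * (1 - z)) * x * ((1 - z) * p2 i) := by
            rw [hP2.mul_total, hP2.total_mul]
        _ = p2 i * x2 * p2 i := by rw [hx2]; simp only [mul_assoc]
  set B1 : H →L[ℂ] H := pinching p1 x1 - a1 with hB1
  set B2 : H →L[ℂ] H := pinching p2 x2 - a2 with hB2
  have ha1z : a1 * z = a1 := by
    have := congrArg star hza1
    rwa [star_mul, hsa1.star_eq, hz.isSelfAdjoint.star_eq] at this
  have ha2z : a2 * (1 - z) = a2 := by
    have := congrArg star hza2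
    rwa [star_mul, hsa2.star_eq, hz'.isSelfAdjoint.star_eq] at this
  have hzB1 : z * B1 = B1 := by
    rw [hB1, mul_sub, hza1]
    congr 1
    unfold pinching
    rw [Finset.mul_sum]
    refine Finset.sum_congr rfl fun i _ => ?_
    rw [← mul_assoc, ← mul_assoc, hP1.total_mul]
  have hB1z : B1 * z = B1 := by
    rw [hB1, sub_mul, ha1z]
    congr 1
    unfold pinching
    rw [Finset.sum_mul]
    refine Finset.sum_congr rfl fun i _ => ?_
    rw [mul_assoc, hP1.mul_total]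
  have hzB2 : (1 - z) * B2 = B2 := by
    rw [hB2, mul_sub, hza2]
    congr 1
    unfold pinching
    rw [Finset.mul_sum]
    refine Finset.sum_congr rfl fun i _ => ?_
    rw [← mul_assoc, ← mul_assoc, hP2.total_mul]
  have hB2z : B2 * (1 - z) = B2 := by
    rw [hB2, sub_mul, ha2z]
    congr 1
    unfold pinching
    rw [Finset.sum_mul]
    refine Finset.sum_congr rfl fun i _ => ?_
    rw [mul_assoc, hP2.mul_total]
  have hq1z : q1 * z = q1 := mul_eq_symm hz hq1 hzq1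
  have hq2z : q2 * (1 - z) = q2 := mul_eq_symm hz' hq2 hzq2
  have k1 : q2 * B1 = 0 := by rw [← hq2z, ← hzB1, mul_assoc, ← mul_assoc (1 - z), hzz', zero_mul,
    mul_zero]
  have k2 : B1 * q2 = 0 := by rw [← hzq2, ← hB1z, mul_assoc, ← mul_assoc z, hzz, zero_mul,
    mul_zero]
  have k3 : q1 * B2 = 0 := by rw [← hq1z, ← hzB2, mul_assoc, ← mul_assoc z, hzz, zero_mul,
    mul_zero]
  have k4 : B2 * q1 = 0 := by rw [← hzq1, ← hB2z, mul_assoc, ← mul_assoc (1 - z), hzz', zero_mul,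
    mul_zero]
  have hq12 : q1 * q2 = 0 := by rw [← hq1z, ← hzq2, mul_assoc, ← mul_assoc z, hzz, zero_mul,
    mul_zero]
  have hnx1 : ‖x1‖ ≤ ‖x‖ := norm_conj_proj_le hz x
  have hnx2 : ‖x2‖ ≤ ‖x‖ := norm_conj_proj_le hz' x
  refine ⟨p, a1 + a2, q1 + q2, hPs.toIsPartition, add_mem ha1 ha2, hsa1.add hsa2, ?_,
    add_mem hq1M hq2M, ?_, ?_, ?_⟩
  · exact norm_add_block hz (by rw [hza1, ha1z]) (by rw [hza2, ha2z]) (norm_nonneg x)
      (hn1.trans hnx1) (hn2.trans hnx2)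
  · exact hq1.add hq2 hq12
  · intro ξ hξ
    have e1 : (1 - (q1 + q2)) ξ = (z - q1) ξ + ((1 - z) - q2) ξ := by
      simp only [sub_apply, add_apply, one_apply_eq_self]
      abel
    rw [e1]
    calc ‖(z - q1) ξ + ((1 - z) - q2) ξ‖ ≤ ‖(z - q1) ξ‖ + ‖((1 - z) - q2) ξ‖ := norm_add_le _ _
      _ < δ / 2 + δ / 2 := add_lt_add (hF1 ξ hξ) (hF2 ξ hξ)
      _ = δ := by ring
  · have e1 : pinching p x - (a1 + a2) = B1 + B2 := by
      rw [hpin, hB1, hB2]; abel
    have e2 : (q1 + q2) * (B1 + B2) * (q1 + q2) = q1 * B1 * q1 + q2 * B2 * q2 := by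
      simp only [add_mul, mul_add, k1, k3, add_zero, zero_add]
      rw [mul_assoc q1 B1 q2, k2, mul_zero, mul_assoc q2 B2 q1, k4, mul_zero, add_zero, zero_add]
    rw [e1, e2]
    refine norm_add_block hz ?_ ?_ (by positivity) (hb1.trans (by gcongr)) (hb2.trans (by gcongr))
    · calc z * (q1 * B1 * q1) * z = (z * q1) * B1 * (q1 * z) := by simp only [mul_assoc]
        _ = _ := by rw [hzq1, hq1z]
    · calc (1 - z) * (q2 * B2 * q2) * (1 - z) = ((1 - z) * q2) * B2 * (q2 * (1 - z)) := by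
            simp only [mul_assoc]
        _ = _ := by rw [hzq2, hq2z]

end Vale.Agent.P078
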