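import Vale.Agent.P078.ThinNE

namespace Vale.Agent.P078

open scoped InnerProductSpace
open InnerProductSpace

variable {H : Type*} [NormedAddCommGroup H] [InnerProductSpace ℂ H] [CompleteSpace H]
variable {A M : VonNeumannAlgebra H}

lemma PositiveOn.mono {ψ : (H →L[ℂ] H) →ₗ[ℂ] ℂ} (h : PositiveOn M ψ) {y z : H →L[ℂ] H}
    (hy : y ∈ M) (hz : z ∈ M) (hyz : y ≤ z) : (ψ y).re ≤ (ψ z).re := by
  have := (h _ (sub_mem hz hy) (sub_nonneg.mpr hyz)).1
  rw [map_sub, Complex.sub_re] at this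
  linarith

/-- a positive functional vanishing at `1` vanishes -/
lemma PositiveOn.eq_zero {ψ : (H →L[ℂ] H) →ₗ[ℂ] ℂ} (h : PositiveOn M ψ) (h1 : ψ 1 = 0)
    {y : H →L[ℂ] H} (hy : y ∈ M) : ψ y = 0 := by
  have hsa : ∀ z ∈ M, IsSelfAdjoint z → ψ z = 0 := by
    intro z hz hzs
    have hcM : algebraMap ℝ (H →L[ℂ] H) ‖z‖ ∈ M := by
      rw [Algebra.algebraMap_eq_smul_one]
      exact smul_mem' ((‖z‖ : ℝ) : ℂ) (one_mem M)
    have hc0 : ψ (algebraMap ℝ (H →L[ℂ] H) ‖z‖) = 0 := by
      rw [Algebra.algebraMap_eq_smul_one]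
      have : (‖z‖ : ℝ) • (1 : H →L[ℂ] H) = ((‖z‖ : ℝ) : ℂ) • (1 : H →L[ℂ] H) := rfl
      rw [this, map_smul, h1, smul_zero]
    have a1 := h _ (sub_mem hcM hz) (sub_nonneg.mpr hzs.le_algebraMap_norm_self)
    have a2 := h _ (sub_mem hz (neg_mem hcM)) (sub_nonneg.mpr hzs.neg_algebraMap_norm_le_self)
    rw [map_sub, hc0, zero_sub] at a1
    rw [map_sub, map_neg, hc0, neg_zero, sub_zero] at a2
    apply Complex.ext
    · have := a1.1
      rw [Complex.neg_re] at this
      have := a2.1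
      simp only [Complex.zero_re]
      linarith
    · exact a2.2
  have e1 : y = (1 / 2 : ℂ) • (y + star y) + (-Complex.I / 2 : ℂ) • (Complex.I • (y - star y)) := by
    rw [smul_smul]
    have : (-Complex.I / 2 * Complex.I : ℂ) = 1 / 2 := by
      rw [div_mul_eq_mul_div, neg_mul, Complex.I_mul_I]; norm_num
    rw [this, ← smul_add]
    have : y + star y + (y - star y) = (2 : ℂ) • y := by rw [two_smul]; abel
    rw [this, smul_smul]
    norm_num
  have s1 : IsSelfAdjoint (y + star y) := IsSelfAdjoint.add_star_self y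
  have s2 : IsSelfAdjoint (Complex.I • (y - star y)) := by
    show star _ = _
    rw [star_smul, star_sub, star_star]
    have : star Complex.I = -Complex.I := Complex.conj_I
    rw [this, neg_smul, ← smul_neg, neg_sub]
  rw [e1, map_add, map_smul, map_smul, hsa _ (add_mem hy (star_mem hy)) s1,
    hsa _ (smul_mem' _ (sub_mem hy (star_mem hy))) s2]
  simp

/-- compression of a projection by a projection is dominated by the square of the norm -/
lemma conj_le_of_norm {g q : H →L[ℂ] H} (hg : IsStarProjection g) (hq : IsStarProjection q)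
    {η : ℝ} (h : ‖g * q‖ ≤ η) : g * q * g ≤ ((η ^ 2 : ℝ) : ℂ) • g := by
  have hgg : g * g = g := hg.isIdempotentElem.eq
  have hqq : q * q = q := hq.isIdempotentElem.eq
  have e1 : star (q * g) * (q * g) = g * q * g := by
    rw [star_mul, hg.isSelfAdjoint.star_eq, hq.isSelfAdjoint.star_eq]
    calc g * q * (q * g) = g * (q * q) * g := by simp only [mul_assoc]
      _ = g * q * g := by rw [hqq]
  have h1 : star (q * g) * (q * g) ≤ algebraMap ℝ (H →L[ℂ] H) (‖q * g‖ ^ 2) :=
    CStarAlgebra.star_mul_le_algebraMap_norm_sq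
  rw [e1, norm_star_mul_proj hg hq] at h1
  have h2 : algebraMap ℝ (H →L[ℂ] H) (‖g * q‖ ^ 2) ≤ algebraMap ℝ (H →L[ℂ] H) (η ^ 2) :=
    algebraMap_mono (H →L[ℂ] H) (by gcongr)
  have h3 := IsSelfAdjoint.conjugate_le_conjugate (h1.trans h2) hg.isSelfAdjoint
  have e2 : g * (g * q * g) * g = g * q * g := by
    calc g * (g * q * g) * g = (g * g) * q * (g * g) := by simp only [mul_assoc]
      _ = g * q * g := by rw [hgg]
  have e3 : g * algebraMap ℝ (H →L[ℂ] H) (η ^ 2) * g = ((η ^ 2 : ℝ) : ℂ) • g := by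
    rw [Algebra.algebraMap_eq_smul_one, mul_smul_comm, mul_one, smul_mul_assoc, hgg]
    rfl
  rwa [e2, e3] at h3

theorem ne_of_thin (hA : IsMASA A M) (h : Thin A M) : NowhereExpected A M := by
  classical
  intro ψ hpos hnorm hcen y hy
  refine hpos.eq_zero ?_ hy
  have h1 := hpos 1 (one_mem M) zero_le_one
  have hle : (ψ 1).re ≤ 0 := by
    refine le_of_forall_pos_le_add fun κ hκ => ?_
    rw [zero_add]
    obtain ⟨F, δ, hδ, hF⟩ := hnorm (κ / 2) (by positivity)
    set c : ℝ := (ψ 1).re + 1 with hc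
    have hcpos : 0 < c := by linarith [h1.1]
    set η : ℝ := Real.sqrt (κ / (2 * c)) with hη
    have hηpos : 0 < η := Real.sqrt_pos.mpr (by positivity)
    have hη2 : η ^ 2 = κ / (2 * c) := Real.sq_sqrt (by positivity)
    obtain ⟨q, P, hqM, hq, hqF, hP⟩ := h F δ η hδ hηpos
    have b1 : ‖ψ (1 - q)‖ < κ / 2 := hF _ (sub_mem (one_mem M) hqM) hq.one_sub hqF
    have b2 : (ψ q).re ≤ η ^ 2 * (ψ 1).re := by
      have e1 : ψ q = ∑ j, ψ (P.g j * q * P.g j) := by
        have : q = ∑ j, P.g j * q := by rw [← Finset.sum_mul, P.part.sum_eq, one_mul]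
        nth_rewrite 1 [this]
        rw [map_sum]
        refine Finset.sum_congr rfl fun j _ => ?_
        have hj := hcen (P.g j) (P.part.mem j) (P.g j * q) (mul_mem (hA.le (P.part.mem j)) hqM)
        rw [← mul_assoc, (P.part.proj j).isIdempotentElem.eq] at hj
        exact hj
      have e2 : ψ 1 = ∑ j, ψ (P.g j) := by rw [← map_sum, P.part.sum_eq]
      rw [e1, e2, Complex.re_sum, Complex.re_sum, Finset.mul_sum]
      refine Finset.sum_le_sum fun j _ => ?_
      have hjM := hA.le (P.part.mem j)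
      have := hpos.mono (mul_mem (mul_mem hjM hqM) hjM) (smul_mem' _ hjM)
        (conj_le_of_norm (P.part.proj j) hq (hP j))
      rwa [map_smul, smul_eq_mul, Complex.re_ofReal_mul] at this
    have b3 : (ψ 1).re = (ψ q).re + (ψ (1 - q)).re := by
      rw [← Complex.add_re, ← map_add]; simp
    have b4 : (ψ (1 - q)).re ≤ ‖ψ (1 - q)‖ := Complex.re_le_norm _
    have b5 : η ^ 2 * (ψ 1).re ≤ κ / 2 := by
      rw [hη2, div_mul_eq_mul_div, div_le_div_iff₀ (by positivity) (by positivity)]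
      nlinarith [h1.1]
    linarith
  apply Complex.ext
  · simp only [Complex.zero_re]; linarith [h1.1]
  · exact h1.2

theorem thin_iff_ne (hA : IsMASA A M) : Thin A M ↔ NowhereExpected A M :=
  ⟨ne_of_thin hA, thin_of_ne hA⟩

end Vale.Agent.P078
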