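import Vale.Agent.P078.VN

namespace Vale.Agent.P078

open scoped InnerProductSpace
open Filter

variable {H : Type*} [NormedAddCommGroup H] [InnerProductSpace ℂ H] [CompleteSpace H]

lemma exists_tendsto_of_bdd {α : Type*} (U : Ultrafilter α) (F : α → ℂ) (R : ℝ)
    (hF : ∀ i, ‖F i‖ ≤ R) : ∃ L : ℂ, ‖L‖ ≤ R ∧ Tendsto F U (nhds L) := by
  have hc : IsCompact (Metric.closedBall (0 : ℂ) R) := isCompact_closedBall 0 R
  obtain ⟨L, hL, hle⟩ := hc.ultrafilter_le_nhds (U.map F) (by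
    rw [le_principal_iff]
    have : ∀ᶠ i in (U : Filter α), F i ∈ Metric.closedBall (0 : ℂ) R :=
      Eventually.of_forall (fun i => by simpa using hF i)
    exact this)
  exact ⟨L, by simpa using hL, hle⟩

/-- compactness of balls of operators for the weak operator topology, in ultrafilter form -/
theorem wot_lim {α : Type*} (U : Ultrafilter α) (T : α → H →L[ℂ] H) (C : ℝ)
    (hT : ∀ i, ‖T i‖ ≤ C) :
    ∃ L : H →L[ℂ] H, ‖L‖ ≤ C ∧
      ∀ v w, Tendsto (fun i => ⟪T i v, w⟫_ℂ) U (nhds ⟪L v, w⟫_ℂ) := by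
  have hne : Nonempty α := nonempty_of_neBot (U : Filter α)
  have hC : 0 ≤ C := (norm_nonneg _).trans (hT hne.some)
  have hb : ∀ v w i, ‖⟪T i v, w⟫_ℂ‖ ≤ C * ‖v‖ * ‖w‖ := by
    intro v w i
    calc ‖⟪T i v, w⟫_ℂ‖ ≤ ‖T i v‖ * ‖w‖ := norm_inner_le_norm _ _
      _ ≤ (‖T i‖ * ‖v‖) * ‖w‖ := by gcongr; exact (T i).le_opNorm v
      _ ≤ C * ‖v‖ * ‖w‖ := by gcongr; exact hT i
  choose b hbn hbt using fun v w => exists_tendsto_of_bdd U (fun i => ⟪T i v, w⟫_ℂ) _ (hb v w)
  set B₀ : H →ₗ⋆[ℂ] H →ₗ[ℂ] ℂ := LinearMap.mk₂'ₛₗ (starRingEnd ℂ) (RingHom.id ℂ) b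
    (by
      intro v v' w
      refine tendsto_nhds_unique (hbt (v + v') w) ?_
      have := (hbt v w).add (hbt v' w)
      refine this.congr fun i => ?_
      rw [map_add, inner_add_left])
    (by
      intro c v w
      refine tendsto_nhds_unique (hbt (c • v) w) ?_
      have := (hbt v w).const_mul (starRingEnd ℂ c)
      refine this.congr fun i => ?_
      rw [map_smul, inner_smul_left])
    (by
      intro v w w'
      refine tendsto_nhds_unique (hbt v (w + w')) ?_
      have := (hbt v w).add (hbt v w')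
      refine this.congr fun i => ?_
      rw [inner_add_right])
    (by
      intro c v w
      refine tendsto_nhds_unique (hbt v (c • w)) ?_
      have := (hbt v w).const_mul c
      refine this.congr fun i => ?_
      rw [inner_smul_right]) with hB₀
  set B : H →L⋆[ℂ] H →L[ℂ] ℂ := B₀.mkContinuous₂ C (fun v w => hbn v w) with hB
  set L : H →L[ℂ] H := InnerProductSpace.continuousLinearMapOfBilin B with hL
  have hLb : ∀ v w, ⟪L v, w⟫_ℂ = b v w := by
    intro v w
    rw [hL, InnerProductSpace.continuousLinearMapOfBilin_apply]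
    rfl
  refine ⟨L, ?_, fun v w => by rw [hLb]; exact hbt v w⟩
  refine ContinuousLinearMap.opNorm_le_bound _ hC fun v => ?_
  by_cases h0 : L v = 0
  · rw [h0, norm_zero]; positivity
  have hpos : 0 < ‖L v‖ := norm_pos_iff.mpr h0
  have h1 : ‖L v‖ * ‖L v‖ ≤ C * ‖v‖ * ‖L v‖ := by
    have h2 := hbn v (L v)
    rw [← hLb, inner_self_eq_norm_sq_to_K] at h2
    have h3 : ‖((‖L v‖ : ℂ)) ^ 2‖ = ‖L v‖ * ‖L v‖ := by
      rw [norm_pow, Complex.norm_real, norm_norm, sq]
    erw [h3] at h2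
    exact h2
  exact le_of_mul_le_mul_right h1 hpos

end Vale.Agent.P078
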