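import Vale.Agent.P078.PosFun
import Vale.Agent.P078.Wot

namespace Vale.Agent.P078

open scoped InnerProductSpace
open Filter

variable {H : Type*} [NormedAddCommGroup H] [InnerProductSpace ℂ H] [CompleteSpace H]

/-- contractions of `M` which are close to `1` on a finite set of vectors -/
def Cset (M : VonNeumannAlgebra H) (i : Finset H × ℕ) : Set (H →L[ℂ] H) :=
  {y | y ∈ M ∧ ‖y‖ ≤ 1 ∧ ∀ ξ ∈ i.1, ‖(1 - y) ξ‖ < 1 / ((i.2 : ℝ) + 1)}

lemma one_mem_Cset (M : VonNeumannAlgebra H) (i : Finset H × ℕ) : (1 : H →L[ℂ] H) ∈ Cset M i := by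
  refine ⟨one_mem M, ContinuousLinearMap.norm_id_le, fun ξ _ => ?_⟩
  simp only [sub_self, zero_apply, norm_zero]
  positivity

lemma Cset_anti (M : VonNeumannAlgebra H) {i j : Finset H × ℕ} (hij : i ≤ j) :
    Cset M j ⊆ Cset M i := by
  rintro y ⟨h1, h2, h3⟩
  refine ⟨h1, h2, fun ξ hξ => (h3 ξ (hij.1 hξ)).trans_le ?_⟩
  have : (i.2 : ℝ) ≤ j.2 := by exact_mod_cast hij.2
  gcongr

/-- the infimum of the seminorm on `Cset` -/
noncomputable def mval (M : VonNeumannAlgebra H) (ψ : (H →L[ℂ] H) →ₗ[ℂ] ℂ) (i : Finset H × ℕ) : ℝ :=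
  sInf (N2 ψ '' Cset M i)

section

variable {M : VonNeumannAlgebra H} {ψ : (H →L[ℂ] H) →ₗ[ℂ] ℂ}

lemma bdd_N2 (h : PF ψ) (i : Finset H × ℕ) : BddBelow (N2 ψ '' Cset M i) :=
  ⟨0, by rintro _ ⟨y, -, rfl⟩; exact h.N2_nonneg y⟩

lemma mval_le (h : PF ψ) {i : Finset H × ℕ} {y : H →L[ℂ] H} (hy : y ∈ Cset M i) :
    mval M ψ i ≤ N2 ψ y := csInf_le (bdd_N2 h i) ⟨y, hy, rfl⟩

lemma mval_nonneg (h : PF ψ) (i : Finset H × ℕ) : 0 ≤ mval M ψ i :=
  le_csInf ⟨_, 1, one_mem_Cset M i, rfl⟩ (by rintro _ ⟨y, -, rfl⟩; exact h.N2_nonneg y)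

lemma mval_mono (h : PF ψ) {i j : Finset H × ℕ} (hij : i ≤ j) : mval M ψ i ≤ mval M ψ j :=
  le_csInf ⟨_, 1, one_mem_Cset M j, rfl⟩
    (by rintro _ ⟨y, hy, rfl⟩; exact mval_le h (Cset_anti M hij hy))

lemma exists_near (i : Finset H × ℕ) :
    ∃ y ∈ Cset M i, N2 ψ y < mval M ψ i + 1 / ((i.2 : ℝ) + 1) := by
  have hpos : (0 : ℝ) < 1 / ((i.2 : ℝ) + 1) := by positivity
  obtain ⟨_, ⟨y, hy, rfl⟩, hlt⟩ := exists_lt_of_csInf_lt (s := N2 ψ '' Cset M i)
    ⟨_, 1, one_mem_Cset M i, rfl⟩ (lt_add_of_pos_right _ hpos)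
  exact ⟨y, hy, hlt⟩

end

lemma norm_le_one_of_symm {u : H →L[ℂ] H} (hsa : IsSelfAdjoint u) (huu : u * u = 1) : ‖u‖ ≤ 1 := by
  have h1 : ‖u‖ * ‖u‖ = ‖(1 : H →L[ℂ] H)‖ := by
    rw [← huu]
    nth_rewrite 3 [← hsa.star_eq]
    exact (CStarRing.norm_star_mul_self).symm
  have h2 : ‖(1 : H →L[ℂ] H)‖ ≤ 1 := ContinuousLinearMap.norm_id_le
  nlinarith [norm_nonneg u]

/-- the normal part of a positive functional, constructed by minimising the seminorm over
contractions converging strongly to `1` -/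
theorem exists_normal_part (M : VonNeumannAlgebra H) {ψ : (H →L[ℂ] H) →ₗ[ℂ] ℂ} (h : PF ψ)
    (G : Set (H →L[ℂ] H))
    (hG : ∀ u ∈ G, u ∈ M ∧ IsSelfAdjoint u ∧ u * u = 1 ∧ ∀ z ∈ M, ψ (u * z * u) = ψ z) :
    ∃ ψn : (H →L[ℂ] H) →ₗ[ℂ] ℂ,
      (∀ y, 0 ≤ y → 0 ≤ (ψn y).re ∧ (ψn y).im = 0) ∧
      (∀ w, ‖ψn w‖ ≤ ‖w‖ * (N2 ψ 1 + 1)) ∧
      (∀ κ : ℝ, 0 < κ → ∃ (F : Finset H) (δ : ℝ), 0 < δ ∧ ∀ e ∈ M, IsStarProjection e →
        (∀ ξ ∈ F, ‖e ξ‖ < δ) → ‖ψn e‖ < κ) ∧
      (∀ u ∈ G, ∀ w ∈ M, ψn (u * w * u) = ψn w) ∧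
      (∀ i, mval M ψ i ≤ (ψn 1).re) ∧
      (∀ (w : H →L[ℂ] H) (i₀ : Finset H × ℕ) (κ : ℝ), 0 < κ →
        ∃ y ∈ Cset M i₀, ‖ψ (star y * w * y) - ψn w‖ < κ) := by
  classical
  choose y hyC hyN using fun i : Finset H × ℕ => exists_near (M := M) (ψ := ψ) i
  set V : Ultrafilter (Finset H × ℕ) := Ultrafilter.of atTop with hV
  have hVge : ∀ i₀ : Finset H × ℕ, ∀ᶠ i in (V : Filter (Finset H × ℕ)), i₀ ≤ i :=
    fun i₀ => (Ultrafilter.of_le atTop) (eventually_ge_atTop i₀)
  set c : ℝ := N2 ψ 1 + 1 with hc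
  have hc0 : 0 ≤ N2 ψ 1 := h.N2_nonneg 1
  have hm1 : ∀ i, mval M ψ i ≤ N2 ψ 1 := fun i => mval_le h (one_mem_Cset M i)
  have hyc : ∀ i, N2 ψ (y i) ≤ c := by
    intro i
    have h1 : 1 / ((i.2 : ℝ) + 1) ≤ 1 := by
      rw [div_le_one (by positivity)]
      have : (0 : ℝ) ≤ i.2 := by positivity
      linarith
    have := hyN i
    have := hm1 i
    linarith
  set Fw : (H →L[ℂ] H) → (Finset H × ℕ) → ℂ := fun w i => ψ (star (y i) * w * y i) with hFw
  have hFb : ∀ w i, ‖Fw w i‖ ≤ ‖w‖ * c := by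
    intro w i
    refine (h.norm_conj_le w (y i)).trans ?_
    gcongr
    exact hyc i
  choose L hLn hLt using fun w => exists_tendsto_of_bdd V (Fw w) (‖w‖ * c) (hFb w)
  set ψn : (H →L[ℂ] H) →ₗ[ℂ] ℂ :=
    { toFun := L
      map_add' := by
        intro w w'
        refine tendsto_nhds_unique (hLt (w + w')) ?_
        refine ((hLt w).add (hLt w')).congr fun i => ?_
        simp only [hFw]
        rw [mul_add, add_mul, map_add]
      map_smul' := by
        intro a w
        refine tendsto_nhds_unique (hLt (a • w)) ?_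
        refine ((hLt w).const_mul a).congr fun i => ?_
        simp only [hFw]
        rw [mul_smul_comm, smul_mul_assoc, map_smul, smul_eq_mul] } with hψn
  have hre : ∀ w, Tendsto (fun i => (Fw w i).re) V (nhds (L w).re) :=
    fun w => (Complex.continuous_re.tendsto _).comp (hLt w)
  have him : ∀ w, Tendsto (fun i => (Fw w i).im) V (nhds (L w).im) :=
    fun w => (Complex.continuous_im.tendsto _).comp (hLt w)
  have hpos : ∀ w, 0 ≤ w → 0 ≤ (L w).re ∧ (L w).im = 0 := by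
    intro w hw
    have h1 : ∀ i, 0 ≤ star (y i) * w * y i := fun i => star_left_conjugate_nonneg hw (y i)
    refine ⟨ge_of_tendsto' (hre w) fun i => (h.pos _ (h1 i)).1, ?_⟩
    refine tendsto_nhds_unique (him w) ?_
    exact tendsto_const_nhds.congr fun i => ((h.pos _ (h1 i)).2).symm
  have hF1 : ∀ i, (Fw 1 i).re = N2 ψ (y i) := by
    intro i
    simp only [hFw, mul_one]
    rfl
  have hbdd : BddAbove (Set.range (mval M ψ)) := ⟨N2 ψ 1, by rintro _ ⟨i, rfl⟩; exact hm1 i⟩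
  set minf : ℝ := ⨆ i, mval M ψ i with hminf
  have hle_minf : ∀ i, mval M ψ i ≤ minf := fun i => le_ciSup hbdd i
  have hsmall : ∀ t : ℝ, 0 < t → ∃ n : ℕ, ∀ i : Finset H × ℕ, n ≤ i.2 → N2 ψ (y i) < minf + t := by
    intro t ht
    obtain ⟨n, hn⟩ := exists_nat_gt (1 / t)
    refine ⟨n, fun i hi => ?_⟩
    have h1 : 1 / ((i.2 : ℝ) + 1) < t := by
      have h2 : (n : ℝ) ≤ i.2 := by exact_mod_cast hi
      rw [div_lt_iff₀ (by positivity)]
      rw [div_lt_iff₀ ht] at hn
      nlinarith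
    have := hyN i
    have := hle_minf i
    linarith
  have hlow : ∀ i₀, mval M ψ i₀ ≤ (L 1).re := by
    intro i₀
    refine ge_of_tendsto (hre 1) ?_
    filter_upwards [hVge i₀] with i hi
    rw [hF1]
    exact (mval_mono h hi).trans (mval_le h (hyC i))
  have hup : ∀ t : ℝ, 0 < t → (L 1).re ≤ minf + t := by
    intro t ht
    obtain ⟨n, hn⟩ := hsmall t ht
    refine le_of_tendsto (hre 1) ?_
    filter_upwards [hVge (∅, n)] with i hi
    rw [hF1]
    exact (hn i hi.2).le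
  have happ : ∀ (w : H →L[ℂ] H) (i₀ : Finset H × ℕ) (κ : ℝ), 0 < κ →
      ∃ y ∈ Cset M i₀, ‖ψ (star y * w * y) - L w‖ < κ := by
    intro w i₀ κ hκ
    have h1 := hLt w
    rw [Metric.tendsto_nhds] at h1
    obtain ⟨i, hi1, hi2⟩ := ((h1 κ hκ).and (hVge i₀)).exists
    refine ⟨y i, Cset_anti M hi2 (hyC i), ?_⟩
    rw [← dist_eq_norm]
    exact hi1
  refine ⟨ψn, hpos, hLn, ?_, ?_, hlow, happ⟩
  · -- normality
    intro κ hκ
    obtain ⟨i₀, hi₀⟩ := exists_lt_of_lt_ciSup (show minf - κ / 2 < ⨆ i, mval M ψ i by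
      rw [← hminf]; linarith)
    refine ⟨i₀.1, 1 / (2 * ((i₀.2 : ℝ) + 1)), by positivity, fun e heM hep hes => ?_⟩
    set q : H →L[ℂ] H := 1 - e with hq
    have hqp : IsStarProjection q := hep.one_sub
    have hqM : q ∈ M := sub_mem (one_mem M) heM
    have h1 : mval M ψ i₀ ≤ (L q).re := by
      refine ge_of_tendsto (hre q) ?_
      filter_upwards [hVge (i₀.1, 2 * i₀.2 + 1)] with i hi
      have hmem : q * y i ∈ Cset M i₀ := by
        obtain ⟨g1, g2, g3⟩ := hyC i
        refine ⟨mul_mem hqM g1, ?_, fun ξ hξ => ?_⟩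
        · calc ‖q * y i‖ ≤ ‖q‖ * ‖y i‖ := norm_mul_le _ _
            _ ≤ 1 * 1 := mul_le_mul hqp.norm_le g2 (norm_nonneg _) zero_le_one
            _ = 1 := one_mul 1
        · have e1 : (1 - q * y i) ξ = e ξ + q ((1 - y i) ξ) := by
            have : (1 - q * y i : H →L[ℂ] H) = e + q * (1 - y i) := by
              rw [hq]; noncomm_ring
            rw [this]; rfl
          have e2 : ‖(1 - y i) ξ‖ < 1 / (2 * ((i₀.2 : ℝ) + 1)) := by
            refine (g3 ξ (hi.1 hξ)).trans_le ?_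
            have : ((2 * i₀.2 + 1 : ℕ) : ℝ) ≤ i.2 := by exact_mod_cast hi.2
            push_cast at this
            apply one_div_le_one_div_of_le (by positivity)
            linarith
          rw [e1]
          calc ‖e ξ + q ((1 - y i) ξ)‖ ≤ ‖e ξ‖ + ‖q ((1 - y i) ξ)‖ := norm_add_le _ _
            _ ≤ ‖e ξ‖ + ‖(1 - y i) ξ‖ := by gcongr; exact proj_norm_le hqp _
            _ < 1 / (2 * ((i₀.2 : ℝ) + 1)) + 1 / (2 * ((i₀.2 : ℝ) + 1)) :=
                add_lt_add (hes ξ hξ) e2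
            _ = 1 / ((i₀.2 : ℝ) + 1) := by field_simp; ring
      have e3 : (Fw q i).re = N2 ψ (q * y i) := by
        simp only [hFw, N2]
        congr 2
        rw [star_mul, hqp.isSelfAdjoint.star_eq]
        calc star (y i) * q * y i = star (y i) * (q * q) * y i := by
              rw [hqp.isIdempotentElem.eq]
          _ = star (y i) * q * (q * y i) := by simp only [mul_assoc]
      rw [e3]
      exact mval_le h hmem
    have h2 := hup (κ / 4) (by positivity)
    have h3 : L e = L 1 - L q := by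
      have : ψn e = ψn 1 - ψn q := by
        rw [← map_sub, hq]; congr 1; abel
      exact this
    have h4 := hpos e hep.nonneg
    have h5 : ‖L e‖ = (L e).re := by
      have : L e = (((L e).re : ℝ) : ℂ) := by
        apply Complex.ext
        · simp
        · simp [h4.2]
      rw [this, Complex.norm_real, Real.norm_eq_abs, abs_of_nonneg h4.1, Complex.ofReal_re]
    show ‖L e‖ < κ
    rw [h5, h3, Complex.sub_re]
    linarith
  · -- invariance
    intro u hu w hw
    obtain ⟨huM, husa, huu, huψ⟩ := hG u hu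
    have hun : ‖u‖ ≤ 1 := norm_le_one_of_symm husa huu
    show L (u * w * u) = L w
    refine tendsto_nhds_unique (hLt (u * w * u)) ?_
    have hdiff : Tendsto (fun i => Fw (u * w * u) i - Fw w i) V (nhds 0) := by
      rw [Metric.tendsto_nhds]
      intro κ hκ
      set α : ℝ := c + 1 with hα
      have hαpos : 0 < α := by positivity
      have hα2 : c ≤ α ^ 2 := by nlinarith
      set β : ℝ := κ / (4 * ((‖w‖ + 1) * α)) with hβ
      have hβpos : 0 < β := by positivity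
      set t : ℝ := β ^ 2 / 8 with ht
      have htpos : 0 < t := by positivity
      obtain ⟨i₀, hi₀⟩ := exists_lt_of_lt_ciSup (show minf - t < ⨆ i, mval M ψ i by
        rw [← hminf]; linarith)
      obtain ⟨n, hn⟩ := hsmall t htpos
      filter_upwards [hVge (i₀.1 ∪ i₀.1.image u, max i₀.2 n)] with i hi
      obtain ⟨g1, g2, g3⟩ := hyC i
      set y' : H →L[ℂ] H := u * y i * u with hy'
      have hy'M : y' ∈ M := mul_mem (mul_mem huM g1) huM
      have hstar : star y' = u * star (y i) * u := by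
        rw [hy', star_mul, star_mul, husa.star_eq, mul_assoc]
      have e1 : Fw (u * w * u) i = ψ (star y' * w * y') := by
        simp only [hFw]
        rw [← huψ _ (mul_mem (mul_mem (star_mem g1) (mul_mem (mul_mem huM hw) huM)) g1), hstar, hy']
        simp only [mul_assoc]
      have e2 : N2 ψ y' = N2 ψ (y i) := by
        unfold N2
        rw [← huψ _ (mul_mem (star_mem g1) g1), hstar, hy']
        congr 2
        calc u * star (y i) * u * (u * y i * u) = u * star (y i) * (u * u) * y i * u := by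
              simp only [mul_assoc]
          _ = u * (star (y i) * y i) * u := by rw [huu]; simp only [mul_one, mul_assoc]
      have hb : ∀ ξ ∈ i₀.1, ‖(1 - y i) ξ‖ < 1 / ((i₀.2 : ℝ) + 1) ∧
          ‖(1 - y') ξ‖ < 1 / ((i₀.2 : ℝ) + 1) := by
        intro ξ hξ
        have hle : 1 / ((i.2 : ℝ) + 1) ≤ 1 / ((i₀.2 : ℝ) + 1) := by
          have : (i₀.2 : ℝ) ≤ i.2 := by exact_mod_cast (le_max_left _ _).trans hi.2
          gcongr
        refine ⟨(g3 ξ (hi.1 (Finset.mem_union_left _ hξ))).trans_le hle, ?_⟩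
        have e3 : (1 - y') ξ = u ((1 - y i) (u ξ)) := by
          have : (1 - y' : H →L[ℂ] H) = u * (1 - y i) * u := by
            rw [hy', mul_sub, sub_mul, mul_one, huu]
          rw [this]; rfl
        rw [e3]
        calc ‖u ((1 - y i) (u ξ))‖ ≤ ‖u‖ * ‖(1 - y i) (u ξ)‖ := u.le_opNorm _
          _ ≤ 1 * ‖(1 - y i) (u ξ)‖ := by gcongr
          _ = ‖(1 - y i) (u ξ)‖ := one_mul _
          _ < 1 / ((i.2 : ℝ) + 1) :=
              g3 _ (hi.1 (Finset.mem_union_right _ (Finset.mem_image_of_mem _ hξ)))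
          _ ≤ _ := hle
      have hy'n : ‖y'‖ ≤ 1 := by
        calc ‖y'‖ ≤ ‖u * y i‖ * ‖u‖ := norm_mul_le _ _
          _ ≤ (‖u‖ * ‖y i‖) * ‖u‖ := by gcongr; exact norm_mul_le _ _
          _ ≤ (1 * 1) * 1 := by gcongr
          _ = 1 := by norm_num
      set mid : H →L[ℂ] H := (1 / 2 : ℂ) • (y' + y i) with hmid
      have hmidC : mid ∈ Cset M i₀ := by
        refine ⟨M.toStarSubalgebra.smul_mem (add_mem hy'M g1) _, ?_, fun ξ hξ => ?_⟩
        · calc ‖mid‖ ≤ ‖(1 / 2 : ℂ)‖ * ‖y' + y i‖ := norm_smul_le _ _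
            _ ≤ 1 / 2 * (‖y'‖ + ‖y i‖) := by
                have : ‖(1 / 2 : ℂ)‖ = 1 / 2 := by simp
                rw [this]
                gcongr
                exact norm_add_le _ _
            _ ≤ 1 / 2 * (1 + 1) := by gcongr
            _ = 1 := by norm_num
        · have e4 : (1 - mid) ξ = (1 / 2 : ℂ) • ((1 - y') ξ + (1 - y i) ξ) := by
            simp only [hmid, sub_apply, one_apply_eq_self, smul_apply, add_apply, smul_add, smul_sub]
            have : ξ = (1 / 2 : ℂ) • ξ + (1 / 2 : ℂ) • ξ := by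
              rw [← add_smul]; norm_num
            nth_rewrite 1 [this]
            abel
          rw [e4, norm_smul]
          have : ‖(1 / 2 : ℂ)‖ = 1 / 2 := by simp
          rw [this]
          have := hb ξ hξ
          have h6 := norm_add_le ((1 - y') ξ) ((1 - y i) ξ)
          linarith [this.1, this.2]
      have e5 : N2 ψ (y' + y i) = 4 * N2 ψ mid := by
        unfold N2
        rw [hmid, star_smul, smul_mul_smul_comm, map_smul, smul_eq_mul]
        have : (star (1 / 2 : ℂ) * (1 / 2 : ℂ)) = ((1 / 4 : ℝ) : ℂ) := by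
          simp; norm_num
        rw [this, Complex.re_ofReal_mul]
        ring
      have e6 : N2 ψ (y' - y i) ≤ β ^ 2 := by
        have p1 := PF.parallelogram (ψ := ψ) y' (y i)
        have p2 := mval_le h hmidC
        have p3 := hn i ((le_max_right _ _).trans hi.2)
        rw [e5, e2] at p1
        have : β ^ 2 = 8 * t := by rw [ht]; ring
        linarith
      have e7 := h.norm_conj_sub_le w hαpos.le hβpos.le ((hyc i).trans hα2)
        (by rw [e2]; exact (hyc i).trans hα2) e6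
      rw [dist_zero_right, e1]
      refine e7.trans_lt ?_
      have h8 : 2 * (‖w‖ * α * β) ≤ 2 * ((‖w‖ + 1) * α * β) := by
        gcongr
        linarith
      have h9 : 2 * ((‖w‖ + 1) * α * β) = κ / 2 := by
        rw [hβ]; field_simp; ring
      linarith
    have := (hLt w).add hdiff
    rw [add_zero] at this
    refine this.congr fun i => ?_
    ring

end Vale.Agent.P078
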