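import Vale.Agent.P078.VN

namespace Vale.Agent.P078

open scoped InnerProductSpace

variable {H : Type*} [NormedAddCommGroup H] [InnerProductSpace ℂ H] [CompleteSpace H]

/-- positive hermitian linear functionals on the algebra of all bounded operators -/
structure PF (ψ : (H →L[ℂ] H) →ₗ[ℂ] ℂ) : Prop where
  pos : ∀ y, 0 ≤ y → 0 ≤ (ψ y).re ∧ (ψ y).im = 0
  herm : ∀ y, ψ (star y) = starRingEnd ℂ (ψ y)

/-- the square of the seminorm attached to a positive functional -/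
noncomputable def N2 (ψ : (H →L[ℂ] H) →ₗ[ℂ] ℂ) (y : H →L[ℂ] H) : ℝ := (ψ (star y * y)).re

namespace PF

variable {ψ : (H →L[ℂ] H) →ₗ[ℂ] ℂ}

lemma N2_nonneg (h : PF ψ) (y : H →L[ℂ] H) : 0 ≤ N2 ψ y := (h.pos _ (star_mul_self_nonneg y)).1

lemma mono (h : PF ψ) {y z : H →L[ℂ] H} (hyz : y ≤ z) : (ψ y).re ≤ (ψ z).re := by
  have := (h.pos _ (sub_nonneg.mpr hyz)).1
  rw [map_sub, Complex.sub_re] at this
  linarith

lemma N2_mul_le (h : PF ψ) (w y : H →L[ℂ] H) : N2 ψ (w * y) ≤ ‖w‖ ^ 2 * N2 ψ y := by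
  unfold N2
  have h1 : star w * w ≤ algebraMap ℝ (H →L[ℂ] H) (‖w‖ ^ 2) :=
    CStarAlgebra.star_mul_le_algebraMap_norm_sq
  have h2 := star_left_conjugate_le_conjugate h1 y
  have e1 : star (w * y) * (w * y) = star y * (star w * w) * y := by
    rw [star_mul]; simp only [mul_assoc]
  have e2 : star y * algebraMap ℝ (H →L[ℂ] H) (‖w‖ ^ 2) * y
      = ((‖w‖ ^ 2 : ℝ) : ℂ) • (star y * y) := by
    rw [Algebra.algebraMap_eq_smul_one, mul_smul_comm, mul_one, smul_mul_assoc]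
    rfl
  rw [e1]
  refine (h.mono h2).trans (le_of_eq ?_)
  rw [e2, map_smul, smul_eq_mul, Complex.re_ofReal_mul]

/-- the semi-inner product attached to a positive functional -/
@[instance_reducible]
noncomputable def core (h : PF ψ) : PreInnerProductSpace.Core ℂ (H →L[ℂ] H) where
  inner y w := ψ (star y * w)
  conj_inner_symm y w := by
    show starRingEnd ℂ (ψ (star w * y)) = ψ (star y * w)
    rw [← h.herm, star_mul, star_star]
  re_inner_nonneg y := h.N2_nonneg y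
  add_left y z w := by
    show ψ (star (y + z) * w) = ψ (star y * w) + ψ (star z * w)
    rw [star_add, add_mul, map_add]
  smul_left y w c := by
    show ψ (star (c • y) * w) = starRingEnd ℂ c * ψ (star y * w)
    rw [star_smul, smul_mul_assoc, map_smul, smul_eq_mul]
    rfl

lemma cs (h : PF ψ) (w y : H →L[ℂ] H) : ‖ψ (star w * y)‖ ^ 2 ≤ N2 ψ w * N2 ψ y := by
  have h1 := @InnerProductSpace.Core.inner_mul_inner_self_le ℂ (H →L[ℂ] H) _ _ _ h.core w y
  have h2 : ‖ψ (star w * y)‖ * ‖ψ (star y * w)‖ ≤ N2 ψ w * N2 ψ y := h1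
  have h3 : ‖ψ (star y * w)‖ = ‖ψ (star w * y)‖ := by
    have : star y * w = star (star w * y) := by rw [star_mul, star_star]
    rw [this, h.herm, RCLike.norm_conj]
  rw [h3] at h2
  rw [sq]
  exact h2

lemma cs' (h : PF ψ) {w y : H →L[ℂ] H} {α β : ℝ} (hα : 0 ≤ α) (hβ : 0 ≤ β)
    (hw : N2 ψ w ≤ α ^ 2) (hy : N2 ψ y ≤ β ^ 2) : ‖ψ (star w * y)‖ ≤ α * β := by
  have h1 : ‖ψ (star w * y)‖ ^ 2 ≤ (α * β) ^ 2 := by
    refine (h.cs w y).trans ?_
    rw [mul_pow]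
    exact mul_le_mul hw hy (h.N2_nonneg y) (by positivity)
  exact abs_le_of_sq_le_sq' h1 (by positivity) |>.2

lemma parallelogram (y w : H →L[ℂ] H) :
    N2 ψ (y + w) + N2 ψ (y - w) = 2 * N2 ψ y + 2 * N2 ψ w := by
  unfold N2
  rw [← Complex.add_re, ← map_add]
  have : star (y + w) * (y + w) + star (y - w) * (y - w)
      = (2 : ℂ) • (star y * y) + (2 : ℂ) • (star w * w) := by
    rw [star_add, star_sub, two_smul, two_smul]
    noncomm_ring
  rw [this, map_add, map_smul, map_smul, Complex.add_re]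
  simp

lemma norm_conj_le (h : PF ψ) (w y : H →L[ℂ] H) : ‖ψ (star y * w * y)‖ ≤ ‖w‖ * N2 ψ y := by
  have h0 := h.N2_nonneg y
  have h1 : ‖ψ (star y * (w * y))‖ ^ 2 ≤ (‖w‖ * N2 ψ y) ^ 2 := by
    refine (h.cs y (w * y)).trans ?_
    have := h.N2_mul_le w y
    calc N2 ψ y * N2 ψ (w * y) ≤ N2 ψ y * (‖w‖ ^ 2 * N2 ψ y) := by gcongr
      _ = (‖w‖ * N2 ψ y) ^ 2 := by ring
  rw [mul_assoc]
  exact abs_le_of_sq_le_sq' h1 (by positivity) |>.2

/-- continuity of `y ↦ ψ (y* w y)` for the seminorm -/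
lemma norm_conj_sub_le (h : PF ψ) (w : H →L[ℂ] H) {y y' : H →L[ℂ] H} {α β : ℝ} (hα : 0 ≤ α)
    (hβ : 0 ≤ β) (hy : N2 ψ y ≤ α ^ 2) (hy' : N2 ψ y' ≤ α ^ 2) (hd : N2 ψ (y' - y) ≤ β ^ 2) :
    ‖ψ (star y' * w * y') - ψ (star y * w * y)‖ ≤ 2 * (‖w‖ * α * β) := by
  have e1 : star y' * w * y' - star y * w * y
      = star (y' - y) * (w * y') + star (star w * y) * (y' - y) := by
    rw [star_sub, star_mul, star_star]
    noncomm_ring
  rw [← map_sub, e1, map_add]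
  have b1 : ‖ψ (star (y' - y) * (w * y'))‖ ≤ β * (‖w‖ * α) := by
    refine h.cs' hβ (by positivity) hd ?_
    refine (h.N2_mul_le w y').trans ?_
    rw [mul_pow]
    gcongr
  have b2 : ‖ψ (star (star w * y) * (y' - y))‖ ≤ (‖w‖ * α) * β := by
    refine h.cs' (by positivity) hβ ?_ hd
    refine (h.N2_mul_le (star w) y).trans ?_
    rw [mul_pow, norm_star]
    gcongr
  refine (norm_add_le _ _).trans ?_
  linarith

end PF

end Vale.Agent.P078
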