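import Vale.Agent.P078.Defs

namespace Vale.Agent.P078

open scoped InnerProductSpace

variable {H : Type*} [NormedAddCommGroup H] [InnerProductSpace ℂ H] [CompleteSpace H]

section vec

variable {e f : H →L[ℂ] H}

lemma proj_apply_apply (he : IsStarProjection e) (ξ : H) : e (e ξ) = e ξ := by
  have h := he.isIdempotentElem
  have := congrArg (fun T : H →L[ℂ] H => T ξ) h.eq
  simpa using this

lemma sa_inner {x : H →L[ℂ] H} (hx : IsSelfAdjoint x) (ξ η : H) :
    ⟪x ξ, η⟫_ℂ = ⟪ξ, x η⟫_ℂ := by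
  have h : ContinuousLinearMap.adjoint x = x := by
    rw [← ContinuousLinearMap.star_eq_adjoint]; exact hx.star_eq
  calc ⟪x ξ, η⟫_ℂ = ⟪ξ, ContinuousLinearMap.adjoint x η⟫_ℂ :=
        (ContinuousLinearMap.adjoint_inner_right x ξ η).symm
    _ = ⟪ξ, x η⟫_ℂ := by rw [h]

lemma proj_inner (he : IsStarProjection e) (ξ η : H) : ⟪e ξ, η⟫_ℂ = ⟪ξ, e η⟫_ℂ :=
  sa_inner he.isSelfAdjoint ξ η

lemma proj_inner_both (he : IsStarProjection e) (ξ η : H) : ⟪e ξ, e η⟫_ℂ = ⟪ξ, e η⟫_ℂ := by
  rw [proj_inner he, proj_apply_apply he]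

lemma proj_inner_self (he : IsStarProjection e) (ξ : H) : ⟪ξ, e ξ⟫_ℂ = ((‖e ξ‖ ^ 2 : ℝ) : ℂ) := by
  rw [← proj_inner_both he, inner_self_eq_norm_sq_to_K]
  norm_cast

lemma proj_norm_le (he : IsStarProjection e) (ξ : H) : ‖e ξ‖ ≤ ‖ξ‖ := by
  have h1 : ‖e‖ ≤ 1 := he.norm_le
  calc ‖e ξ‖ ≤ ‖e‖ * ‖ξ‖ := e.le_opNorm ξ
    _ ≤ 1 * ‖ξ‖ := by gcongr
    _ = ‖ξ‖ := one_mul _

lemma ortho_inner (he : IsStarProjection e) (hef : e * f = 0) (ξ η : H) :
    ⟪e ξ, f η⟫_ℂ = 0 := by
  rw [proj_inner he]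
  have := congrArg (fun T : H →L[ℂ] H => T η) hef
  simp only [mul_apply_eq_comp, zero_apply] at this
  rw [this, inner_zero_right]

lemma norm_sq_add_of_ortho (he : IsStarProjection e) (hef : e * f = 0) (ξ : H) :
    ‖(e + f) ξ‖ ^ 2 = ‖e ξ‖ ^ 2 + ‖f ξ‖ ^ 2 := by
  have h := ortho_inner he hef ξ ξ
  rw [add_apply]
  have := norm_add_sq_eq_norm_sq_add_norm_sq_of_inner_eq_zero (e ξ) (f ξ) h
  simpa [sq] using this

end vec

/-- finite family of mutually orthogonal projections of `A` with sum `E` -/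
structure Part (A : VonNeumannAlgebra H) {ι : Type*} [Fintype ι] (e : ι → H →L[ℂ] H)
    (E : H →L[ℂ] H) : Prop where
  mem : ∀ l, e l ∈ A
  proj : ∀ l, IsStarProjection (e l)
  ortho : ∀ l m, l ≠ m → e l * e m = 0
  sum_eq : ∑ l, e l = E

namespace Part

variable {A : VonNeumannAlgebra H} {ι : Type*} [Fintype ι] {e : ι → H →L[ℂ] H} {E : H →L[ℂ] H}

lemma total_mem (h : Part A e E) : E ∈ A := by
  rw [← h.sum_eq]
  exact sum_mem fun l _ => h.mem l

lemma mul_total (h : Part A e E) (l : ι) : e l * E = e l := by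
  classical
  rw [← h.sum_eq, Finset.mul_sum, Finset.sum_eq_single l]
  · exact (h.proj l).isIdempotentElem.eq
  · intro m _ hm
    exact h.ortho l m (Ne.symm hm)
  · intro hl; exact absurd (Finset.mem_univ l) hl

lemma total_mul (h : Part A e E) (l : ι) : E * e l = e l := by
  classical
  rw [← h.sum_eq, Finset.sum_mul, Finset.sum_eq_single l]
  · exact (h.proj l).isIdempotentElem.eq
  · intro m _ hm
    exact h.ortho m l hm
  · intro hl; exact absurd (Finset.mem_univ l) hl

lemma total_proj (h : Part A e E) : IsStarProjection E := by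
  constructor
  · show E * E = E
    calc E * E = (∑ l, e l) * E := by rw [h.sum_eq]
      _ = ∑ l, e l * E := Finset.sum_mul _ _ _
      _ = ∑ l, e l := Finset.sum_congr rfl (fun l _ => h.mul_total l)
      _ = E := h.sum_eq
  · rw [← h.sum_eq]
    show star (∑ l, e l) = ∑ l, e l
    rw [star_sum]
    exact Finset.sum_congr rfl fun l _ => (h.proj l).isSelfAdjoint.star_eq

lemma inner_ne (h : Part A e E) {l m : ι} (hlm : l ≠ m) (ξ η : H) : ⟪e l ξ, e m η⟫_ℂ = 0 :=
  ortho_inner (h.proj l) (h.ortho l m hlm) ξ η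

lemma sum_apply (h : Part A e E) (ξ : H) : ∑ l, e l ξ = E ξ := by
  rw [← h.sum_eq, _root_.sum_apply]

lemma norm_sq (h : Part A e E) (ξ : H) : ∑ l, ‖e l ξ‖ ^ 2 = ‖E ξ‖ ^ 2 := by
  classical
  have h1 : ((‖E ξ‖ ^ 2 : ℝ) : ℂ) = ∑ l, ((‖e l ξ‖ ^ 2 : ℝ) : ℂ) := by
    rw [← proj_inner_self h.total_proj, ← h.sum_apply, inner_sum]
    exact Finset.sum_congr rfl fun l _ => proj_inner_self (h.proj l) ξ
  have h2 : ((‖E ξ‖ ^ 2 : ℝ) : ℂ) = ((∑ l, ‖e l ξ‖ ^ 2 : ℝ) : ℂ) := by
    rw [h1]; push_cast; rfl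
  exact (Complex.ofReal_injective h2).symm

end Part

lemma proj_sum {ι : Type*} (s : Finset ι) (g : ι → H →L[ℂ] H)
    (hp : ∀ l ∈ s, IsStarProjection (g l)) (ho : ∀ l ∈ s, ∀ m ∈ s, l ≠ m → g l * g m = 0) :
    IsStarProjection (∑ l ∈ s, g l) := by
  classical
  induction s using Finset.induction_on with
  | empty => simp
  | insert a s ha ih =>
    rw [Finset.sum_insert ha]
    refine (hp a (Finset.mem_insert_self a s)).add
      (ih (fun l hl => hp l (Finset.mem_insert_of_mem hl))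
        (fun l hl m hm => ho l (Finset.mem_insert_of_mem hl) m (Finset.mem_insert_of_mem hm))) ?_
    rw [Finset.mul_sum]
    refine Finset.sum_eq_zero fun m hm => ?_
    refine ho a (Finset.mem_insert_self a s) m (Finset.mem_insert_of_mem hm) ?_
    rintro rfl
    exact ha hm

lemma proj_mul_eq_zero_symm {e f : H →L[ℂ] H} (he : IsStarProjection e) (hf : IsStarProjection f)
    (h : e * f = 0) : f * e = 0 := by
  have := congrArg star h
  simpa [star_mul, he.isSelfAdjoint.star_eq, hf.isSelfAdjoint.star_eq] using this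

namespace Part

variable {A : VonNeumannAlgebra H} {ι : Type*} [Fintype ι] {e : ι → H →L[ℂ] H} {E : H →L[ℂ] H}
variable {ι' : Type*} [Fintype ι'] {e' : ι' → H →L[ℂ] H} {E' : H →L[ℂ] H}

lemma single {f : H →L[ℂ] H} (hf : f ∈ A) (hfp : IsStarProjection f) :
    Part A (fun _ : Unit => f) f where
  mem _ := hf
  proj _ := hfp
  ortho l m hlm := absurd (Subsingleton.elim l m) hlm
  sum_eq := by simp

lemma mulRight (hc : ∀ a ∈ A, ∀ b ∈ A, a * b = b * a) (h : Part A e E) {f : H →L[ℂ] H}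
    (hf : f ∈ A) (hfp : IsStarProjection f) : Part A (fun l => e l * f) (E * f) where
  mem l := mul_mem (h.mem l) hf
  proj l := (h.proj l).mul hfp (hc _ (h.mem l) _ hf)
  ortho l m hlm := by
    calc e l * f * (e m * f) = e l * (f * e m) * f := by simp only [mul_assoc]
      _ = e l * (e m * f) * f := by rw [hc _ hf _ (h.mem m)]
      _ = (e l * e m) * f * f := by simp only [mul_assoc]
      _ = 0 := by rw [h.ortho l m hlm]; simp
  sum_eq := by rw [← Finset.sum_mul, h.sum_eq]

lemma cross_zero (h : Part A e E) (h' : Part A e' E') (hEE : E * E' = 0) (l : ι) (m : ι') :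
    e l * e' m = 0 := by
  calc e l * e' m = (e l * E) * (E' * e' m) := by rw [h.mul_total, h'.total_mul]
    _ = e l * (E * E') * e' m := by simp only [mul_assoc]
    _ = 0 := by rw [hEE]; simp

lemma sumElim (h : Part A e E) (h' : Part A e' E') (hEE : E * E' = 0) :
    Part A (Sum.elim e e') (E + E') where
  mem l := by cases l <;> simp [h.mem, h'.mem]
  proj l := by cases l <;> simp [h.proj, h'.proj]
  ortho l m hlm := by
    rcases l with l | l <;> rcases m with m | m
    · exact h.ortho l m (fun hh => hlm (by rw [hh]))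
    · exact cross_zero h h' hEE l m
    · exact cross_zero h' h (proj_mul_eq_zero_symm h.total_proj h'.total_proj hEE) l m
    · exact h'.ortho l m (fun hh => hlm (by rw [hh]))
  sum_eq := by simp [Fintype.sum_sum_type, h.sum_eq, h'.sum_eq]

lemma prod (hc : ∀ a ∈ A, ∀ b ∈ A, a * b = b * a) (h : Part A e E) (h' : Part A e' E') :
    Part A (fun lm : ι × ι' => e lm.1 * e' lm.2) (E * E') where
  mem lm := mul_mem (h.mem _) (h'.mem _)
  proj lm := (h.proj _).mul (h'.proj _) (hc _ (h.mem _) _ (h'.mem _))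
  ortho lm lm' hne := by
    obtain ⟨l, m⟩ := lm
    obtain ⟨l', m'⟩ := lm'
    have key : e l * e' m * (e l' * e' m') = (e l * e l') * (e' m * e' m') := by
      calc e l * e' m * (e l' * e' m') = e l * (e' m * e l') * e' m' := by simp only [mul_assoc]
        _ = e l * (e l' * e' m) * e' m' := by rw [hc _ (h'.mem m) _ (h.mem l')]
        _ = (e l * e l') * (e' m * e' m') := by simp only [mul_assoc]
    show e l * e' m * (e l' * e' m') = 0
    rw [key]
    by_cases hl : l = l'
    · have hm : m ≠ m' := fun hm => hne (by rw [hl, hm])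
      rw [h'.ortho m m' hm, mul_zero]
    · rw [h.ortho l l' hl, zero_mul]
  sum_eq := by
    rw [Fintype.sum_prod_type, ← h.sum_eq, ← h'.sum_eq, Finset.sum_mul_sum]

lemma color {κ : Type*} [Fintype κ] [DecidableEq κ] (h : Part A e E) (c : ι → κ) :
    Part A (fun i => ∑ l with c l = i, e l) E where
  mem i := sum_mem fun l _ => h.mem l
  proj i := proj_sum _ _ (fun l _ => h.proj l) (fun l _ m _ hlm => h.ortho l m hlm)
  ortho i j hij := by
    rw [Finset.sum_mul_sum]
    refine Finset.sum_eq_zero fun l hl => Finset.sum_eq_zero fun m hm => ?_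
    refine h.ortho l m ?_
    rintro rfl
    simp only [Finset.mem_filter, Finset.mem_univ, true_and] at hl hm
    exact hij (hl.symm.trans hm)
  sum_eq := by
    rw [← h.sum_eq]
    exact Finset.sum_fiberwise Finset.univ c e

lemma glue_cross {κ : Type*} [Fintype κ] (h : Part A e E) {f : ι → κ → H →L[ℂ] H}
    (hf : ∀ l, Part A (f l) (e l)) {l m : ι} (hlm : l ≠ m) (i j : κ) : f l i * f m j = 0 :=
  cross_zero (hf l) (hf m) (h.ortho l m hlm) i j

lemma glue {κ : Type*} [Fintype κ] (h : Part A e E) {f : ι → κ → H →L[ℂ] H}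
    (hf : ∀ l, Part A (f l) (e l)) : Part A (fun i => ∑ l, f l i) E where
  mem i := sum_mem fun l _ => (hf l).mem i
  proj i := proj_sum _ _ (fun l _ => (hf l).proj i) (fun l _ m _ hlm => glue_cross h hf hlm i i)
  ortho i j hij := by
    classical
    rw [Finset.sum_mul_sum]
    refine Finset.sum_eq_zero fun l _ => Finset.sum_eq_zero fun m _ => ?_
    by_cases hlm : l = m
    · subst hlm; exact (hf l).ortho i j hij
    · exact glue_cross h hf hlm i j
  sum_eq := by
    rw [Finset.sum_comm, ← h.sum_eq]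
    exact Finset.sum_congr rfl fun l _ => (hf l).sum_eq

end Part

end Vale.Agent.P078
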