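import Vale.Agent.P078.Glue
import Vale.Agent.P078.Decomp

namespace Vale.Agent.P078

open scoped InnerProductSpace

variable {H : Type*} [NormedAddCommGroup H] [InnerProductSpace ℂ H] [CompleteSpace H]
variable {A M : VonNeumannAlgebra H}

/-- pavings of the corner `z` extend to `M` at the cost of `s > 1/ε` additional pieces as soon
as the complementary corner is nowhere expected -/
theorem reduction_upper (hA : IsMASA A M) {z : H →L[ℂ] H} (hzA : z ∈ A) (hz : IsStarProjection z)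
    (hnull : NullAt A M (1 - z)) {r s : ℕ} {ε : ℝ} (hs : 1 ≤ s) (hε : 1 / (s : ℝ) < ε)
    (hcorner : ∀ x ∈ M, IsSelfAdjoint x → z * x * z = x → SoPavableIn A M z x ε r)
    {x : H →L[ℂ] H} (hxM : x ∈ M) (hx : IsSelfAdjoint x) : SoPavable A M x ε (r + s) := by
  have hε0 : 0 ≤ ε := by
    have : (0 : ℝ) ≤ 1 / (s : ℝ) := by positivity
    linarith
  have hz' : IsStarProjection (1 - z) := hz.one_sub
  have hz'A : (1 - z) ∈ A := sub_mem (one_mem A) hzA
  have conj_conj : ∀ {e : H →L[ℂ] H}, IsStarProjection e → e * (e * x * e) * e = e * x * e := by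
    intro e he
    calc e * (e * x * e) * e = (e * e) * x * (e * e) := by simp only [mul_assoc]
      _ = e * x * e := by rw [he.isIdempotentElem.eq]
  refine glue_paving hz hε0
    (hcorner _ (mul_mem (mul_mem (hA.le hzA) hxM) (hA.le hzA)) (hx.conjugate_self hz.isSelfAdjoint)
      (conj_conj hz))
    (corner_upper hA hz'A hz' (thinAt_of_null hA hz'A hz' hnull)
      (mul_mem (mul_mem (hA.le hz'A) hxM) (hA.le hz'A)) (hx.conjugate_self hz'.isSelfAdjoint)
      (conj_conj hz') hs hε)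

/-- the same in terms of paving numbers -/
theorem reduction_number (hA : IsMASA A M) {z : H →L[ℂ] H} (hzA : z ∈ A)
    (hz : IsStarProjection z) (hnull : NullAt A M (1 - z)) {ε : ℝ} (hε : 0 < ε) :
    pavingNumber A M ε ≤ cornerPavingNumber A M z ε + (⌊1 / ε⌋₊ + 1 : ℕ) := by
  rw [← tsub_le_iff_right]
  unfold cornerPavingNumber
  refine le_sInf ?_
  rintro _ ⟨r, rfl, hr1, hr⟩
  rw [tsub_le_iff_right]
  have hs : 1 / ((⌊1 / ε⌋₊ + 1 : ℕ) : ℝ) < ε := by
    have h1 : 1 / ε < ((⌊1 / ε⌋₊ + 1 : ℕ) : ℝ) := by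
      push_cast
      exact Nat.lt_floor_add_one _
    have h2 : (0 : ℝ) < ((⌊1 / ε⌋₊ + 1 : ℕ) : ℝ) := by positivity
    rw [div_lt_iff₀ h2]
    rw [div_lt_iff₀ hε] at h1
    linarith
  unfold pavingNumber
  refine sInf_le ⟨r + (⌊1 / ε⌋₊ + 1), by push_cast; rfl, by omega, fun x hxM hx => ?_⟩
  exact reduction_upper hA hzA hz hnull (by omega) hs hr hxM hx

/-- the lower bound coming from a nonzero nowhere expected corner -/
theorem reduction_lower [Nontrivial H] (hA : IsMASA A M) {z : H →L[ℂ] H} (hzA : z ∈ A)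
    (hz : IsStarProjection z) (hnull : NullAt A M (1 - z)) (hz1 : z ≠ 1) {r : ℕ} (hr : 1 ≤ r)
    {ε : ℝ} (hε : ε < 1 / (r : ℝ)) : ∃ x ∈ M, IsSelfAdjoint x ∧ ¬ SoPavable A M x ε r := by
  have hz' : IsStarProjection (1 - z) := hz.one_sub
  have hz'A : (1 - z) ∈ A := sub_mem (one_mem A) hzA
  have hthin := thinAt_of_null hA hz'A hz' hnull
  have hDpos : 0 < 1 / (r : ℝ) - ε := sub_pos.mpr hε
  obtain ⟨y, hy⟩ : ∃ y, (1 - z) y ≠ 0 := by
    by_contra hcon
    push Not at hcon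
    apply hz1
    have : (1 - z : H →L[ℂ] H) = 0 := ContinuousLinearMap.ext fun v => by simpa using hcon v
    exact (sub_eq_zero.mp this).symm
  obtain ⟨e0, G, he0M, he0p, -, he0F, hGη⟩ := hthin {(1 - z) y} (‖(1 - z) y‖)
    (min 1 ((1 / r - ε) / 4))
    (fun ξ hξ => by rw [Finset.mem_singleton.mp hξ]; exact proj_apply_apply hz' y)
    (norm_pos_iff.mpr hy) (lt_min one_pos (by positivity))
  refine lower_local hA hr hε G he0M he0p (fun h0 => ?_) hGη
  have := he0F _ (Finset.mem_singleton_self _)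
  rw [h0, sub_zero, one_apply_eq_self] at this
  exact lt_irrefl _ this

lemma ne_of_null_one (h : NullAt A M 1) : NowhereExpected A M :=
  fun ψ hpos hnorm hcen _ hy => hpos.eq_zero (h ψ hpos hnorm hcen) hy

/-- the exact paving number of a nowhere expected MASA -/
theorem paving_formula [Nontrivial H] (hA : IsMASA A M) (hne : NowhereExpected A M) {ε : ℝ}
    (h0 : 0 < ε) (hk : ∀ k : ℕ, (k : ℝ) * ε ≠ 1) :
    pavingNumber A M ε = (⌈1 / ε⌉₊ : ℕ) := by
  have hthin : Thin A M := thin_of_ne hA hne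
  have hinv : 0 < 1 / ε := by positivity
  have hR1 : 1 ≤ ⌈1 / ε⌉₊ := Nat.ceil_pos.mpr hinv
  have hRpos : (0 : ℝ) < (⌈1 / ε⌉₊ : ℝ) := by exact_mod_cast hR1
  have hRgt : 1 / ε < (⌈1 / ε⌉₊ : ℝ) := by
    refine lt_of_le_of_ne (Nat.le_ceil _) fun h => hk ⌈1 / ε⌉₊ ?_
    rw [← h]
    field_simp
  unfold pavingNumber
  apply le_antisymm
  · refine sInf_le ⟨⌈1 / ε⌉₊, rfl, hR1, fun x hxM hx => upper_gen hA hthin hxM hx hR1 ?_⟩
    rw [div_lt_iff₀ hRpos]
    rw [div_lt_iff₀ h0] at hRgt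
    linarith
  · refine le_sInf ?_
    rintro _ ⟨r, rfl, hr1, hr⟩
    by_contra hlt
    have hlt' : r < ⌈1 / ε⌉₊ := by
      have := not_le.mp hlt
      exact_mod_cast this
    have h1 : (r : ℝ) < 1 / ε := Nat.lt_ceil.mp hlt'
    have hrpos : (0 : ℝ) < r := by exact_mod_cast hr1
    have h2 : ε < 1 / (r : ℝ) := by
      rw [lt_div_iff₀ hrpos]
      rw [lt_div_iff₀ h0] at h1
      linarith
    obtain ⟨x, hxM, hx, hnot⟩ := lower_gen hA hthin hr1 h2
    exact hnot (hr x hxM hx)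

end Vale.Agent.P078
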