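import Vale.Agent.P078.Color

namespace Vale.Agent.P078

open scoped InnerProductSpace

variable {H : Type*} [NormedAddCommGroup H] [InnerProductSpace ℂ H] [CompleteSpace H]
variable {A : VonNeumannAlgebra H}

/-- the defect of the off-diagonal entry `(l, m)` -/
noncomputable def defect {ι : Type*} {r : ℕ} (x : H →L[ℂ] H) (u : ι → H)
    (f : ι → Fin r → H →L[ℂ] H) (l m : ι) : ℂ :=
  ∑ i, ⟪f l i (u l), x (f m i (u m))⟫_ℂ - ((1 / r : ℝ) : ℂ) * ⟪u l, x (u m)⟫_ℂ

lemma defect_conj {ι : Type*} {r : ℕ} {x : H →L[ℂ] H} (hx : IsSelfAdjoint x) (u : ι → H)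
    (f : ι → Fin r → H →L[ℂ] H) (l m : ι) :
    defect x u f m l = (starRingEnd ℂ) (defect x u f l m) := by
  unfold defect
  rw [map_sub, map_mul, map_sum, Complex.conj_ofReal]
  congr 1
  · refine Finset.sum_congr rfl fun i _ => ?_
    rw [inner_conj_symm, sa_inner hx]
  · rw [inner_conj_symm, sa_inner hx]

lemma defect_norm_symm {ι : Type*} {r : ℕ} {x : H →L[ℂ] H} (hx : IsSelfAdjoint x) (u : ι → H)
    (f : ι → Fin r → H →L[ℂ] H) (l m : ι) : ‖defect x u f m l‖ = ‖defect x u f l m‖ := by
  rw [defect_conj hx, RCLike.norm_conj]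

theorem exists_family (hA : Ctx A) (hd : IsDiffuse A) {ι : Type*} [Fintype ι]
    {e : ι → H →L[ℂ] H} (he : Part A e 1) (u : ι → H) (hu : ∀ l, e l (u l) = u l)
    {x : H →L[ℂ] H} (hx : IsSelfAdjoint x) {η : ℝ} (hη : 0 < η) {r : ℕ} (hr : 0 < r)
    (T : Finset ι) :
    ∃ f : ι → Fin r → H →L[ℂ] H, (∀ l, Part A (f l) (e l)) ∧
      ∀ l ∈ T, ∀ m ∈ T, l ≠ m → ‖defect x u f l m‖ ≤ η := by
  classical
  induction T using Finset.induction_on with
  | empty =>
    have h := fun l => split hA hd (he.mem l) (he.proj l) (u l) (fun _ : Fin 0 => (0 : H)) hη hr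
    choose f hf _ using h
    exact ⟨f, hf, by simp⟩
  | insert l0 T hl0 ih =>
    obtain ⟨f, hf, hdef⟩ := ih
    have hrpos : (0 : ℝ) < r := by exact_mod_cast hr
    obtain ⟨f0, hf0, hs⟩ := split hA hd (he.mem l0) (he.proj l0) (u l0)
      (fun mi : ι × Fin r => x (f mi.1 mi.2 (u mi.1))) (η := η / r) (by positivity) hr
    refine ⟨Function.update f l0 f0, ?_, ?_⟩
    · intro l
      by_cases hl : l = l0
      · subst hl; rw [Function.update_self]; exact hf0
      · rw [Function.update_of_ne hl]; exact hf l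
    · have hkey : ∀ m ∈ T, ‖defect x u (Function.update f l0 f0) m l0‖ ≤ η := by
        intro m hm
        have hml : m ≠ l0 := fun h => hl0 (h ▸ hm)
        unfold defect
        rw [Function.update_self, Function.update_of_ne hml]
        have h1 : ((1 / r : ℝ) : ℂ) * ⟪u m, x (u l0)⟫_ℂ
            = ∑ i, ((1 / r : ℝ) : ℂ) * ⟪x (f m i (u m)), e l0 (u l0)⟫_ℂ := by
          rw [← Finset.mul_sum, ← sum_inner, ← map_sum, (hf m).sum_apply, hu m, hu l0, sa_inner hx]
        rw [h1, ← Finset.sum_sub_distrib]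
        calc ‖∑ i, (⟪f m i (u m), x (f0 i (u l0))⟫_ℂ
                - ((1 / r : ℝ) : ℂ) * ⟪x (f m i (u m)), e l0 (u l0)⟫_ℂ)‖
            ≤ ∑ i : Fin r, ‖⟪f m i (u m), x (f0 i (u l0))⟫_ℂ
                - ((1 / r : ℝ) : ℂ) * ⟪x (f m i (u m)), e l0 (u l0)⟫_ℂ‖ := norm_sum_le _ _
          _ ≤ ∑ _i : Fin r, η / r := by
              refine Finset.sum_le_sum fun i _ => ?_
              rw [← sa_inner hx]
              exact hs (m, i) i
          _ = η := by
              simp only [Finset.sum_const, Finset.card_univ, Fintype.card_fin, nsmul_eq_mul]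
              field_simp
      intro l hl m hm hlm
      rcases Finset.mem_insert.mp hl with rfl | hl'
      · rcases Finset.mem_insert.mp hm with rfl | hm'
        · exact absurd rfl hlm
        · rw [defect_norm_symm hx]; exact hkey m hm'
      · rcases Finset.mem_insert.mp hm with rfl | hm'
        · exact hkey l hl'
        · have hl1 : l ≠ l0 := fun h => hl0 (h ▸ hl')
          have hm1 : m ≠ l0 := fun h => hl0 (h ▸ hm')
          have : defect x u (Function.update f l0 f0) l m = defect x u f l m := by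
            unfold defect
            rw [Function.update_of_ne hl1, Function.update_of_ne hm1]
          rw [this]
          exact hdef l hl' m hm' hlm

theorem exists_partition (hA : Ctx A) (hd : IsDiffuse A) {ι : Type*} [Fintype ι]
    {e : ι → H →L[ℂ] H} (he : Part A e 1) (u : ι → H) (hu : ∀ l, e l (u l) = u l)
    {x : H →L[ℂ] H} (hx : IsSelfAdjoint x) {η : ℝ} (hη : 0 < η) {r : ℕ} (hr : 0 < r) :
    ∃ p : Fin r → H →L[ℂ] H, Part A p 1 ∧ ∀ l m, l ≠ m →
      ‖∑ i, ⟪p i (u l), x (p i (u m))⟫_ℂ - ((1 / r : ℝ) : ℂ) * ⟪u l, x (u m)⟫_ℂ‖ ≤ η := by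
  classical
  obtain ⟨f, hf, hdef⟩ := exists_family hA hd he u hu hx hη hr Finset.univ
  refine ⟨fun i => ∑ l, f l i, he.glue hf, ?_⟩
  have hp : ∀ i l, (∑ m, f m i) (u l) = f l i (u l) := by
    intro i l
    rw [_root_.sum_apply, Finset.sum_eq_single l]
    · intro m _ hml
      have h0 : f m i * e l = 0 := by
        calc f m i * e l = f m i * e m * e l := by rw [(hf m).mul_total]
          _ = f m i * (e m * e l) := mul_assoc _ _ _
          _ = 0 := by rw [he.ortho m l hml, mul_zero]
      have := congrArg (fun T : H →L[ℂ] H => T (u l)) h0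
      simp only [mul_apply_eq_comp, zero_apply] at this
      rwa [hu l] at this
    · intro h; exact absurd (Finset.mem_univ l) h
  intro l m hlm
  have := hdef l (Finset.mem_univ l) m (Finset.mem_univ m) hlm
  unfold defect at this
  simpa only [hp] using this

end Vale.Agent.P078
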