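import Vale.Agent.P078.NEThin
import Vale.Agent.P078.Frame

namespace Vale.Agent.P078

open scoped InnerProductSpace
open InnerProductSpace

variable {H : Type*} [NormedAddCommGroup H] [InnerProductSpace ℂ H] [CompleteSpace H]
variable {A M : VonNeumannAlgebra H}

/-- a diffuse maximal abelian subalgebra of the algebra of all bounded operators is thin -/
theorem thin_of_diffuse (hA : Ctx A) (hd : IsDiffuse A) (hM : ∀ y : H →L[ℂ] H, y ∈ M) :
    Thin A M := by
  classical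
  intro F δ η hδ hη
  have hc : Comm A := hA.comm
  obtain ⟨n, e, u, hfr, hF⟩ := exists_frame hA F hδ
  have hfine : ∀ l : Fin n, ∃ R : FP A, ∀ t, ‖R.g t (u l)‖ ^ 2 ≤ η ^ 2 := by
    intro l
    obtain ⟨τ, _, g, hg, hs⟩ := exists_fine hA hd (u l) (η := η ^ 2) (by positivity)
    exact ⟨FP.ofPart hg, fun t => hs _⟩
  choose R hR using hfine
  set P0 : FP A := ⟨n, e, hfr.part⟩ with hP0
  refine ⟨∑ l, rankOne ℂ (u l) (u l), FP.sigma hc P0 R, hM _, hfr.proj, hF, fun s => ?_⟩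
  set jt := (Fintype.equivFin ((j : Fin P0.n) × Fin (R j).n)).symm s with hjt
  have hcell : (FP.sigma hc P0 R).g s = e jt.1 * (R jt.1).g jt.2 := rfl
  have hmul : ∀ (T : H →L[ℂ] H) (v w : H), T * rankOne ℂ v w = rankOne ℂ (T v) w := by
    intro T v w
    ext z
    simp [mul_apply_eq_comp]
  have hcomp : e jt.1 * (R jt.1).g jt.2 * ∑ m, rankOne ℂ (u m) (u m)
      = rankOne ℂ ((R jt.1).g jt.2 (u jt.1)) (u jt.1) := by
    rw [hc _ (hfr.part.mem jt.1) _ ((R jt.1).part.mem jt.2), Finset.mul_sum,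
      Finset.sum_eq_single jt.1]
    · rw [hmul, mul_apply_eq_comp, hfr.fix]
    · intro m _ hm
      rw [hmul, mul_apply_eq_comp]
      have : e jt.1 (u m) = 0 := by
        rw [← hfr.fix m, ← mul_apply_eq_comp, hfr.part.ortho _ _ (Ne.symm hm), zero_apply]
      rw [this, map_zero]
      simp
    · intro h; exact absurd (Finset.mem_univ _) h
  rw [hcell, hcomp, norm_rankOne]
  have h1 : ‖(R jt.1).g jt.2 (u jt.1)‖ ≤ η := abs_le_of_sq_le_sq' (hR jt.1 jt.2) hη.le |>.2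
  calc ‖(R jt.1).g jt.2 (u jt.1)‖ * ‖u jt.1‖ ≤ η * 1 :=
        mul_le_mul h1 (hfr.norm_le _) (norm_nonneg _) hη.le
    _ = η := mul_one _

theorem ne_of_diffuse (hM : ∀ y : H →L[ℂ] H, y ∈ M) (hA : IsMASA A M) (hd : IsDiffuse A) :
    NowhereExpected A M :=
  ne_of_thin hA (thin_of_diffuse
    ⟨fun a ha b hb => ((hA b).mp hb).2 a ha, fun x hx => (hA x).mpr ⟨hM x, hx⟩⟩ hd hM)

end Vale.Agent.P078
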