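import Vale.Agent.P078.UpperGen

namespace Vale.Agent.P078

open scoped InnerProductSpace
open Filter

variable {H : Type*} [NormedAddCommGroup H] [InnerProductSpace ℂ H] [CompleteSpace H]
variable {A M : VonNeumannAlgebra H}

lemma compress_le {f Y : H →L[ℂ] H} (hf : IsStarProjection f) (hY : 0 ≤ Y) (hc : Y * f = f * Y) :
    f * Y * f ≤ Y := by
  have hff : f * f = f := hf.isIdempotentElem.eq
  have hgg : (1 - f) * (1 - f) = 1 - f := hf.one_sub.isIdempotentElem.eq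
  have hdecomp : Y = f * Y * f + (1 - f) * Y * (1 - f) := by
    have h1 : f * Y * f = Y * f := by rw [← hc, mul_assoc, hff]
    have h2 : (1 - f) * Y * (1 - f) = Y * (1 - f) := by
      have : (1 - f) * Y = Y * (1 - f) := by
        rw [sub_mul, mul_sub, one_mul, mul_one, hc]
      rw [this, mul_assoc, hgg]
    rw [h1, h2, ← mul_add]
    simp
  have p2 : 0 ≤ (1 - f) * Y * (1 - f) := IsSelfAdjoint.conjugate_nonneg hY hf.one_sub.isSelfAdjoint
  nth_rewrite 2 [hdecomp]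
  exact le_add_of_nonneg_right p2

/-- the spectral projection of `Y` for the interval `[1/2, 1]` -/
lemma cut_half (M : VonNeumannAlgebra H) {Y : H →L[ℂ] H} (hYM : Y ∈ M) (h0 : 0 ≤ Y) (h1 : Y ≤ 1) :
    ∃ q ∈ M, IsStarProjection q ∧ q ≤ (2 : ℂ) • Y ∧ 1 - q ≤ (2 : ℂ) • (1 - Y) ∧
      ∀ z : H →L[ℂ] H, z * Y = Y * z → z * q = q * z := by
  obtain ⟨f, hfM, hf, c1, c2, -, c5⟩ :=
    cut_mem M (sub_mem (one_mem M) hYM) (sub_nonneg.mpr h1) (1 / 2)
  have hcomm : ∀ z : H →L[ℂ] H, z * Y = Y * z → z * f = f * z := by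
    intro z hz
    refine c5 z ?_
    rw [mul_sub, sub_mul, hz, mul_one, one_mul]
  have hff : f * f = f := hf.isIdempotentElem.eq
  have two_half : ∀ T : H →L[ℂ] H, (2 : ℂ) • (((1 / 2 : ℝ) : ℂ) • T) = T := by
    intro T
    rw [smul_smul]
    norm_num
  have hsm : ∀ {S T : H →L[ℂ] H}, S ≤ T → (2 : ℂ) • S ≤ (2 : ℂ) • T := by
    intro S T hST
    rw [two_smul, two_smul]
    exact add_le_add hST hST
  refine ⟨f, hfM, hf, ?_, ?_, hcomm⟩
  · have e1 : f * (1 - Y) * f = f - f * Y * f := by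
      rw [mul_sub, sub_mul, mul_one, hff]
    rw [e1] at c1
    have e2 : ((1 / 2 : ℝ) : ℂ) • f ≤ f * Y * f := by
      have h3 : f - ((1 / 2 : ℝ) : ℂ) • f = ((1 / 2 : ℝ) : ℂ) • f := by
        nth_rewrite 1 [← two_half f]
        rw [two_smul]
        abel
      rw [← h3]
      rw [sub_le_iff_le_add] at c1 ⊢
      rwa [add_comm]
    have e3 := hsm (e2.trans (compress_le hf h0 (hcomm Y rfl)))
    rwa [two_half] at e3
  · have e3 := hsm c2
    rwa [two_half] at e3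

omit [InnerProductSpace ℂ H] [CompleteSpace H] in
lemma norm_sq_sub_le {ξ v : H} (h : ‖v‖ ≤ ‖ξ‖) : ‖ξ‖ ^ 2 - ‖v‖ ^ 2 ≤ 2 * ‖ξ‖ * ‖ξ - v‖ := by
  have h1 : ‖ξ‖ - ‖v‖ ≤ ‖ξ - v‖ := norm_sub_norm_le ξ v
  have h2 : 0 ≤ ‖ξ‖ - ‖v‖ := sub_nonneg.mpr h
  nlinarith [norm_nonneg ξ, norm_nonneg v, norm_nonneg (ξ - v)]

namespace FP

lemma cell_mul_pin (P : FP A) (j : Fin P.n) (y : H →L[ℂ] H) :
    P.g j * P.pin y = P.g j * y * P.g j := by
  classical
  unfold pin pinching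
  rw [Finset.mul_sum, Finset.sum_eq_single j]
  · rw [← mul_assoc, ← mul_assoc, (P.part.proj j).isIdempotentElem.eq]
  · intro k _ hk
    rw [← mul_assoc, ← mul_assoc, P.part.ortho j k (Ne.symm hk)]
    simp
  · intro h; exact absurd (Finset.mem_univ j) h

lemma pin_mul_cell (P : FP A) (j : Fin P.n) (y : H →L[ℂ] H) :
    P.pin y * P.g j = P.g j * y * P.g j := by
  classical
  unfold pin pinching
  rw [Finset.sum_mul, Finset.sum_eq_single j]
  · rw [mul_assoc, (P.part.proj j).isIdempotentElem.eq]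
  · intro k _ hk
    rw [mul_assoc, P.part.ortho k j hk]
    simp
  · intro h; exact absurd (Finset.mem_univ j) h

lemma cell_le_pin (P : FP A) (j : Fin P.n) {y : H →L[ℂ] H} (hy : 0 ≤ y) :
    P.g j * y * P.g j ≤ P.pin y := by
  unfold pin pinching
  exact Finset.single_le_sum (f := fun t => P.g t * y * P.g t)
    (fun t _ => IsSelfAdjoint.conjugate_nonneg hy (P.part.proj t).isSelfAdjoint) (Finset.mem_univ j)

end FP

/-- thinness in mean -/
def L1Thin (A M : VonNeumannAlgebra H) : Prop :=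
  ∀ (F : Finset H) (δ κ : ℝ), 0 < δ → 0 < κ →
    ∃ (q : H →L[ℂ] H) (P : FP A), q ∈ M ∧ IsStarProjection q ∧ (∀ ξ ∈ F, ‖(1 - q) ξ‖ < δ) ∧
      ∑ ξ ∈ F, (⟪ξ, P.pin q ξ⟫_ℂ).re < κ

theorem thin_of_l1 (hA : IsMASA A M) (h : L1Thin A M) : Thin A M := by
  classical
  intro F δ η hδ hη
  set R : ℝ := 1 + ∑ ξ ∈ F, ‖ξ‖ with hR
  have hR1 : 1 ≤ R := by
    have : 0 ≤ ∑ ξ ∈ F, ‖ξ‖ := Finset.sum_nonneg fun _ _ => norm_nonneg _
    linarith
  have hRξ : ∀ ξ ∈ F, ‖ξ‖ ≤ R := by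
    intro ξ hξ
    have := Finset.single_le_sum (f := fun ξ : H => ‖ξ‖) (fun _ _ => norm_nonneg _) hξ
    linarith
  set ρ : ℝ := δ ^ 2 / (16 * R) with hρ
  have hρpos : 0 < ρ := by positivity
  set η1 : ℝ := η ^ 2 / 2 with hη1
  have hη1pos : 0 < η1 := by positivity
  obtain ⟨q0, P, hq0M, hq0, hq0F, hsum⟩ := h F ρ (η1 * ρ ^ 2) hρpos (by positivity)
  set b : H →L[ℂ] H := P.pin q0 with hb
  have hb0 : 0 ≤ b := P.pin_nonneg hq0.nonneg
  have hbM : b ∈ M := P.pin_mem hA hq0M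
  obtain ⟨f, hfM, hf, c1, c2, -, c5⟩ := cut_mem M hbM hb0 η1
  have hfP : ∀ j, P.g j * f = f * P.g j := fun j => c5 _ (by
    rw [hb, FP.cell_mul_pin, FP.pin_mul_cell])
  set Y : H →L[ℂ] H := f * q0 * f with hY
  have hYM : Y ∈ M := mul_mem (mul_mem hfM hq0M) hfM
  have hY0 : 0 ≤ Y := IsSelfAdjoint.conjugate_nonneg hq0.nonneg hf.isSelfAdjoint
  have hY1 : Y ≤ 1 := by
    have h1 : q0 ≤ 1 := hq0.le_one
    have h2 := IsSelfAdjoint.conjugate_le_conjugate h1 hf.isSelfAdjoint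
    rw [mul_one, hf.isIdempotentElem.eq] at h2
    exact h2.trans hf.le_one
  obtain ⟨q, hqM, hq, d1, d2, -⟩ := cut_half M hYM hY0 hY1
  refine ⟨q, P, hqM, hq, ?_, ?_⟩
  · intro ξ hξ
    have hfξ : ‖(1 - f) ξ‖ ≤ ρ := by
      have h1 := le_inner c2 ξ
      have e1 : (⟪ξ, ((η1 : ℂ) • (1 - f)) ξ⟫_ℂ).re = η1 * ‖(1 - f) ξ‖ ^ 2 := by
        rw [smul_apply, inner_smul_right, proj_inner_self hf.one_sub, ← Complex.ofReal_mul,
          Complex.ofReal_re]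
      have h2 : (⟪ξ, b ξ⟫_ℂ).re ≤ ∑ ξ ∈ F, (⟪ξ, b ξ⟫_ℂ).re :=
        Finset.single_le_sum (f := fun ξ : H => (⟪ξ, b ξ⟫_ℂ).re) (fun ζ _ => by
          have := le_inner hb0 ζ
          simpa using this) hξ
      rw [e1] at h1
      have h3 : η1 * ‖(1 - f) ξ‖ ^ 2 ≤ η1 * ρ ^ 2 := by linarith
      have h4 : ‖(1 - f) ξ‖ ^ 2 ≤ ρ ^ 2 := le_of_mul_le_mul_left h3 hη1pos
      exact abs_le_of_sq_le_sq' h4 hρpos.le |>.2
    have h5 := le_inner d2 ξ
    have e2 : (⟪ξ, (1 - q) ξ⟫_ℂ).re = ‖(1 - q) ξ‖ ^ 2 := by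
      rw [proj_inner_self hq.one_sub, Complex.ofReal_re]
    have e3 : (⟪ξ, ((2 : ℂ) • (1 - Y)) ξ⟫_ℂ).re = 2 * (‖ξ‖ ^ 2 - ‖q0 (f ξ)‖ ^ 2) := by
      have e4 : ⟪ξ, Y ξ⟫_ℂ = ((‖q0 (f ξ)‖ ^ 2 : ℝ) : ℂ) := by
        rw [hY]
        show ⟪ξ, f (q0 (f ξ))⟫_ℂ = _
        rw [← proj_inner hf, proj_inner_self hq0]
      rw [smul_apply, inner_smul_right, sub_apply, one_apply_eq_self, inner_sub_right, e4,
        inner_self_eq_norm_sq_to_K]
      have h3 : ((‖ξ‖ : ℂ) ^ 2) = ((‖ξ‖ ^ 2 : ℝ) : ℂ) := by push_cast; rfl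
      erw [h3]
      rw [← Complex.ofReal_sub, show (2 : ℂ) = ((2 : ℝ) : ℂ) by norm_num, ← Complex.ofReal_mul,
        Complex.ofReal_re]
    rw [e2, e3] at h5
    have h6 : ‖q0 (f ξ)‖ ≤ ‖ξ‖ := (proj_norm_le hq0 _).trans (proj_norm_le hf _)
    have h7 := norm_sq_sub_le h6
    have h8 : ‖ξ - q0 (f ξ)‖ ≤ ρ + ρ := by
      have : ξ - q0 (f ξ) = (1 - q0) ξ + q0 ((1 - f) ξ) := by
        simp only [sub_apply, one_apply_eq_self, map_sub]
        abel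
      rw [this]
      calc ‖(1 - q0) ξ + q0 ((1 - f) ξ)‖ ≤ ‖(1 - q0) ξ‖ + ‖q0 ((1 - f) ξ)‖ := norm_add_le _ _
        _ ≤ ρ + ρ := add_le_add (hq0F ξ hξ).le ((proj_norm_le hq0 _).trans hfξ)
    have h9 : ‖(1 - q) ξ‖ ^ 2 < δ ^ 2 := by
      have h10 : 2 * ‖ξ‖ * ‖ξ - q0 (f ξ)‖ ≤ 2 * R * (ρ + ρ) := by
        have := hRξ ξ hξ
        gcongr
      have h11 : 2 * (2 * R * (ρ + ρ)) = δ ^ 2 / 2 := by
        rw [hρ]; field_simp; ring
      have : 0 < δ ^ 2 := by positivity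
      linarith
    exact abs_lt_of_sq_lt_sq' h9 hδ.le |>.2
  · intro j
    have hPj := P.part.proj j
    have e1 : ‖P.g j * q‖ * ‖P.g j * q‖ = ‖P.g j * q * P.g j‖ := by
      rw [← CStarRing.norm_self_mul_star, star_mul, hq.isSelfAdjoint.star_eq,
        hPj.isSelfAdjoint.star_eq]
      congr 1
      calc P.g j * q * (q * P.g j) = P.g j * (q * q) * P.g j := by simp only [mul_assoc]
        _ = _ := by rw [hq.isIdempotentElem.eq]
    have e2 : P.g j * q * P.g j ≤ ((η ^ 2 : ℝ) : ℂ) • (1 : H →L[ℂ] H) := by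
      have s1 := IsSelfAdjoint.conjugate_le_conjugate d1 hPj.isSelfAdjoint
      have s2 : P.g j * ((2 : ℂ) • Y) * P.g j = (2 : ℂ) • (f * (P.g j * q0 * P.g j) * f) := by
        rw [mul_smul_comm, smul_mul_assoc, hY]
        congr 1
        calc P.g j * (f * q0 * f) * P.g j = (P.g j * f) * q0 * (f * P.g j) := by
              simp only [mul_assoc]
          _ = (f * P.g j) * q0 * (P.g j * f) := by rw [hfP j]
          _ = _ := by simp only [mul_assoc]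
      have s3 : f * (P.g j * q0 * P.g j) * f ≤ (η1 : ℂ) • f :=
        (IsSelfAdjoint.conjugate_le_conjugate (P.cell_le_pin j hq0.nonneg) hf.isSelfAdjoint).trans c1
      have s4 : (η1 : ℂ) • f ≤ (η1 : ℂ) • (1 : H →L[ℂ] H) := by
        rw [← sub_nonneg, ← smul_sub]
        have : 0 ≤ (1 - f : H →L[ℂ] H) := hf.one_sub.nonneg
        rw [ContinuousLinearMap.nonneg_iff_isPositive] at this ⊢
        exact this.smul_of_nonneg (by exact_mod_cast hη1pos.le)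
      rw [s2] at s1
      refine s1.trans ?_
      have s5 : (2 : ℂ) • (f * (P.g j * q0 * P.g j) * f) ≤ (2 : ℂ) • ((η1 : ℂ) • (1 : H →L[ℂ] H)) := by
        rw [two_smul, two_smul]
        exact add_le_add (s3.trans s4) (s3.trans s4)
      refine s5.trans (le_of_eq ?_)
      rw [smul_smul, hη1]
      congr 1
      push_cast
      ring
    have e3 : ‖P.g j * q * P.g j‖ ≤ η ^ 2 := by
      have h0 : 0 ≤ P.g j * q * P.g j := IsSelfAdjoint.conjugate_nonneg hq.nonneg hPj.isSelfAdjoint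
      exact (CStarAlgebra.norm_le_norm_of_nonneg_of_le h0 e2).trans
        (norm_real_smul_proj_le (IsStarProjection.one _) (by positivity))
    have e4 : ‖P.g j * q‖ ^ 2 ≤ η ^ 2 := by rw [sq, e1]; exact e3
    exact abs_le_of_sq_le_sq' e4 hη.le |>.2

end Vale.Agent.P078
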