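import Vale.Agent.P078.ThinL1
import Vale.Agent.P078.NormalPart
import Vale.Agent.P078.Defs2

namespace Vale.Agent.P078

open scoped InnerProductSpace ComplexOrder
open Filter

variable {H : Type*} [NormedAddCommGroup H] [InnerProductSpace ℂ H] [CompleteSpace H]
variable {A M : VonNeumannAlgebra H}

/-- the functional `y ↦ ∑ ⟪ξ, Φ y ξ⟫` -/
noncomputable def ceFun {U : Ultrafilter (FP A)} {Φ : (H →L[ℂ] H) → (H →L[ℂ] H)} (h : CE A U Φ)
    (F : Finset H) : (H →L[ℂ] H) →ₗ[ℂ] ℂ where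
  toFun y := ∑ ξ ∈ F, ⟪ξ, Φ y ξ⟫_ℂ
  map_add' y y' := by
    rw [← Finset.sum_add_distrib]
    refine Finset.sum_congr rfl fun ξ _ => ?_
    rw [h.add, add_apply, inner_add_right]
  map_smul' c y := by
    rw [RingHom.id_apply, Finset.smul_sum]
    refine Finset.sum_congr rfl fun ξ _ => ?_
    rw [h.smul, smul_apply, inner_smul_right, smul_eq_mul]

lemma ceFun_apply {U : Ultrafilter (FP A)} {Φ : (H →L[ℂ] H) → (H →L[ℂ] H)} (h : CE A U Φ)
    (F : Finset H) (y : H →L[ℂ] H) : ceFun h F y = ∑ ξ ∈ F, ⟪ξ, Φ y ξ⟫_ℂ := rfl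

lemma ceFun_PF {U : Ultrafilter (FP A)} {Φ : (H →L[ℂ] H) → (H →L[ℂ] H)} (h : CE A U Φ)
    (F : Finset H) : PF (ceFun h F) where
  pos y hy := by
    have h1 : ∀ ξ, 0 ≤ ⟪ξ, Φ y ξ⟫_ℂ := by
      intro ξ
      have := h.nonneg hy
      rw [ContinuousLinearMap.nonneg_iff_isPositive] at this
      exact this.inner_nonneg_right ξ
    have h2 : 0 ≤ ceFun h F y := Finset.sum_nonneg fun ξ _ => h1 ξ
    rw [Complex.le_def] at h2
    exact ⟨h2.1, h2.2.symm⟩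
  herm y := by
    rw [ceFun_apply, ceFun_apply, map_sum]
    refine Finset.sum_congr rfl fun ξ _ => ?_
    rw [h.map_star, ContinuousLinearMap.star_eq_adjoint, ContinuousLinearMap.adjoint_inner_right,
      inner_conj_symm]

/-- a bounded functional commuting with the projections of `A` has `A` in its centralizer -/
lemma central_of_proj (hc : Comm A) {ψ : (H →L[ℂ] H) →ₗ[ℂ] ℂ} {C : ℝ}
    (hb : ∀ w, ‖ψ w‖ ≤ ‖w‖ * C) {y : H →L[ℂ] H}
    (hp : ∀ e ∈ A, IsStarProjection e → ψ (e * y) = ψ (y * e)) {a : H →L[ℂ] H} (ha : a ∈ A) :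
    ψ (a * y) = ψ (y * a) := by
  have hC : 0 ≤ ‖(1 : H →L[ℂ] H)‖ * C := (norm_nonneg _).trans (hb 1)
  rw [← sub_eq_zero, ← norm_le_zero_iff]
  refine le_of_forall_pos_le_add fun δ hδ => ?_
  set K : ℝ := 2 * ‖y‖ * |C| + 1 with hK
  have hKpos : 0 < K := by positivity
  obtain ⟨s, hs, hle⟩ := Gen.approx hc ha (δ := δ / K) (by positivity)
  have hsy : ψ (s * y) = ψ (y * s) := by
    obtain ⟨ι, _, e, γ, he, rfl⟩ := hs
    rw [Finset.sum_mul, Finset.mul_sum, map_sum, map_sum]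
    refine Finset.sum_congr rfl fun l _ => ?_
    rw [smul_mul_assoc, mul_smul_comm, map_smul, map_smul, hp _ (he.mem l) (he.proj l)]
  have e1 : ψ (a * y) - ψ (y * a) = ψ ((a - s) * y) - ψ (y * (a - s)) := by
    rw [sub_mul, mul_sub, map_sub, map_sub, hsy]; ring
  rw [e1, zero_add]
  have b1 : ∀ w, ‖ψ w‖ ≤ ‖w‖ * |C| := fun w =>
    (hb w).trans (mul_le_mul_of_nonneg_left (le_abs_self C) (norm_nonneg _))
  calc ‖ψ ((a - s) * y) - ψ (y * (a - s))‖ ≤ ‖ψ ((a - s) * y)‖ + ‖ψ (y * (a - s))‖ :=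
        norm_sub_le _ _
    _ ≤ ‖(a - s) * y‖ * |C| + ‖y * (a - s)‖ * |C| := add_le_add (b1 _) (b1 _)
    _ ≤ (‖a - s‖ * ‖y‖) * |C| + (‖y‖ * ‖a - s‖) * |C| := by
        gcongr <;> exact norm_mul_le _ _
    _ = ‖a - s‖ * (2 * ‖y‖ * |C|) := by ring
    _ ≤ δ / K * K := by
        gcongr
        rw [hK]; linarith
    _ = δ := by field_simp

lemma symm_of_proj {e : H →L[ℂ] H} (he : e ∈ A) (hep : IsStarProjection e) :
    (1 - (2 : ℂ) • e) ∈ A ∧ IsSelfAdjoint (1 - (2 : ℂ) • e) ∧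
      (1 - (2 : ℂ) • e) * (1 - (2 : ℂ) • e) = 1 := by
  refine ⟨sub_mem (one_mem A) (smul_mem' _ he), ?_, ?_⟩
  · show star _ = _
    rw [star_sub, star_one, star_smul, hep.isSelfAdjoint.star_eq]
    simp
  · have hee : e * e = e := hep.isIdempotentElem.eq
    rw [two_smul, sub_mul, mul_sub, mul_sub, one_mul, mul_one, one_mul, add_mul, mul_add, hee]
    abel

theorem l1thin_of_ne (hA : IsMASA A M) (hne : NowhereExpected A M) : L1Thin A M := by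
  classical
  intro F δ κ hδ hκ
  have hc : Comm A := hA.comm
  obtain ⟨U, Φ, hΦ⟩ := exists_CE hc
  set ψ := ceFun hΦ F with hψ
  have hPF : PF ψ := ceFun_PF hΦ F
  set G : Set (H →L[ℂ] H) := {u | ∃ e ∈ A, IsStarProjection e ∧ u = 1 - (2 : ℂ) • e} with hG
  have hGA : ∀ u ∈ G, u ∈ A ∧ IsSelfAdjoint u ∧ u * u = 1 := by
    rintro u ⟨e, he, hep, rfl⟩
    exact symm_of_proj he hep
  have hGinv : ∀ u ∈ G, ∀ z ∈ M, ψ (u * z * u) = ψ z := by
    intro u hu z hz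
    obtain ⟨huA, husa, huu⟩ := hGA u hu
    rw [hψ, ceFun_apply, ceFun_apply]
    refine Finset.sum_congr rfl fun ξ _ => ?_
    rw [hΦ.mul_mul hc huA huA z]
    have : u * Φ z * u = Φ z := by
      rw [hc u huA (Φ z) (hΦ.mem_A hA hz), mul_assoc, huu, mul_one]
    rw [this]
  obtain ⟨ψn, hpos, hbd, hnorm, hinv, hm, -⟩ := exists_normal_part M hPF G
    (fun u hu => ⟨hA.le (hGA u hu).1, (hGA u hu).2.1, (hGA u hu).2.2, hGinv u hu⟩)
  have hcentral : CentralOn A M ψn := by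
    intro a ha y hy
    refine central_of_proj hc hbd (fun e he hep => ?_) ha
    have hu : (1 - (2 : ℂ) • e) ∈ G := ⟨e, he, hep, rfl⟩
    obtain ⟨huA, husa, huu⟩ := hGA _ hu
    have h1 := hinv _ hu ((1 - (2 : ℂ) • e) * y) (mul_mem (hA.le huA) hy)
    rw [← mul_assoc, huu, one_mul] at h1
    rw [mul_sub, sub_mul, mul_one, one_mul, map_sub, map_sub, mul_smul_comm, smul_mul_assoc,
      map_smul, map_smul, sub_right_inj] at h1
    have h2 : (2 : ℂ) ≠ 0 := two_ne_zero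
    exact (smul_right_injective ℂ h2 h1).symm
  have hz : ψn 1 = 0 := hne ψn (fun y _ hy => hpos y hy) hnorm hcentral 1 (one_mem M)
  have hm0 : ∀ i, mval M ψ i ≤ 0 := by
    intro i
    have := hm i
    rwa [hz, Complex.zero_re] at this
  -- choice of the parameters
  set R : ℝ := 1 + ∑ ξ ∈ F, ‖ξ‖ with hR
  have hR1 : 1 ≤ R := by
    have : 0 ≤ ∑ ξ ∈ F, ‖ξ‖ := Finset.sum_nonneg fun _ _ => norm_nonneg _
    linarith
  have hRξ : ∀ ξ ∈ F, ‖ξ‖ ≤ R := by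
    intro ξ hξ
    have := Finset.single_le_sum (f := fun ξ : H => ‖ξ‖) (fun _ _ => norm_nonneg _) hξ
    linarith
  obtain ⟨n, hn⟩ := exists_nat_one_div_lt (K := ℝ) (ε := min (δ ^ 2 / (4 * R)) (κ / 4))
    (by positivity)
  have hn1 : 1 / ((n : ℝ) + 1) < δ ^ 2 / (4 * R) := hn.trans_le (min_le_left _ _)
  have hn2 : 1 / ((n : ℝ) + 1) < κ / 4 := hn.trans_le (min_le_right _ _)
  obtain ⟨y, ⟨hyM, hy1, hyF⟩, hyN⟩ := exists_near (M := M) (ψ := ψ) (F, n)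
  simp only at hyF hyN
  have hyN' : N2 ψ y < κ / 4 := by
    have := hm0 (F, n)
    linarith
  set b : H →L[ℂ] H := star y * y with hb
  have hbM : b ∈ M := mul_mem (star_mem hyM) hyM
  have hb0 : 0 ≤ b := star_mul_self_nonneg y
  have hb1 : b ≤ 1 := by
    have h1 : star y * y ≤ algebraMap ℝ (H →L[ℂ] H) (‖y‖ ^ 2) :=
      CStarAlgebra.star_mul_le_algebraMap_norm_sq
    refine h1.trans ?_
    have h2 : ‖y‖ ^ 2 ≤ 1 := by nlinarith [norm_nonneg y]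
    have h3 : algebraMap ℝ (H →L[ℂ] H) (‖y‖ ^ 2) ≤ algebraMap ℝ (H →L[ℂ] H) 1 :=
      algebraMap_mono (H →L[ℂ] H) h2
    rwa [map_one] at h3
  obtain ⟨q, hqM, hq, hq1, hq2, -⟩ := cut_half M hbM hb0 hb1
  have hψq : (ψ q).re < κ / 2 := by
    have h1 := hPF.mono hq1
    rw [map_smul, smul_eq_mul] at h1
    have h2 : ((2 : ℂ) * ψ b).re = 2 * N2 ψ y := by
      simp [N2, hb]
    rw [h2] at h1
    linarith
  have hqF : ∀ ξ ∈ F, ‖(1 - q) ξ‖ < δ := by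
    intro ξ hξ
    have h1 := le_inner hq2 ξ
    rw [proj_inner_self hq.one_sub, Complex.ofReal_re] at h1
    have h2 : (⟪ξ, ((2 : ℂ) • (1 - b)) ξ⟫_ℂ).re = 2 * (‖ξ‖ ^ 2 - ‖y ξ‖ ^ 2) := by
      have e1 : ⟪ξ, b ξ⟫_ℂ = ((‖y ξ‖ ^ 2 : ℝ) : ℂ) := by
        rw [hb, mul_apply_eq_comp, ContinuousLinearMap.star_eq_adjoint,
          ContinuousLinearMap.adjoint_inner_right, inner_self_eq_norm_sq_to_K]
        norm_cast
      have e2 : ⟪ξ, ξ⟫_ℂ = ((‖ξ‖ ^ 2 : ℝ) : ℂ) := by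
        rw [inner_self_eq_norm_sq_to_K]
        norm_cast
      rw [smul_apply, sub_apply, one_apply_eq_self, inner_smul_right, inner_sub_right, e1, e2,
        ← Complex.ofReal_sub]
      have e3 : (2 : ℂ) = ((2 : ℝ) : ℂ) := by norm_num
      rw [e3, Complex.re_ofReal_mul, Complex.ofReal_re]
    rw [h2] at h1
    have h3 : ‖y ξ‖ ≤ ‖ξ‖ := by
      refine (y.le_opNorm ξ).trans ?_
      nlinarith [norm_nonneg ξ]
    have h4 := norm_sq_sub_le h3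
    have h5 : ‖ξ - y ξ‖ < 1 / ((n : ℝ) + 1) := by
      have := hyF ξ hξ
      rwa [sub_apply, one_apply_eq_self] at this
    have h6 : ‖(1 - q) ξ‖ ^ 2 < δ ^ 2 := by
      have h7 : 2 * ‖ξ‖ * ‖ξ - y ξ‖ ≤ 2 * R * (1 / ((n : ℝ) + 1)) := by
        have := hRξ ξ hξ
        gcongr
      have h8 : 2 * R * (1 / ((n : ℝ) + 1)) < 2 * R * (δ ^ 2 / (4 * R)) := by
        gcongr
      have h9 : 2 * R * (δ ^ 2 / (4 * R)) = δ ^ 2 / 2 := by
        field_simp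
        ring
      nlinarith [sq_nonneg δ]
    exact lt_of_pow_lt_pow_left₀ 2 hδ.le h6
  set κ' : ℝ := κ / (2 * ((F.card : ℝ) + 1)) with hκ'
  have hκ'pos : 0 < κ' := by positivity
  obtain ⟨P, hP⟩ := hΦ.approx q (F.image fun ξ => (ξ, ξ)) hκ'pos
  refine ⟨q, P, hqM, hq, hqF, ?_⟩
  have hterm : ∀ ξ ∈ F, (⟪ξ, P.pin q ξ⟫_ℂ).re ≤ (⟪ξ, Φ q ξ⟫_ℂ).re + κ' := by
    intro ξ hξ
    have h1 := hP (ξ, ξ) (Finset.mem_image.mpr ⟨ξ, hξ, rfl⟩)
    simp only at h1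
    have h2 : ‖⟪ξ, (P.pin q - Φ q) ξ⟫_ℂ‖ < κ' := by
      rw [← inner_conj_symm, RCLike.norm_conj]
      exact h1
    have h3 : (⟪ξ, P.pin q ξ⟫_ℂ).re - (⟪ξ, Φ q ξ⟫_ℂ).re = (⟪ξ, (P.pin q - Φ q) ξ⟫_ℂ).re := by
      rw [sub_apply, inner_sub_right, Complex.sub_re]
    have h4 := (Complex.re_le_norm (⟪ξ, (P.pin q - Φ q) ξ⟫_ℂ))
    linarith
  calc ∑ ξ ∈ F, (⟪ξ, P.pin q ξ⟫_ℂ).re ≤ ∑ ξ ∈ F, ((⟪ξ, Φ q ξ⟫_ℂ).re + κ') :=
        Finset.sum_le_sum hterm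
    _ = (ψ q).re + F.card * κ' := by
        rw [Finset.sum_add_distrib, hψ, ceFun_apply, Complex.re_sum]
        simp
    _ < κ / 2 + κ / 2 := by
        refine add_lt_add_of_lt_of_le hψq ?_
        rw [hκ']
        rw [mul_div_assoc', div_le_div_iff₀ (by positivity) (by positivity)]
        nlinarith [hκ, (Nat.cast_nonneg F.card : (0 : ℝ) ≤ F.card)]
    _ = κ := by ring

theorem thin_of_ne (hA : IsMASA A M) (hne : NowhereExpected A M) : Thin A M :=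
  thin_of_l1 hA (l1thin_of_ne hA hne)

end Vale.Agent.P078
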