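import Vale.Agent.P078.Adapted
import Vale.Agent.P078.Seq

namespace Vale.Agent.P078

open scoped InnerProductSpace
open InnerProductSpace

variable {H : Type*} [NormedAddCommGroup H] [InnerProductSpace ℂ H] [CompleteSpace H]
variable {A : VonNeumannAlgebra H}

lemma Part.toIsPartition {r : ℕ} {p : Fin r → H →L[ℂ] H} (h : Part A p 1) : IsPartition A p :=
  ⟨h.mem, h.proj, h.ortho, h.sum_eq⟩

lemma IsPartition.toPart {r : ℕ} {p : Fin r → H →L[ℂ] H} (h : IsPartition A p) : Part A p 1 :=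
  ⟨h.mem, h.proj, h.ortho, h.sum_eq⟩

lemma pinching_sa {r : ℕ} {p : Fin r → H →L[ℂ] H} (hp : ∀ i, IsStarProjection (p i))
    {x : H →L[ℂ] H} (hx : IsSelfAdjoint x) : IsSelfAdjoint (pinching p x) := by
  unfold pinching
  show star (∑ i, p i * x * p i) = ∑ i, p i * x * p i
  rw [star_sum]
  refine Finset.sum_congr rfl fun i _ => ?_
  rw [star_mul, star_mul, (hp i).isSelfAdjoint.star_eq, hx.star_eq, mul_assoc]

lemma inner_pinching {r : ℕ} {p : Fin r → H →L[ℂ] H} (hp : ∀ i, IsStarProjection (p i))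
    (x : H →L[ℂ] H) (ξ ζ : H) :
    ⟪ξ, pinching p x ζ⟫_ℂ = ∑ i, ⟪p i ξ, x (p i ζ)⟫_ℂ := by
  unfold pinching
  rw [_root_.sum_apply, inner_sum]
  refine Finset.sum_congr rfl fun i _ => ?_
  rw [proj_inner (hp i)]
  rfl

/-- polarisation-type identity -/
lemma sum_sum_form (x : H →L[ℂ] H) {r : ℕ} (v : Fin r → H) :
    ∑ i, ∑ j, ⟪v i - v j, x (v i - v j)⟫_ℂ
      = 2 * (r : ℂ) * ∑ i, ⟪v i, x (v i)⟫_ℂ - 2 * ⟪∑ i, v i, x (∑ i, v i)⟫_ℂ := by
  have h1 : ⟪∑ i, v i, x (∑ i, v i)⟫_ℂ = ∑ i, ∑ j, ⟪v i, x (v j)⟫_ℂ := by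
    rw [map_sum, sum_inner]
    exact Finset.sum_congr rfl fun i _ => inner_sum _ _ _
  have h2 : ∑ i, ∑ j, ⟪v j, x (v i)⟫_ℂ = ∑ i, ∑ j, ⟪v i, x (v j)⟫_ℂ := Finset.sum_comm
  simp only [map_sub, inner_sub_left, inner_sub_right, Finset.sum_sub_distrib,
    Finset.sum_const, Finset.card_univ, Fintype.card_fin, nsmul_eq_mul]
  rw [h1, h2, ← Finset.mul_sum]
  ring

lemma pinching_defect_bound {r : ℕ} (hr : 0 < r) {p : Fin r → H →L[ℂ] H} (hp : Part A p 1)
    (x : H →L[ℂ] H) (u : H) :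
    ‖⟪u, (pinching p x - ((1 / r : ℝ) : ℂ) • x) u⟫_ℂ‖ ≤ ‖x‖ * ‖u‖ ^ 2 := by
  have hrpos : (0 : ℝ) < r := by exact_mod_cast hr
  have hrC : (r : ℂ) ≠ 0 := by exact_mod_cast hrpos.ne'
  set v : Fin r → H := fun i => p i u with hv
  have hsum : ∑ i, v i = u := by
    rw [hv]; exact hp.sum_apply u
  have hid := sum_sum_form x v
  have hid1 := sum_sum_form (1 : H →L[ℂ] H) v
  rw [hsum] at hid hid1
  have hnorm : ∑ i, ∑ j, ‖v i - v j‖ ^ 2 = (2 * r - 2) * ‖u‖ ^ 2 := by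
    have e1 : ∑ i, ∑ j, ⟪v i - v j, (1 : H →L[ℂ] H) (v i - v j)⟫_ℂ
        = ((∑ i, ∑ j, ‖v i - v j‖ ^ 2 : ℝ) : ℂ) := by
      push_cast
      refine Finset.sum_congr rfl fun i _ => Finset.sum_congr rfl fun j _ => ?_
      show ⟪v i - v j, v i - v j⟫_ℂ = _
      rw [inner_self_eq_norm_sq_to_K]
      norm_cast
    have e2 : ∑ i, ⟪v i, (1 : H →L[ℂ] H) (v i)⟫_ℂ = ((‖u‖ ^ 2 : ℝ) : ℂ) := by
      have := hp.norm_sq u
      rw [one_apply_eq_self] at this
      rw [← this]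
      push_cast
      refine Finset.sum_congr rfl fun i _ => ?_
      show ⟪v i, v i⟫_ℂ = _
      rw [inner_self_eq_norm_sq_to_K]
      norm_cast
    have e3 : ⟪u, (1 : H →L[ℂ] H) u⟫_ℂ = ((‖u‖ ^ 2 : ℝ) : ℂ) := by
      rw [one_apply_eq_self, inner_self_eq_norm_sq_to_K]
      norm_cast
    rw [e1, e2, e3] at hid1
    have : ((∑ i, ∑ j, ‖v i - v j‖ ^ 2 : ℝ) : ℂ) = (((2 * r - 2) * ‖u‖ ^ 2 : ℝ) : ℂ) := by
      rw [hid1]; push_cast; ring
    exact Complex.ofReal_injective this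
  have hmain : ⟪u, (pinching p x - ((1 / r : ℝ) : ℂ) • x) u⟫_ℂ
      = (1 / (2 * (r : ℂ))) * ∑ i, ∑ j, ⟪v i - v j, x (v i - v j)⟫_ℂ := by
    rw [hid, sub_apply, inner_sub_right, inner_pinching hp.proj, smul_apply, inner_smul_right]
    push_cast
    field_simp
    ring
  rw [hmain, norm_mul]
  have hb : ‖∑ i, ∑ j, ⟪v i - v j, x (v i - v j)⟫_ℂ‖ ≤ ‖x‖ * ((2 * r - 2) * ‖u‖ ^ 2) := by
    rw [← hnorm, Finset.mul_sum]
    refine (norm_sum_le _ _).trans (Finset.sum_le_sum fun i _ => ?_)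
    rw [Finset.mul_sum]
    refine (norm_sum_le _ _).trans (Finset.sum_le_sum fun j _ => ?_)
    calc ‖⟪v i - v j, x (v i - v j)⟫_ℂ‖ ≤ ‖v i - v j‖ * ‖x (v i - v j)‖ := norm_inner_le_norm _ _
      _ ≤ ‖v i - v j‖ * (‖x‖ * ‖v i - v j‖) := by
          gcongr
          exact x.le_opNorm _
      _ = ‖x‖ * ‖v i - v j‖ ^ 2 := by ring
  have hc : ‖(1 / (2 * (r : ℂ)))‖ = 1 / (2 * r) := by
    rw [norm_div, norm_one, norm_mul, Complex.norm_natCast]
    norm_num
  rw [hc]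
  calc 1 / (2 * (r : ℝ)) * ‖∑ i, ∑ j, ⟪v i - v j, x (v i - v j)⟫_ℂ‖
      ≤ 1 / (2 * (r : ℝ)) * (‖x‖ * ((2 * r - 2) * ‖u‖ ^ 2)) := by gcongr
    _ = (1 - 1 / r) * (‖x‖ * ‖u‖ ^ 2) := by field_simp
    _ ≤ 1 * (‖x‖ * ‖u‖ ^ 2) := by
        gcongr
        have : (0 : ℝ) ≤ 1 / r := by positivity
        linarith
    _ = ‖x‖ * ‖u‖ ^ 2 := one_mul _

lemma norm_simple_le {ι : Type*} [Fintype ι] {e : ι → H →L[ℂ] H} (he : Part A e 1) (γ : ι → ℂ)
    {C : ℝ} (hC : 0 ≤ C) (hγ : ∀ l, ‖γ l‖ ≤ C) : ‖∑ l, γ l • e l‖ ≤ C := by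
  classical
  refine ContinuousLinearMap.opNorm_le_bound _ hC fun ξ => ?_
  set ζ : H := (∑ l, γ l • e l) ξ with hζ
  have h1 : ∀ m, e m ζ = γ m • e m ξ := by
    intro m
    rw [hζ, _root_.sum_apply, map_sum, Finset.sum_eq_single m]
    · rw [smul_apply, map_smul, proj_apply_apply (he.proj m)]
    · intro l _ hl
      rw [smul_apply, map_smul]
      have := congrArg (fun T : H →L[ℂ] H => T ξ) (he.ortho m l (Ne.symm hl))
      simp only [mul_apply_eq_comp, zero_apply] at this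
      rw [this, smul_zero]
    · intro h; exact absurd (Finset.mem_univ m) h
  have h2 : ‖ζ‖ ^ 2 ≤ (C * ‖ξ‖) ^ 2 := by
    have e1 := he.norm_sq ζ
    have e2 := he.norm_sq ξ
    rw [one_apply_eq_self] at e1 e2
    rw [← e1, mul_pow, ← e2, Finset.mul_sum]
    refine Finset.sum_le_sum fun m _ => ?_
    rw [h1 m, norm_smul, mul_pow]
    gcongr
    exact hγ m
  exact abs_le_of_sq_le_sq' h2 (by positivity) |>.2

lemma simple_apply {ι : Type*} [Fintype ι] {e : ι → H →L[ℂ] H} (he : Part A e 1) (γ : ι → ℂ)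
    {m : ι} {ζ : H} (hζ : e m ζ = ζ) : (∑ l, γ l • e l) ζ = γ m • ζ := by
  classical
  rw [_root_.sum_apply, Finset.sum_eq_single m]
  · rw [smul_apply, hζ]
  · intro l _ hl
    rw [smul_apply, ← hζ]
    have := congrArg (fun T : H →L[ℂ] H => T ζ) (he.ortho l m hl)
    simp only [mul_apply_eq_comp, zero_apply] at this
    rw [this, smul_zero]
  · intro h; exact absurd (Finset.mem_univ m) h

lemma rankOne_mul_mul (a b c d : H) (T : H →L[ℂ] H) :
    rankOne ℂ a b * T * rankOne ℂ c d = ⟪b, T c⟫_ℂ • rankOne ℂ a d := by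
  ext ξ
  simp only [mul_apply_eq_comp, rankOne_apply, map_smul, inner_smul_right, smul_apply, smul_smul]
  rw [mul_comm]

lemma norm_compress_le {ι : Type*} [Fintype ι] (u : ι → H) (hu : ∀ l, ‖u l‖ ≤ 1)
    (T : H →L[ℂ] H) :
    ‖(∑ l, rankOne ℂ (u l) (u l)) * T * (∑ m, rankOne ℂ (u m) (u m))‖
      ≤ ∑ l, ∑ m, ‖⟪u l, T (u m)⟫_ℂ‖ := by
  rw [Finset.sum_mul, Finset.sum_mul]
  refine (norm_sum_le _ _).trans (Finset.sum_le_sum fun l _ => ?_)
  rw [Finset.mul_sum]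
  refine (norm_sum_le _ _).trans (Finset.sum_le_sum fun m _ => ?_)
  rw [rankOne_mul_mul, norm_smul, norm_rankOne]
  calc ‖⟪u l, T (u m)⟫_ℂ‖ * (‖u l‖ * ‖u m‖) ≤ ‖⟪u l, T (u m)⟫_ℂ‖ * (1 * 1) := by
        gcongr
        · exact hu l
        · exact hu m
    _ = ‖⟪u l, T (u m)⟫_ℂ‖ := by ring

theorem upper (hA : Ctx A) (hd : IsDiffuse A) (M : VonNeumannAlgebra H) (hM : ∀ y, y ∈ M)
    {x : H →L[ℂ] H} (hx : IsSelfAdjoint x) {r : ℕ} (hr : 0 < r) {ε : ℝ} (hε : 1 / (r : ℝ) < ε) :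
    SoPavable A M x ε r := by
  classical
  intro F δ hδ
  by_cases hx0 : x = 0
  · obtain ⟨p, hp, -⟩ := exists_partition hA hd (Part.single (one_mem A) (IsStarProjection.one _))
      (fun _ => (0 : H)) (by simp) hx (η := 1) one_pos hr
    refine ⟨p, 0, 1, hp.toIsPartition, zero_mem A, IsSelfAdjoint.zero _, by simp, hM 1,
      IsStarProjection.one _, by simpa using fun ξ _ => hδ, ?_⟩
    subst hx0
    simp [pinching]
  have hxpos : 0 < ‖x‖ := norm_pos_iff.mpr hx0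
  have hrpos : (0 : ℝ) < r := by exact_mod_cast hr
  obtain ⟨w, ι, _, e, he, happ⟩ := exists_adapted hA F hδ
  set u : ι → H := fun l => ((‖e l w‖⁻¹ : ℝ) : ℂ) • e l w with hu
  have hu_e : ∀ l, e l (u l) = u l := by
    intro l
    simp only [hu, map_smul, proj_apply_apply (he.proj l)]
  have hu_norm : ∀ l, ‖u l‖ = 1 ∨ u l = 0 := by
    intro l
    by_cases h : e l w = 0
    · right; simp [hu, h]
    · left
      have : ‖e l w‖ ≠ 0 := norm_ne_zero_iff.mpr h
      simp only [hu, norm_smul, Complex.norm_real, norm_inv, norm_norm]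
      field_simp
  have hu_le : ∀ l, ‖u l‖ ≤ 1 := by
    intro l
    rcases hu_norm l with h | h
    · exact h.le
    · rw [h, norm_zero]; exact zero_le_one
  have hu_orth : ∀ l m, l ≠ m → ⟪u l, u m⟫_ℂ = 0 := by
    intro l m hlm
    rw [← hu_e l, ← hu_e m]
    exact he.inner_ne hlm _ _
  set q : H →L[ℂ] H := ∑ l, rankOne ℂ (u l) (u l) with hq
  have hqp : IsStarProjection q := by
    refine proj_sum _ _ (fun l _ => ?_) (fun l _ m _ hlm => ?_)
    · rcases hu_norm l with h | h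
      · exact isStarProjection_rankOne_self h
      · rw [h]; simp
    · have := rankOne_mul_mul (u l) (u l) (u m) (u m) 1
      rw [mul_one, one_apply_eq_self, hu_orth l m hlm, zero_smul] at this
      exact this
  have hq_fix : ∀ l, q (e l w) = e l w := by
    intro l
    rw [hq, _root_.sum_apply, Finset.sum_eq_single l]
    · rw [rankOne_apply]
      by_cases h : e l w = 0
      · simp [h]
      · have hn : (‖e l w‖ : ℂ) ≠ 0 := by
          exact_mod_cast norm_ne_zero_iff.mpr h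
        simp only [hu, inner_smul_left, smul_smul, inner_self_eq_norm_sq_to_K, Complex.conj_ofReal]
        have : ((‖e l w‖⁻¹ : ℝ) : ℂ) * ((‖e l w‖ : ℂ)) ^ 2 * ((‖e l w‖⁻¹ : ℝ) : ℂ) = 1 := by
          push_cast
          field_simp
        erw [this, one_smul]
    · intro m _ hml
      rw [rankOne_apply]
      have : ⟪u m, e l w⟫_ℂ = 0 := by
        rw [← hu_e m]
        exact he.inner_ne hml _ _
      rw [this, zero_smul]
    · intro h; exact absurd (Finset.mem_univ l) h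
  have hq_span : ∀ v ∈ Submodule.span ℂ (Set.range fun l => e l w), q v = v := by
    intro v hv
    induction hv using Submodule.span_induction with
    | mem y hy => obtain ⟨l, rfl⟩ := hy; exact hq_fix l
    | zero => exact map_zero q
    | add y z _ _ hy hz => rw [map_add, hy, hz]
    | smul c y _ hy => rw [map_smul, hy]
  set n : ℝ := (Fintype.card ι : ℝ) with hn
  set η : ℝ := (ε - 1 / r) * ‖x‖ / (n ^ 2 + 1) with hη
  have hηpos : 0 < η := by
    have : 0 < ε - 1 / r := sub_pos.mpr hε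
    positivity
  obtain ⟨p, hp, hoff⟩ := exists_partition hA hd he u hu_e hx hηpos hr
  set T : H →L[ℂ] H := pinching p x - ((1 / r : ℝ) : ℂ) • x with hT
  have hTsa : IsSelfAdjoint T := by
    refine (pinching_sa hp.proj hx).sub ?_
    show star (((1 / r : ℝ) : ℂ) • x) = ((1 / r : ℝ) : ℂ) • x
    rw [star_smul, hx.star_eq]
    congr 1
    exact Complex.conj_ofReal _
  set α : ι → ℝ := fun l => (⟪u l, T (u l)⟫_ℂ).re with hα
  set a : H →L[ℂ] H := ∑ l, ((α l : ℝ) : ℂ) • e l with ha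
  have hαle : ∀ l, ‖((α l : ℝ) : ℂ)‖ ≤ ‖x‖ := by
    intro l
    rw [Complex.norm_real, Real.norm_eq_abs]
    calc |α l| ≤ ‖⟪u l, T (u l)⟫_ℂ‖ := Complex.abs_re_le_norm _
      _ ≤ ‖x‖ * ‖u l‖ ^ 2 := pinching_defect_bound hr hp x (u l)
      _ ≤ ‖x‖ * 1 ^ 2 := by
          gcongr
          exact hu_le l
      _ = ‖x‖ := by ring
  have ha_apply : ∀ m, a (u m) = ((α m : ℝ) : ℂ) • u m := fun m => simple_apply he _ (hu_e m)
  have hentry : ∀ l m, ‖⟪u l, (T - a) (u m)⟫_ℂ‖ ≤ η := by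
    intro l m
    rw [sub_apply, inner_sub_right, ha_apply, inner_smul_right]
    by_cases hlm : l = m
    · subst hlm
      have hreal : ⟪u l, T (u l)⟫_ℂ = ((α l : ℝ) : ℂ) := by
        have h1 : (starRingEnd ℂ) ⟪u l, T (u l)⟫_ℂ = ⟪u l, T (u l)⟫_ℂ := by
          rw [inner_conj_symm, sa_inner hTsa]
        exact (Complex.conj_eq_iff_real.mp h1).elim fun t ht => by
          rw [hα]; simp only [ht, Complex.ofReal_re]
      rcases hu_norm l with h | h
      · rw [inner_self_eq_norm_sq_to_K, h, hreal]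
        simp [hηpos.le]
      · rw [h]; simp [hηpos.le]
    · rw [hu_orth l m hlm, mul_zero, sub_zero, hT, sub_apply, inner_sub_right,
        inner_pinching hp.proj, smul_apply, inner_smul_right]
      exact hoff l m hlm
  refine ⟨p, a, q, hp.toIsPartition, sum_mem fun l _ => smul_mem' _ (he.mem l), ?_,
    norm_simple_le he _ (norm_nonneg x) hαle, hM q, hqp, ?_, ?_⟩
  · show star a = a
    rw [ha, star_sum]
    refine Finset.sum_congr rfl fun l _ => ?_
    rw [star_smul, (he.proj l).isSelfAdjoint.star_eq]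
    congr 1
    exact Complex.conj_ofReal _
  · intro ξ hξ
    obtain ⟨v, hv, hlt⟩ := happ ξ hξ
    have h1 : (1 - q) ξ = (1 - q) (ξ - v) := by
      simp only [sub_apply, one_apply_eq_self, map_sub, hq_span v hv]
      abel
    rw [h1]
    exact (proj_norm_le hqp.one_sub _).trans_lt hlt
  · have hdecomp : q * (pinching p x - a) * q = q * (T - a) * q + ((1 / r : ℝ) : ℂ) • (q * x * q) := by
      have : pinching p x - a = (T - a) + ((1 / r : ℝ) : ℂ) • x := by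
        rw [hT]; abel
      rw [this, mul_add, add_mul, mul_smul_comm, smul_mul_assoc]
    rw [hdecomp]
    have h1 : ‖q * (T - a) * q‖ ≤ (ε - 1 / r) * ‖x‖ := by
      calc ‖q * (T - a) * q‖ ≤ ∑ l, ∑ m, ‖⟪u l, (T - a) (u m)⟫_ℂ‖ := norm_compress_le u hu_le _
        _ ≤ ∑ _l : ι, ∑ _m : ι, η :=
            Finset.sum_le_sum fun l _ => Finset.sum_le_sum fun m _ => hentry l m
        _ = n ^ 2 * η := by
            simp only [Finset.sum_const, Finset.card_univ, nsmul_eq_mul]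
            rw [hn]; ring
        _ ≤ (n ^ 2 + 1) * η := by
            gcongr
            linarith
        _ = (ε - 1 / r) * ‖x‖ := by
            rw [hη]; field_simp
    have h2 : ‖((1 / r : ℝ) : ℂ) • (q * x * q)‖ ≤ 1 / r * ‖x‖ := by
      rw [norm_smul, Complex.norm_real, Real.norm_eq_abs, abs_of_nonneg (by positivity)]
      gcongr
      calc ‖q * x * q‖ ≤ ‖q‖ * ‖x‖ * ‖q‖ :=
            (norm_mul_le _ _).trans (by gcongr; exact norm_mul_le _ _)
        _ ≤ 1 * ‖x‖ * 1 := by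
            gcongr <;> exact hqp.norm_le
        _ = ‖x‖ := by ring
    calc ‖q * (T - a) * q + ((1 / r : ℝ) : ℂ) • (q * x * q)‖
        ≤ ‖q * (T - a) * q‖ + ‖((1 / r : ℝ) : ℂ) • (q * x * q)‖ := norm_add_le _ _
      _ ≤ (ε - 1 / r) * ‖x‖ + 1 / r * ‖x‖ := add_le_add h1 h2
      _ = ε * ‖x‖ := by ring

end Vale.Agent.P078
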