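import Vale.Agent.P078.Diag
import Vale.Agent.P078.Chaos
import Vale.Agent.P078.Cut

namespace Vale.Agent.P078

open scoped InnerProductSpace
open Filter

variable {H : Type*} [NormedAddCommGroup H] [InnerProductSpace ℂ H] [CompleteSpace H]
variable {A M : VonNeumannAlgebra H}

/-- `A` is thin in `M`: there are projections of `M` arbitrarily close to `1` in the strong
operator topology on which the members of a suitable partition of `A` have small norm -/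
def Thin (A M : VonNeumannAlgebra H) : Prop :=
  ∀ (F : Finset H) (δ η : ℝ), 0 < δ → 0 < η →
    ∃ (q : H →L[ℂ] H) (P : FP A), q ∈ M ∧ IsStarProjection q ∧ (∀ ξ ∈ F, ‖(1 - q) ξ‖ < δ) ∧
      ∀ j, ‖P.g j * q‖ ≤ η

lemma sum_sum_cells (Q : FP A) (x : H →L[ℂ] H) :
    ∑ p : Fin Q.n × Fin Q.n, Q.g p.1 * x * Q.g p.2 = x := by
  rw [Fintype.sum_prod_type]
  calc ∑ t, ∑ s, Q.g t * x * Q.g s = ∑ t, Q.g t * x := by
        refine Finset.sum_congr rfl fun t _ => ?_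
        rw [← Finset.mul_sum, Q.part.sum_eq, mul_one]
    _ = x := by rw [← Finset.sum_mul, Q.part.sum_eq, one_mul]

lemma pinching_color_eq (Q : FP A) {r : ℕ} (c : Fin Q.n → Fin r) (x : H →L[ℂ] H) :
    pinching (fun i => ∑ t with c t = i, Q.g t) x
      = ∑ p : Fin Q.n × Fin Q.n, if c p.1 = c p.2 then Q.g p.1 * x * Q.g p.2 else 0 := by
  classical
  unfold pinching
  have h1 : ∀ i : Fin r, (∑ t with c t = i, Q.g t) * x * (∑ t with c t = i, Q.g t)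
      = ∑ p : Fin Q.n × Fin Q.n, if c p.1 = i ∧ c p.2 = i then Q.g p.1 * x * Q.g p.2 else 0 := by
    intro i
    rw [Finset.sum_filter, Finset.sum_mul, Finset.sum_mul, Fintype.sum_prod_type]
    refine Finset.sum_congr rfl fun t _ => ?_
    rw [Finset.mul_sum]
    refine Finset.sum_congr rfl fun s _ => ?_
    by_cases h1 : c t = i <;> by_cases h2 : c s = i <;> simp [h1, h2]
  rw [Finset.sum_congr rfl fun i _ => h1 i, Finset.sum_comm]
  refine Finset.sum_congr rfl fun p _ => ?_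
  by_cases h : c p.1 = c p.2
  · rw [if_pos h, Finset.sum_eq_single (c p.1)]
    · rw [if_pos ⟨rfl, h.symm⟩]
    · intro i _ hi
      rw [if_neg fun hh => hi hh.1.symm]
    · intro hh; exact absurd (Finset.mem_univ _) hh
  · rw [if_neg h]
    refine Finset.sum_eq_zero fun i _ => ?_
    rw [if_neg fun hh => h (hh.1.trans hh.2.symm)]

lemma pinching_color_decomp (Q : FP A) {r : ℕ} (c : Fin Q.n → Fin r) (x : H →L[ℂ] H) :
    pinching (fun i => ∑ t with c t = i, Q.g t) x - ((1 / r : ℝ) : ℂ) • x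
      = ((1 - 1 / r : ℝ) : ℂ) • Q.pin x
        + ∑ p : Fin Q.n × Fin Q.n with p.1 ≠ p.2,
            ((eps c p.1 p.2 : ℝ) : ℂ) • (Q.g p.1 * x * Q.g p.2) := by
  classical
  have h1 : pinching (fun i => ∑ t with c t = i, Q.g t) x - ((1 / r : ℝ) : ℂ) • x
      = ∑ p : Fin Q.n × Fin Q.n, ((eps c p.1 p.2 : ℝ) : ℂ) • (Q.g p.1 * x * Q.g p.2) := by
    rw [pinching_color_eq]
    nth_rewrite 2 [← sum_sum_cells Q x]
    rw [Finset.smul_sum, ← Finset.sum_sub_distrib]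
    refine Finset.sum_congr rfl fun p _ => ?_
    unfold eps
    by_cases h : c p.1 = c p.2
    · rw [if_pos h, if_pos h]
      push_cast
      rw [sub_smul, one_smul]
    · rw [if_neg h, if_neg h]
      push_cast
      rw [sub_smul, zero_smul]
  rw [h1, ← Finset.sum_filter_add_sum_filter_not Finset.univ (fun p : Fin Q.n × Fin Q.n => p.1 = p.2)]
  congr 1
  unfold FP.pin pinching
  rw [Finset.smul_sum]
  have h2 : (Finset.univ.filter (fun p : Fin Q.n × Fin Q.n => p.1 = p.2))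
      = Finset.univ.image (fun t : Fin Q.n => (t, t)) := by
    ext p
    simp only [Finset.mem_filter, Finset.mem_univ, true_and, Finset.mem_image]
    constructor
    · intro h; exact ⟨p.1, Prod.ext rfl h⟩
    · rintro ⟨t, rfl⟩; rfl
  rw [h2, Finset.sum_image (fun a _ b _ hab => (Prod.ext_iff.mp hab).1)]
  refine Finset.sum_congr rfl fun t _ => ?_
  rw [eps_self]

/-- bound for the off-diagonal cells on a thin projection -/
lemma offdiag_bound (Q : FP A) {q : H →L[ℂ] H} (hq : IsStarProjection q) {η : ℝ}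
    (hη : ∀ j, ‖Q.g j * q‖ ≤ η) (x : H →L[ℂ] H) (ξ : H) :
    ∑ p : Fin Q.n × Fin Q.n with p.1 ≠ p.2, ‖q (Q.g p.1 (x (Q.g p.2 (q ξ))))‖ ^ 2
      ≤ η ^ 2 * ‖x‖ ^ 2 * ‖ξ‖ ^ 2 := by
  classical
  calc ∑ p : Fin Q.n × Fin Q.n with p.1 ≠ p.2, ‖q (Q.g p.1 (x (Q.g p.2 (q ξ))))‖ ^ 2
      ≤ ∑ p : Fin Q.n × Fin Q.n, ‖q (Q.g p.1 (x (Q.g p.2 (q ξ))))‖ ^ 2 :=
        Finset.sum_le_sum_of_subset_of_nonneg (Finset.filter_subset _ _)
          (fun _ _ _ => by positivity)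
    _ = ∑ s, ∑ t, ‖q (Q.g t (x (Q.g s (q ξ))))‖ ^ 2 := by
        rw [Fintype.sum_prod_type, Finset.sum_comm]
    _ ≤ ∑ s, ∑ t, η ^ 2 * ‖Q.g t (x (Q.g s (q ξ)))‖ ^ 2 := by
        refine Finset.sum_le_sum fun s _ => Finset.sum_le_sum fun t _ => ?_
        set w := x (Q.g s (q ξ))
        have h1 : q (Q.g t w) = (q * Q.g t) (Q.g t w) := by
          rw [mul_apply_eq_comp, proj_apply_apply (Q.part.proj t)]
        rw [h1, ← mul_pow]
        gcongr
        calc ‖(q * Q.g t) (Q.g t w)‖ ≤ ‖q * Q.g t‖ * ‖Q.g t w‖ := ContinuousLinearMap.le_opNorm _ _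
          _ ≤ η * ‖Q.g t w‖ := by
              gcongr
              rw [norm_star_mul_proj (Q.part.proj t) hq]
              exact hη t
    _ = ∑ s, η ^ 2 * ‖x (Q.g s (q ξ))‖ ^ 2 := by
        refine Finset.sum_congr rfl fun s _ => ?_
        rw [← Finset.mul_sum, Q.part.norm_sq, one_apply_eq_self]
    _ ≤ ∑ s, η ^ 2 * (‖x‖ ^ 2 * ‖Q.g s (q ξ)‖ ^ 2) := by
        refine Finset.sum_le_sum fun s _ => ?_
        have h2 : ‖x (Q.g s (q ξ))‖ ^ 2 ≤ ‖x‖ ^ 2 * ‖Q.g s (q ξ)‖ ^ 2 := by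
          rw [← mul_pow]
          gcongr
          exact x.le_opNorm _
        exact mul_le_mul_of_nonneg_left h2 (by positivity)
    _ = η ^ 2 * ‖x‖ ^ 2 * ‖q ξ‖ ^ 2 := by
        rw [← Finset.mul_sum, ← Finset.mul_sum, Q.part.norm_sq, one_apply_eq_self]
        ring
    _ ≤ η ^ 2 * ‖x‖ ^ 2 * ‖ξ‖ ^ 2 := by
        gcongr
        exact proj_norm_le hq ξ

/-- local form of the paving theorem: below every sufficiently thin projection `q` there is a
projection `q2`, close to `q` on finitely many given vectors, on which `x` is paved -/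
theorem upper_local (hA : IsMASA A M) {x : H →L[ℂ] H} (hxM : x ∈ M)
    (hx : IsSelfAdjoint x) {r : ℕ} (hr : 1 ≤ r) {ε : ℝ} (hε : 1 / (r : ℝ) < ε) (F : Finset H)
    {δ : ℝ} (hδ : 0 < δ) :
    ∃ η : ℝ, 0 < η ∧ ∀ (q : H →L[ℂ] H) (P : FP A), q ∈ M → IsStarProjection q →
      (∀ j, ‖P.g j * q‖ ≤ η) →
      ∃ (p : Fin r → H →L[ℂ] H) (a q2 : H →L[ℂ] H),
        IsPartition A p ∧ a ∈ A ∧ IsSelfAdjoint a ∧ ‖a‖ ≤ ‖x‖ ∧
        q2 ∈ M ∧ IsStarProjection q2 ∧ q * q2 = q2 ∧ (∀ ξ ∈ F, ‖(q - q2) ξ‖ ≤ δ) ∧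
        ‖q2 * (pinching p x - a) * q2‖ ≤ ε * ‖x‖ := by
  classical
  have hc : Comm A := hA.comm
  have hrpos : (0 : ℝ) < r := by exact_mod_cast hr
  have hr1 : 1 / (r : ℝ) ≤ 1 := by
    rw [div_le_one hrpos]
    exact_mod_cast hr
  have hr0 : 0 < 1 / (r : ℝ) := by positivity
  obtain ⟨U, Φ, hΦ⟩ := exists_CE hc
  by_cases hx0 : x = 0
  · set Q0 : FP A := FP.two (one_mem A) (IsStarProjection.one _)
    refine ⟨1, one_pos, fun q _ hqM hq _ =>
      ⟨fun i => ∑ t with (fun _ : Fin Q0.n => (⟨0, hr⟩ : Fin r)) t = i, Q0.g t, 0, q,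
      (Q0.part.color _).toIsPartition, zero_mem A, IsSelfAdjoint.zero _, by simp, hqM,
      hq, hq.isIdempotentElem.eq, fun ξ _ => by simpa using hδ.le, ?_⟩⟩
    rw [hx0]
    simp [pinching]
  have hX : 0 < ‖x‖ := norm_pos_iff.mpr hx0
  set X : ℝ := ‖x‖ with hXdef
  set S : ℝ := ∑ ξ ∈ F, ‖ξ‖ ^ 2 with hS
  have hS0 : 0 ≤ S := Finset.sum_nonneg fun _ _ => by positivity
  set κ : ℝ := (ε - 1 / r) * X with hκ
  have hκpos : 0 < κ := mul_pos (sub_pos.mpr hε) hX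
  set θ : ℝ := κ * δ / 4 with hθ
  have hθpos : 0 < θ := by positivity
  set η : ℝ := min 1 (θ ^ 2 / (2 * (4 * X ^ 2 * S + 1))) with hη
  have hDpos : 0 < 2 * (4 * X ^ 2 * S + 1) := by positivity
  have hηpos : 0 < η := lt_min one_pos (by positivity)
  have hη1 : η ≤ 1 := min_le_left _ _
  have hη2 : η ^ 2 * (4 * X ^ 2 * S + 1) ≤ θ ^ 2 / 2 := by
    have h1 : η ≤ θ ^ 2 / (2 * (4 * X ^ 2 * S + 1)) := min_le_right _ _
    have h2 : η ^ 2 ≤ η := by nlinarith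
    have h3 : η * (2 * (4 * X ^ 2 * S + 1)) ≤ θ ^ 2 := by
      rwa [le_div_iff₀ hDpos] at h1
    nlinarith
  refine ⟨η, hηpos, fun q P hqM hq hPη => ?_⟩
  obtain ⟨Q, hPQ, hQ⟩ := exists_diag hΦ hA hxM hq P hηpos.le hPη F (τ := θ ^ 2 / 2) (by positivity)
  have hQη : ∀ s, ‖Q.g s * q‖ ≤ η := FP.norm_mul_le_of_le hPQ hPη
  obtain ⟨c, hcol⟩ := exists_colouring (r := r) hr F
    (fun ξ (p : Fin Q.n × Fin Q.n) => q (Q.g p.1 (x (Q.g p.2 (q ξ)))))
  set a0 : H →L[ℂ] H := Φ x with ha0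
  have ha0A : a0 ∈ A := hΦ.mem_A hA hxM
  have ha0sa : IsSelfAdjoint a0 := hΦ.sa hx
  have ha0n : ‖a0‖ ≤ X := hΦ.norm_le x
  set pp : Fin r → H →L[ℂ] H := fun i => ∑ t with c t = i, Q.g t with hpp
  have hppP : Part A pp 1 := Q.part.color c
  set a : H →L[ℂ] H := ((1 - 1 / r : ℝ) : ℂ) • a0 with ha
  have haA : a ∈ A := smul_mem' _ ha0A
  have hasa : IsSelfAdjoint a := by
    show star a = a
    rw [ha, star_smul, ha0sa.star_eq]
    simp
  have han : ‖a‖ ≤ X := by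
    calc ‖a‖ ≤ ‖((1 - 1 / r : ℝ) : ℂ)‖ * ‖a0‖ := norm_smul_le _ _
      _ ≤ 1 * X := by
          gcongr
          rw [Complex.norm_real, Real.norm_eq_abs, abs_le]
          constructor <;> linarith
      _ = X := one_mul _
  set Z : H →L[ℂ] H := ∑ p : Fin Q.n × Fin Q.n with p.1 ≠ p.2,
    ((eps c p.1 p.2 : ℝ) : ℂ) • (Q.g p.1 * x * Q.g p.2) with hZ
  have hdec : pinching pp x - a - ((1 / r : ℝ) : ℂ) • x
      = ((1 - 1 / r : ℝ) : ℂ) • (Q.pin x - a0) + Z := by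
    have := pinching_color_decomp Q c x
    rw [smul_sub, ← ha, hZ]
    rw [sub_right_comm, this]
    abel
  set W : H →L[ℂ] H := q * (pinching pp x - a - ((1 / r : ℝ) : ℂ) • x) * q with hW
  have hpinM : pinching pp x ∈ M :=
    sum_mem fun i _ => mul_mem (mul_mem (hA.le (hppP.mem i)) hxM) (hA.le (hppP.mem i))
  have hWM : W ∈ M :=
    mul_mem (mul_mem hqM (sub_mem (sub_mem hpinM (hA.le haA)) (smul_mem' _ hxM))) hqM
  have hWsa : IsSelfAdjoint W := by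
    have h1 : IsSelfAdjoint (pinching pp x - a - ((1 / r : ℝ) : ℂ) • x) := by
      refine ((pinching_sa hppP.proj hx).sub hasa).sub ?_
      show star _ = _
      rw [star_smul, hx.star_eq]
      simp
    exact h1.conjugate_self hq.isSelfAdjoint
  -- the vector estimate
  have hWξ : ∀ ξ ∈ F, ‖W ξ‖ ≤ 2 * θ := by
    intro ξ hξ
    have e1 : W ξ = ((1 - 1 / r : ℝ) : ℂ) • (q * (Q.pin x - a0) * q) ξ
        + ∑ p : Fin Q.n × Fin Q.n with p.1 ≠ p.2,
            ((eps c p.1 p.2 : ℝ) : ℂ) • q (Q.g p.1 (x (Q.g p.2 (q ξ)))) := by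
      rw [hW, hdec, mul_add, add_mul, add_apply, hZ]
      congr 1
      · rw [mul_smul_comm, smul_mul_assoc, smul_apply]
      · rw [Finset.mul_sum, Finset.sum_mul, _root_.sum_apply]
        refine Finset.sum_congr rfl fun p _ => ?_
        rw [mul_smul_comm, smul_mul_assoc, smul_apply]
        rfl
    have b1 : ‖(q * (Q.pin x - a0) * q) ξ‖ ^ 2 ≤ θ ^ 2 := by
      calc ‖(q * (Q.pin x - a0) * q) ξ‖ ^ 2 ≤ ∑ ξ ∈ F, ‖(q * (Q.pin x - a0) * q) ξ‖ ^ 2 :=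
            Finset.single_le_sum (f := fun ξ => ‖(q * (Q.pin x - a0) * q) ξ‖ ^ 2)
              (fun _ _ => by positivity) hξ
        _ ≤ 4 * η ^ 2 * X ^ 2 * S + θ ^ 2 / 2 := hQ
        _ ≤ θ ^ 2 := by nlinarith [sq_nonneg η]
    have b2 : ‖∑ p : Fin Q.n × Fin Q.n with p.1 ≠ p.2,
        ((eps c p.1 p.2 : ℝ) : ℂ) • q (Q.g p.1 (x (Q.g p.2 (q ξ))))‖ ^ 2 ≤ θ ^ 2 := by
      calc _ ≤ ∑ ξ ∈ F, ‖∑ p : Fin Q.n × Fin Q.n with p.1 ≠ p.2,
            ((eps c p.1 p.2 : ℝ) : ℂ) • q (Q.g p.1 (x (Q.g p.2 (q ξ))))‖ ^ 2 :=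
            Finset.single_le_sum (f := fun ξ => ‖∑ p : Fin Q.n × Fin Q.n with p.1 ≠ p.2,
              ((eps c p.1 p.2 : ℝ) : ℂ) • q (Q.g p.1 (x (Q.g p.2 (q ξ))))‖ ^ 2)
              (fun _ _ => by positivity) hξ
        _ ≤ 2 * ∑ ξ ∈ F, ∑ p : Fin Q.n × Fin Q.n with p.1 ≠ p.2,
              ‖q (Q.g p.1 (x (Q.g p.2 (q ξ))))‖ ^ 2 := hcol
        _ ≤ 2 * ∑ ξ ∈ F, η ^ 2 * X ^ 2 * ‖ξ‖ ^ 2 := by
            gcongr with ξ _
            exact offdiag_bound Q hq hQη x ξ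
        _ = 2 * (η ^ 2 * X ^ 2 * S) := by rw [← Finset.mul_sum]
        _ ≤ θ ^ 2 := by nlinarith [sq_nonneg η]
    have c1 : ‖(q * (Q.pin x - a0) * q) ξ‖ ≤ θ := abs_le_of_sq_le_sq' b1 hθpos.le |>.2
    have c2 := abs_le_of_sq_le_sq' b2 hθpos.le |>.2
    rw [e1]
    refine (norm_add_le _ _).trans ?_
    have c3 : ‖((1 - 1 / r : ℝ) : ℂ) • (q * (Q.pin x - a0) * q) ξ‖ ≤ θ := by
      rw [norm_smul]
      calc ‖((1 - 1 / r : ℝ) : ℂ)‖ * ‖(q * (Q.pin x - a0) * q) ξ‖ ≤ 1 * θ := by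
            gcongr
            rw [Complex.norm_real, Real.norm_eq_abs, abs_le]
            constructor <;> linarith
        _ = θ := one_mul _
    linarith
  obtain ⟨p, hpM, hp, hWp, hpζ, hpc⟩ := cut_sa M hWM hWsa hκpos
  have hqq : q * q = q := hq.isIdempotentElem.eq
  have hqW : q * W = W := by rw [hW, ← mul_assoc, ← mul_assoc, hqq]
  have hWq : W * q = W := by rw [hW, mul_assoc, hqq]
  have hqp : q * p = p * q := hpc q (by rw [hqW, hWq])
  set q2 : H →L[ℂ] H := q * p with hq2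
  have hq2p : IsStarProjection q2 := hq.mul hp hqp
  have hq2q : q2 * q = q2 := by rw [hq2, mul_assoc, ← hqp, ← mul_assoc, hqq]
  have hqq2 : q * q2 = q2 := by rw [hq2, ← mul_assoc, hqq]
  refine ⟨pp, a, q2, hppP.toIsPartition, haA, hasa, han, mul_mem hqM hpM, hq2p, hqq2, ?_, ?_⟩
  · intro ξ hξ
    have e1 : (q - q2) ξ = (1 - p) (q ξ) := by
      have : (q - q2 : H →L[ℂ] H) = (1 - p) * q := by
        rw [hqp, sub_mul, one_mul]
      rw [this]
      rfl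
    have e2 : κ * ‖(1 - p) (q ξ)‖ ≤ 2 * θ := by
      refine (hpζ (q ξ)).trans ?_
      have : W (q ξ) = W ξ := by
        have := congrArg (fun T : H →L[ℂ] H => T ξ) hWq
        exact this
      rw [this]
      exact hWξ ξ hξ
    have e3 : ‖(1 - p) (q ξ)‖ ≤ δ / 2 := by
      have : κ * ‖(1 - p) (q ξ)‖ ≤ κ * (δ / 2) := by
        refine e2.trans (le_of_eq ?_)
        rw [hθ]; ring
      exact le_of_mul_le_mul_left this hκpos
    rw [e1]
    linarith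
  · have e1 : q2 * (pinching pp x - a) * q2 = q2 * W * q2 + ((1 / r : ℝ) : ℂ) • (q2 * x * q2) := by
      have h1 : q2 * W * q2 = q2 * (pinching pp x - a - ((1 / r : ℝ) : ℂ) • x) * q2 := by
        rw [hW]
        calc q2 * (q * (pinching pp x - a - ((1 / r : ℝ) : ℂ) • x) * q) * q2
            = (q2 * q) * (pinching pp x - a - ((1 / r : ℝ) : ℂ) • x) * (q * q2) := by
              simp only [mul_assoc]
          _ = _ := by rw [hq2q, hqq2]
      rw [h1, mul_sub _ _ (((1 / r : ℝ) : ℂ) • x), sub_mul, mul_smul_comm, smul_mul_assoc]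
      abel
    have e2 : ‖q2 * W * q2‖ ≤ κ := by
      have h1 : W * q2 = W * p := by rw [hq2, ← mul_assoc, hWq]
      calc ‖q2 * W * q2‖ = ‖q2 * (W * p)‖ := by rw [mul_assoc, h1]
        _ ≤ ‖q2‖ * ‖W * p‖ := norm_mul_le _ _
        _ ≤ 1 * κ := mul_le_mul hq2p.norm_le hWp (norm_nonneg _) zero_le_one
        _ = κ := one_mul _
    have e3 : ‖((1 / r : ℝ) : ℂ) • (q2 * x * q2)‖ ≤ 1 / r * X := by
      calc ‖((1 / r : ℝ) : ℂ) • (q2 * x * q2)‖ ≤ ‖((1 / r : ℝ) : ℂ)‖ * ‖q2 * x * q2‖ :=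
            norm_smul_le _ _
        _ ≤ 1 / r * (1 * X * 1) := by
            rw [Complex.norm_real, Real.norm_eq_abs, abs_of_pos hr0]
            gcongr
            calc ‖q2 * x * q2‖ ≤ ‖q2 * x‖ * ‖q2‖ := norm_mul_le _ _
              _ ≤ (‖q2‖ * ‖x‖) * ‖q2‖ := by gcongr; exact norm_mul_le _ _
              _ ≤ 1 * X * 1 := by
                  gcongr
                  · exact hq2p.norm_le
                  · exact hq2p.norm_le
        _ = 1 / r * X := by ring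
    rw [e1]
    calc ‖q2 * W * q2 + ((1 / r : ℝ) : ℂ) • (q2 * x * q2)‖
        ≤ ‖q2 * W * q2‖ + ‖((1 / r : ℝ) : ℂ) • (q2 * x * q2)‖ := norm_add_le _ _
      _ ≤ κ + 1 / r * X := add_le_add e2 e3
      _ = ε * X := by rw [hκ]; ring

/-- so-paving with `r` pieces and any error `ε > 1/r` over a thin MASA -/
theorem upper_gen (hA : IsMASA A M) (hthin : Thin A M) {x : H →L[ℂ] H} (hxM : x ∈ M)
    (hx : IsSelfAdjoint x) {r : ℕ} (hr : 1 ≤ r) {ε : ℝ} (hε : 1 / (r : ℝ) < ε) :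
    SoPavable A M x ε r := by
  intro F δ hδ
  obtain ⟨η, hηpos, hloc⟩ := upper_local hA hxM hx hr hε F (δ := δ / 2) (by positivity)
  obtain ⟨q, P, hqM, hq, hqF, hPη⟩ := hthin F (δ / 2) η (by positivity) hηpos
  obtain ⟨p, a, q2, hp, haA, hasa, han, hq2M, hq2, -, hq2F, hnorm⟩ := hloc q P hqM hq hPη
  refine ⟨p, a, q2, hp, haA, hasa, han, hq2M, hq2, fun ξ hξ => ?_, hnorm⟩
  have e1 : (1 - q2) ξ = (1 - q) ξ + (q - q2) ξ := by
    simp only [sub_apply]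
    abel
  rw [e1]
  calc ‖(1 - q) ξ + (q - q2) ξ‖ ≤ ‖(1 - q) ξ‖ + ‖(q - q2) ξ‖ := norm_add_le _ _
    _ < δ / 2 + δ / 2 := add_lt_add_of_lt_of_le (hqF ξ hξ) (hq2F ξ hξ)
    _ = δ := by ring

end Vale.Agent.P078
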